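import Vale.Agent.P335.Defs

/-! T7: the number of pairings. -/

namespace Vale.Agent.P335

namespace PairAux

variable {V : Type*}

/-- the local condition at one vertex -/
def Loc (N c : V → Prop) (σ : Equiv.Perm V) : Prop :=
  ∀ w, (N w → N (σ w) ∧ (c (σ w) ↔ ¬ c w) ∧ σ (σ w) = w) ∧ (¬ N w → σ w = w)

open Classical in
/-- the involution attached to a bijection between the two colour classes -/
noncomputable def fn (N c : V → Prop) (e : {w // N w ∧ c w} ≃ {w // N w ∧ ¬ c w}) (w : V) : V :=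
  if h : N w ∧ c w then (e ⟨w, h⟩).1 else if h : N w ∧ ¬ c w then (e.symm ⟨w, h⟩).1 else w

theorem fn_red {N c : V → Prop} (e : {w // N w ∧ c w} ≃ {w // N w ∧ ¬ c w}) {w : V}
    (h : N w ∧ c w) : fn N c e w = (e ⟨w, h⟩).1 := by
  unfold fn
  rw [dif_pos h]

theorem fn_blue {N c : V → Prop} (e : {w // N w ∧ c w} ≃ {w // N w ∧ ¬ c w}) {w : V}
    (h : N w ∧ ¬ c w) : fn N c e w = (e.symm ⟨w, h⟩).1 := by
  unfold fn
  rw [dif_neg (fun h' => h.2 h'.2), dif_pos h]

theorem fn_not {N c : V → Prop} (e : {w // N w ∧ c w} ≃ {w // N w ∧ ¬ c w}) {w : V}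
    (h : ¬ N w) : fn N c e w = w := by
  unfold fn
  rw [dif_neg (fun h' => h h'.1), dif_neg (fun h' => h h'.1)]

theorem fn_invol (N c : V → Prop) (e : {w // N w ∧ c w} ≃ {w // N w ∧ ¬ c w}) :
    Function.Involutive (fn N c e) := by
  intro w
  by_cases hN : N w
  · by_cases hc : c w
    · rw [fn_red e ⟨hN, hc⟩, fn_blue e (e ⟨w, hN, hc⟩).2]
      simp
    · rw [fn_blue e ⟨hN, hc⟩, fn_red e (e.symm ⟨w, hN, hc⟩).2]
      simp
  · rw [fn_not e hN, fn_not e hN]

theorem fn_loc (N c : V → Prop) (e : {w // N w ∧ c w} ≃ {w // N w ∧ ¬ c w}) :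
    Loc N c ((fn_invol N c e).toPerm) := by
  intro w
  refine ⟨fun hN => ?_, fun hN => fn_not e hN⟩
  refine ⟨?_, ?_, fn_invol N c e w⟩
  · show N (fn N c e w)
    by_cases hc : c w
    · rw [fn_red e ⟨hN, hc⟩]; exact (e ⟨w, hN, hc⟩).2.1
    · rw [fn_blue e ⟨hN, hc⟩]; exact (e.symm ⟨w, hN, hc⟩).2.1
  · show c (fn N c e w) ↔ ¬ c w
    by_cases hc : c w
    · rw [fn_red e ⟨hN, hc⟩]
      have := (e ⟨w, hN, hc⟩).2.2
      tauto
    · rw [fn_blue e ⟨hN, hc⟩]
      have := (e.symm ⟨w, hN, hc⟩).2.2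
      tauto

noncomputable def locEquiv (N c : V → Prop) :
    {σ : Equiv.Perm V // Loc N c σ} ≃ ({w // N w ∧ c w} ≃ {w // N w ∧ ¬ c w}) where
  toFun σ :=
    { toFun := fun w => ⟨σ.1 w.1, ((σ.2 w.1).1 w.2.1).1,
        fun h => (((σ.2 w.1).1 w.2.1).2.1.1 h) w.2.2⟩
      invFun := fun w => ⟨σ.1 w.1, ((σ.2 w.1).1 w.2.1).1,
        ((σ.2 w.1).1 w.2.1).2.1.2 w.2.2⟩
      left_inv := fun w => Subtype.ext ((σ.2 w.1).1 w.2.1).2.2
      right_inv := fun w => Subtype.ext ((σ.2 w.1).1 w.2.1).2.2 }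
  invFun e := ⟨(fn_invol N c e).toPerm, fn_loc N c e⟩
  left_inv := by
    rintro ⟨σ, hσ⟩
    refine Subtype.ext (Equiv.ext fun w => ?_)
    show fn N c _ w = σ w
    by_cases hN : N w
    · by_cases hc : c w
      · rw [fn_red _ ⟨hN, hc⟩]; rfl
      · rw [fn_blue _ ⟨hN, hc⟩]; rfl
    · rw [fn_not _ hN]
      exact ((hσ w).2 hN).symm
  right_inv := by
    intro e
    refine Equiv.ext fun w => Subtype.ext ?_
    show fn N c e w.1 = (e w).1
    rw [fn_red e w.2]

open Classical in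
theorem card_split [Finite V] (N c : V → Prop) :
    Nat.card {w // N w} = Nat.card {w // N w ∧ c w} + Nat.card {w // N w ∧ ¬ c w} := by
  have : Fintype V := Fintype.ofFinite V
  rw [Nat.card_eq_fintype_card, Nat.card_eq_fintype_card, Nat.card_eq_fintype_card,
    Fintype.card_subtype, Fintype.card_subtype, Fintype.card_subtype,
    ← Finset.card_filter_add_card_filter_not (s := Finset.univ.filter N) c,
    Finset.filter_filter, Finset.filter_filter]

open Classical in
theorem card_loc_of_eq [Finite V] (N c : V → Prop)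
    (h : Nat.card {w // N w ∧ c w} = Nat.card {w // N w ∧ ¬ c w}) :
    Nat.card {σ : Equiv.Perm V // Loc N c σ} = (Nat.card {w // N w} / 2).factorial := by
  have : Fintype V := Fintype.ofFinite V
  rw [Nat.card_congr (locEquiv N c), card_split N c, ← h]
  have h1 : (Nat.card {w // N w ∧ c w} + Nat.card {w // N w ∧ c w}) / 2 =
      Nat.card {w // N w ∧ c w} := by omega
  rw [h1]
  rw [Nat.card_eq_fintype_card, Nat.card_eq_fintype_card] at h
  rw [Nat.card_eq_fintype_card, Nat.card_eq_fintype_card]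
  exact Fintype.card_equiv (Fintype.equivOfCardEq h)

theorem card_loc_le [Finite V] (N c : V → Prop) :
    Nat.card {σ : Equiv.Perm V // Loc N c σ} ≤ (Nat.card {w // N w} / 2).factorial := by
  by_cases h : Nat.card {w // N w ∧ c w} = Nat.card {w // N w ∧ ¬ c w}
  · exact (card_loc_of_eq N c h).le
  · rw [Nat.card_congr (locEquiv N c)]
    have : IsEmpty ({w // N w ∧ c w} ≃ {w // N w ∧ ¬ c w}) := ⟨fun e => h (Nat.card_congr e)⟩
    rw [Nat.card_of_isEmpty]
    exact Nat.zero_le _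

theorem ncard_pairing [Fintype V] (D : SimpleGraph V) (χ : V → V → Prop) :
    {ψ : V → Equiv.Perm V | IsPairing D χ ψ}.ncard =
      ∏ v, Nat.card {σ : Equiv.Perm V // Loc (D.Adj v) (χ v) σ} := by
  rw [← Nat.card_pi]
  rw [← Nat.card_coe_set_eq]
  exact Nat.card_congr (Equiv.subtypePiEquivPi (p := fun v σ => Loc (D.Adj v) (χ v) σ))

theorem dg_eq [Fintype V] (D : SimpleGraph V) (v : V) : dg D v = Nat.card {w // D.Adj v w} := by
  unfold dg
  rw [← Nat.card_coe_set_eq]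
  rfl

end PairAux

open PairAux

theorem card_pairing_le {V : Type*} [Fintype V] (D : SimpleGraph V) (χ : V → V → Prop) :
    {ψ : V → Equiv.Perm V | IsPairing D χ ψ}.ncard ≤ NP D := by
  rw [ncard_pairing]
  unfold NP
  refine Finset.prod_le_prod' fun v _ => ?_
  rw [dg_eq]
  exact card_loc_le _ _

theorem card_pairing_eq {V : Type*} [Fintype V] (D : SimpleGraph V) (χ : V → V → Prop)
    (hbal : ∀ v, {w | D.Adj v w ∧ χ v w}.ncard = {w | D.Adj v w ∧ ¬ χ v w}.ncard) :
    {ψ : V → Equiv.Perm V | IsPairing D χ ψ}.ncard = NP D := by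
  rw [ncard_pairing]
  unfold NP
  refine Finset.prod_congr rfl fun v _ => ?_
  rw [dg_eq]
  refine card_loc_of_eq _ _ ?_
  have := hbal v
  rw [← Nat.card_coe_set_eq, ← Nat.card_coe_set_eq] at this
  exact this

end Vale.Agent.P335
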