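import Vale.Agent.P335.Defs

/-! P335, T8: the circuits of a pairing are alternating circuits. -/

namespace Vale.Agent.P335

open scoped symmDiff

namespace WalkAux

variable {V : Type*} (X X' : SimpleGraph V) (ψ : V → Equiv.Perm V)

theorem symmDiff_adj' (v w : V) :
    (X ∆ X').Adj v w ↔ (X.Adj v w ∧ ¬ X'.Adj v w) ∨ (X'.Adj v w ∧ ¬ X.Adj v w) := by
  simp [symmDiff_def, SimpleGraph.sup_adj, SimpleGraph.sdiff_adj]

theorem fwd (hψ : IsPairing (X ∆ X') X.Adj ψ) (p : V × V) (hp : (X ∆ X').Adj p.1 p.2) :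
    (X ∆ X').Adj (phi ψ p).1 (phi ψ p).2 ∧
      (X.Adj (phi ψ p).1 (phi ψ p).2 ↔ ¬ X.Adj p.1 p.2) ∧
      phi ψ ((phi ψ p).2, (phi ψ p).1) = (p.2, p.1) := by
  have h := (hψ p.2 p.1).1 hp.symm
  refine ⟨h.1, ?_, ?_⟩
  · rw [X.adj_comm p.1 p.2]; exact h.2.1
  · change (p.2, ψ p.2 (ψ p.2 p.1)) = (p.2, p.1)
    rw [h.2.2]

theorem bwd (hψ : IsPairing (X ∆ X') X.Adj ψ) (p : V × V) (hp : (X ∆ X').Adj p.1 p.2) :
    ∃ q : V × V, phi ψ q = p ∧ (X ∆ X').Adj q.1 q.2 ∧ (X.Adj q.1 q.2 ↔ ¬ X.Adj p.1 p.2) := by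
  have h := (hψ p.1 p.2).1 hp
  refine ⟨(ψ p.1 p.2, p.1), ?_, h.1.symm, ?_⟩
  · change (p.1, ψ p.1 (ψ p.1 p.2)) = p
    rw [h.2.2]
  · change X.Adj (ψ p.1 p.2) p.1 ↔ _
    rw [X.adj_comm]; exact h.2.1

theorem P_succ (a : V × V) (k : ℤ) : (phi ψ ^ (k + 1)) a = phi ψ ((phi ψ ^ k) a) := by
  rw [add_comm, zpow_one_add]; rfl

theorem inv (hψ : IsPairing (X ∆ X') X.Adj ψ) (a : V × V) (ha : X.Adj a.1 a.2)
    (ha' : ¬ X'.Adj a.1 a.2) (k : ℤ) :
    (X ∆ X').Adj ((phi ψ ^ k) a).1 ((phi ψ ^ k) a).2 ∧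
      (X.Adj ((phi ψ ^ k) a).1 ((phi ψ ^ k) a).2 ↔ Even k) := by
  induction k using Int.induction_on with
  | zero =>
    rw [zpow_zero]
    exact ⟨(symmDiff_adj' X X' _ _).mpr (Or.inl ⟨ha, ha'⟩), by simpa using ha⟩
  | succ k ih =>
    rw [P_succ]
    have h := fwd X X' ψ hψ _ ih.1
    exact ⟨h.1, by rw [h.2.1, ih.2, Int.even_add_one]⟩
  | pred k ih =>
    obtain ⟨q, hq, h1, h2⟩ := bwd X X' ψ hψ _ ih.1
    have h3 : q = (phi ψ ^ (-(k : ℤ) - 1)) a := by
      apply (phi ψ).injective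
      rw [hq, ← P_succ]
      congr 2
      ring
    rw [← h3]
    refine ⟨h1, ?_⟩
    rw [h2, ih.2, Int.even_sub_one]

end WalkAux

open WalkAux in
theorem altCirc_of_pairing {V : Type*} [Fintype V] (X X' : SimpleGraph V)
    (ψ : V → Equiv.Perm V) (hψ : IsPairing (X ∆ X') X.Adj ψ) (a : V × V)
    (ha : X.Adj a.1 a.2) (ha' : ¬ X'.Adj a.1 a.2) :
    ∃ l, l ≤ Fintype.card V ^ 2 ∧ AltCirc X X' (fun k => ((phi ψ ^ k) a).1) l := by
  classical
  obtain ⟨N, hN⟩ : ∃ N, N = Function.minimalPeriod (phi ψ • ·) a := ⟨_, rfl⟩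
  have hNd : ∀ n : ℤ, (phi ψ ^ n) a = a ↔ (N : ℤ) ∣ n := by
    intro n
    rw [hN]
    exact MulAction.zpow_smul_eq_iff_minimalPeriod_dvd (a := phi ψ) (b := a)
  have hinv := inv X X' ψ hψ a ha ha'
  have hsnd : ∀ k : ℤ, ((phi ψ ^ k) a).2 = ((phi ψ ^ (k + 1)) a).1 := by
    intro k; rw [P_succ]; rfl
  have hNcard : N ≤ Fintype.card V ^ 2 := by
    rw [hN, MulAction.minimalPeriod_eq_card]
    calc Fintype.card (MulAction.orbit (Subgroup.zpowers (phi ψ)) a) ≤ Fintype.card (V × V) :=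
          Fintype.card_subtype_le _
      _ = Fintype.card V ^ 2 := by rw [Fintype.card_prod, sq]
  have hNpos : 0 < N := by
    rw [hN, MulAction.minimalPeriod_eq_card]
    exact Fintype.card_pos_iff.mpr ⟨⟨a, MulAction.mem_orbit_self a⟩⟩
  have hNeven : Even (N : ℤ) := by
    have h1 := (hNd N).mpr dvd_rfl
    have h2 := (hinv N).2
    rw [h1] at h2
    exact h2.mp ha
  have hNeven' : Even N := by exact_mod_cast hNeven
  obtain ⟨l, hl⟩ := hNeven'
  have hl2 : (2 * l : ℤ) = N := by rw [hl]; push_cast; ring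
  have hadj : ∀ k : ℤ, (X ∆ X').Adj ((phi ψ ^ k) a).1 ((phi ψ ^ (k + 1)) a).1 ∧
      (X.Adj ((phi ψ ^ k) a).1 ((phi ψ ^ (k + 1)) a).1 ↔ Even k) := by
    intro k
    rw [← hsnd k]
    exact hinv k
  refine ⟨l, by omega, ⟨by omega, ?_, ?_, ?_, ?_⟩⟩
  · intro k
    have h1 : (phi ψ ^ (k + 2 * (l : ℤ))) a = (phi ψ ^ k) a := by
      rw [zpow_add, Equiv.Perm.mul_apply, (hNd _).mpr (by rw [hl2])]
    simp only [h1]
  · intro k
    have h1 := hadj (2 * k)
    have h2 : X.Adj ((phi ψ ^ (2 * k)) a).1 ((phi ψ ^ (2 * k + 1)) a).1 :=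
      h1.2.mpr (even_two_mul k)
    refine ⟨h2, ?_⟩
    rcases (symmDiff_adj' X X' _ _).mp h1.1 with h3 | h3
    · exact h3.2
    · exact absurd h2 h3.2
  · intro k
    have h1 := hadj (2 * k + 1)
    have h2 : ¬ X.Adj ((phi ψ ^ (2 * k + 1)) a).1 ((phi ψ ^ (2 * k + 1 + 1)) a).1 := by
      rw [h1.2, Int.not_even_iff_odd]
      exact odd_two_mul_add_one k
    have h4 : (2 * k + 1 + 1 : ℤ) = 2 * k + 2 := by ring
    rw [h4] at h1 h2
    rcases (symmDiff_adj' X X' _ _).mp h1.1 with h3 | h3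
    · exact absurd h3.1 h2
    · exact ⟨h3.1, h2⟩
  · intro k m hkm
    simp only [Sym2.eq_iff] at hkm
    rcases hkm with ⟨h1, h2⟩ | ⟨h1, h2⟩
    · rw [← hsnd, ← hsnd] at h2
      have h3 : (phi ψ ^ k) a = (phi ψ ^ m) a := Prod.ext h1 h2
      rw [hl2, ← hNd, sub_eq_add_neg, add_comm, zpow_add, Equiv.Perm.mul_apply, h3, ← Equiv.Perm.mul_apply,
        ← zpow_add]
      simp
    · exfalso
      rw [← hsnd] at h1 h2
      -- P m = swap (P k)
      have hrev : ∀ j : ℕ, (phi ψ ^ (m + j)) a =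
          (((phi ψ ^ (k - j)) a).2, ((phi ψ ^ (k - j)) a).1) := by
        intro j
        induction j with
        | zero => simp only [Nat.cast_zero, add_zero, sub_zero]; exact Prod.ext h2.symm h1.symm
        | succ j ih =>
          have e1 : (m + ((j + 1 : ℕ) : ℤ)) = m + j + 1 := by push_cast; ring
          have e2 : (k - (j : ℤ)) = (k - ((j + 1 : ℕ) : ℤ)) + 1 := by push_cast; ring
          rw [e1, P_succ, ih]
          have h5 := fwd X X' ψ hψ _ (hinv (k - ((j + 1 : ℕ) : ℤ))).1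
          rw [← P_succ, ← e2] at h5
          exact h5.2.2
      have hrev' : ∀ j : ℕ, (phi ψ ^ (m - j)) a =
          (((phi ψ ^ (k + j)) a).2, ((phi ψ ^ (k + j)) a).1) := by
        intro j
        induction j with
        | zero => simp only [Nat.cast_zero, add_zero, sub_zero]; exact Prod.ext h2.symm h1.symm
        | succ j ih =>
          have e1 : (k + ((j + 1 : ℕ) : ℤ)) = k + j + 1 := by push_cast; ring
          have e2 : (m - (j : ℤ)) = (m - ((j + 1 : ℕ) : ℤ)) + 1 := by push_cast; ring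
          apply (phi ψ).injective
          rw [← P_succ, ← e2, ih, e1, P_succ]
          have h5 := fwd X X' ψ hψ _ (hinv (k + (j : ℤ))).1
          exact h5.2.2.symm
      have hpar : Even k ↔ Even m := by
        rw [← (hinv k).2, ← (hinv m).2, h1, h2, X.adj_comm]
      rcases le_total m k with hmk | hmk
      · obtain ⟨j, hj⟩ : ∃ j : ℕ, k - m = 2 * j := by
          have h3 : Even (k - m) := by rw [Int.even_sub]; exact hpar
          obtain ⟨t, ht⟩ := h3
          exact ⟨t.toNat, by omega⟩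
        have h3 := hrev j
        have e1 : k - (j : ℤ) = m + j := by omega
        rw [e1] at h3
        have h4 := congrArg Prod.fst h3
        exact (hinv (m + j)).1.ne h4
      · obtain ⟨j, hj⟩ : ∃ j : ℕ, m - k = 2 * j := by
          have h3 : Even (m - k) := by rw [Int.even_sub]; exact hpar.symm
          obtain ⟨t, ht⟩ := h3
          exact ⟨t.toNat, by omega⟩
        have h3 := hrev' j
        have e1 : m - (j : ℤ) = k + j := by omega
        rw [e1] at h3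
        have h4 := congrArg Prod.fst h3
        exact (hinv (k + j)).1.ne h4

end Vale.Agent.P335
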