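import Vale.Agent.P335.Defs
import Vale.Agent.P335.Walk
import Vale.Agent.P335.PairCount

/-! P335, T11: the encoding. -/

namespace Vale.Agent.P335

open scoped symmDiff

namespace EncAux

open WalkAux

variable {V : Type*}

theorem pairing_swap (X X' : SimpleGraph V) (ψ : V → Equiv.Perm V)
    (hψ : IsPairing (X ∆ X') X.Adj ψ) : IsPairing (X' ∆ X) X'.Adj ψ := by
  intro v w
  rw [symmDiff_comm X' X]
  refine ⟨fun h => ?_, (hψ v w).2⟩
  have h1 := (hψ v w).1 h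
  refine ⟨h1.1, ?_, h1.2.2⟩
  have e1 := (symmDiff_adj' X X' _ _).mp h
  have e2 := (symmDiff_adj' X X' _ _).mp h1.1
  have e3 := h1.2.1
  tauto

theorem walk_inj [Fintype V] (X X' : SimpleGraph V) (ψ : V → Equiv.Perm V)
    (hψ : IsPairing (X ∆ X') X.Adj ψ) (a : V × V) (ha : (X ∆ X').Adj a.1 a.2) :
    (∀ k : ℤ, (X ∆ X').Adj ((phi ψ ^ k) a).1 ((phi ψ ^ k) a).2) ∧
    ∀ k m : ℤ, s(((phi ψ ^ k) a).1, ((phi ψ ^ k) a).2) =
      s(((phi ψ ^ m) a).1, ((phi ψ ^ m) a).2) → (phi ψ ^ k) a = (phi ψ ^ m) a := by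
  have key : ∀ (X X' : SimpleGraph V), IsPairing (X ∆ X') X.Adj ψ → X.Adj a.1 a.2 →
      ¬ X'.Adj a.1 a.2 →
      (∀ k : ℤ, (X ∆ X').Adj ((phi ψ ^ k) a).1 ((phi ψ ^ k) a).2) ∧
      ∀ k m : ℤ, s(((phi ψ ^ k) a).1, ((phi ψ ^ k) a).2) =
      s(((phi ψ ^ m) a).1, ((phi ψ ^ m) a).2) → (phi ψ ^ k) a = (phi ψ ^ m) a := by
    intro X X' hψ h1 h2
    refine ⟨fun k => (inv X X' ψ hψ a h1 h2 k).1, ?_⟩
    obtain ⟨l, -, hc⟩ := altCirc_of_pairing X X' ψ hψ a h1 h2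
    have hsnd : ∀ k : ℤ, ((phi ψ ^ k) a).2 = ((phi ψ ^ (k + 1)) a).1 := by
      intro k; rw [P_succ]; rfl
    intro k m hkm
    rw [hsnd k, hsnd m] at hkm
    obtain ⟨t, ht⟩ := hc.inj k m hkm
    have hper : Function.Periodic (fun k : ℤ => ((phi ψ ^ k) a).1) (2 * l : ℤ) := hc.per
    have hper' := hper.int_mul t
    have e1 : k = m + t * (2 * l) := by linarith
    have e2 : ((phi ψ ^ k) a).1 = ((phi ψ ^ m) a).1 := by
      rw [e1]; exact hper' m
    have e3 : ((phi ψ ^ (k + 1)) a).1 = ((phi ψ ^ (m + 1)) a).1 := by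
      have : k + 1 = (m + 1) + t * (2 * l) := by linarith
      rw [this]; exact hper' (m + 1)
    apply Prod.ext e2
    rw [hsnd k, hsnd m, e3]
  rcases (symmDiff_adj' X X' _ _).mp ha with h | h
  · exact key X X' hψ h.1 h.2
  · have := key X' X (pairing_swap X X' ψ hψ) h.1 h.2
    rwa [symmDiff_comm X' X] at this

/-- the modified colouring -/
def chi (Y : SimpleGraph V) (a b : V × V) (v w : V) : Prop :=
  Y.Adj v w ↔ ¬ ((v, w) = a ∨ (v, w) = b)

/-- interior darts of the arc -/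
def IntD (ψ : V → Equiv.Perm V) (a : V × V) (L : ℕ) (v w : V) : Prop :=
  (∃ k : ℕ, 1 ≤ k ∧ k < L ∧ (v, w) = (phi ψ ^ k) a) ∨
  (∃ k : ℕ, k + 1 < L ∧ (w, v) = (phi ψ ^ k) a)

theorem P_succ' (ψ : V → Equiv.Perm V) (a : V × V) (k : ℕ) :
    (phi ψ ^ (k + 1)) a = phi ψ ((phi ψ ^ k) a) := by
  rw [pow_succ']; rfl

theorem intD_step (X X' : SimpleGraph V) (ψ : V → Equiv.Perm V)
    (hψ : IsPairing (X ∆ X') X.Adj ψ) (a : V × V) (L : ℕ) (v w : V)
    (hvw : (X ∆ X').Adj v w) (h : IntD ψ a L v w) : IntD ψ a L v (ψ v w) := by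
  rcases h with ⟨k, h1, h2, h3⟩ | ⟨k, h1, h2⟩
  · right
    obtain ⟨k, rfl⟩ : ∃ k', k = k' + 1 := ⟨k - 1, by omega⟩
    refine ⟨k, h2, ?_⟩
    rw [P_succ'] at h3
    apply (phi ψ).injective
    rw [← h3]
    change (v, ψ v (ψ v w)) = (v, w)
    rw [((hψ v w).1 hvw).2.2]
  · left
    refine ⟨k + 1, by omega, h1, ?_⟩
    rw [P_succ', ← h2]
    rfl

theorem logic (x A p q : Prop) (h1 : p → ¬ A) (h2 : q → ¬ A) (h3 : p → ¬ q) :
    (((x ∧ ¬ (A ∨ p ∨ q)) ∨ ((A ∨ p ∨ q) ∧ ¬ x)) ↔ ¬ (p ∨ q)) ↔ (x ↔ ¬ A) := by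
  by_cases c1 : x <;> by_cases c2 : A <;> by_cases c3 : p <;> by_cases c4 : q <;>
    simp [c1, c2, c3, c4] at h1 h2 h3 ⊢

theorem main [Fintype V] (X X' : SimpleGraph V) (ψ : V → Equiv.Perm V)
    (hψ : IsPairing (X ∆ X') X.Adj ψ) (a : V × V) (ha : (X ∆ X').Adj a.1 a.2)
    (L : ℕ) (hL : 1 ≤ L) (hper : ∀ k : ℕ, 0 < k → k ≤ L → (phi ψ ^ k) a ≠ a) :
    IsPairing ((X ∆ arcP ψ a L) ∆ (X' ∆ arcP ψ a L))
      (chi (X ∆ arcP ψ a L) a (((phi ψ ^ (L - 1)) a).2, ((phi ψ ^ (L - 1)) a).1)) ψ := by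
  obtain ⟨hD, hinj⟩ := walk_inj X X' ψ hψ a ha
  have hDn : ∀ k : ℕ, (X ∆ X').Adj ((phi ψ ^ k) a).1 ((phi ψ ^ k) a).2 := by
    intro k
    have := hD k
    rwa [zpow_natCast] at this
  have hinjn : ∀ k m : ℕ, s(((phi ψ ^ k) a).1, ((phi ψ ^ k) a).2) =
      s(((phi ψ ^ m) a).1, ((phi ψ ^ m) a).2) → (phi ψ ^ k) a = (phi ψ ^ m) a := by
    intro k m
    have := hinj k m
    rwa [zpow_natCast, zpow_natCast] at this
  have hne : ∀ k m : ℕ, k < m → m ≤ L → (phi ψ ^ k) a ≠ (phi ψ ^ m) a := by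
    intro k m hkm hm h
    refine hper (m - k) (by omega) (by omega) ?_
    have e1 : m = k + (m - k) := by omega
    rw [e1, pow_add, Equiv.Perm.mul_apply] at h
    exact ((phi ψ ^ k).injective h).symm
  have e0 : (X ∆ arcP ψ a L) ∆ (X' ∆ arcP ψ a L) = X ∆ X' := by
    rw [symmDiff_symmDiff_symmDiff_comm, symmDiff_self, symmDiff_bot]
  obtain ⟨b, hb⟩ : ∃ b : V × V, b = (((phi ψ ^ (L - 1)) a).2, ((phi ψ ^ (L - 1)) a).1) :=
    ⟨_, rfl⟩
  rw [e0, ← hb]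
  have hP0 : (phi ψ ^ 0) a = a := rfl
  -- description of the arc
  have harc : ∀ v w, (arcP ψ a L).Adj v w ↔ IntD ψ a L v w ∨ (v, w) = a ∨ (v, w) = b := by
    intro v w
    have e1 : (arcP ψ a L).Adj v w ↔ ∃ k : ℕ, k < L ∧
        ((v, w) = (phi ψ ^ k) a ∨ (w, v) = (phi ψ ^ k) a) := by
      unfold arcP
      rw [SimpleGraph.fromEdgeSet_adj]
      constructor
      · rintro ⟨⟨k, hk, h⟩, -⟩
        refine ⟨k, hk, ?_⟩
        rcases Sym2.eq_iff.mp h with ⟨h1, h2⟩ | ⟨h1, h2⟩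
        · left; exact Prod.ext h1 h2
        · right; exact Prod.ext h2 h1
      · rintro ⟨k, hk, h⟩
        have h3 := hDn k
        refine ⟨⟨k, hk, ?_⟩, ?_⟩
        · rcases h with h | h
          · rw [← h]
          · rw [← h]; exact Sym2.eq_swap
        · rcases h with h | h
          · rw [← h] at h3; exact h3.ne
          · rw [← h] at h3; exact h3.ne'
    rw [e1]
    constructor
    · rintro ⟨k, hk, h | h⟩
      · rcases Nat.eq_zero_or_pos k with hk0 | hk0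
        · right; left
          rw [hk0, hP0] at h; exact h
        · left; left; exact ⟨k, hk0, hk, h⟩
      · rcases Nat.lt_or_ge (k + 1) L with hk1 | hk1
        · left; right; exact ⟨k, hk1, h⟩
        · right; right
          have : k = L - 1 := by omega
          rw [this] at h
          rw [hb, ← h]
    · rintro ((⟨k, h1, h2, h3⟩ | ⟨k, h1, h2⟩) | h | h)
      · exact ⟨k, h2, Or.inl h3⟩
      · exact ⟨k, by omega, Or.inr h2⟩
      · exact ⟨0, by omega, Or.inl h⟩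
      · refine ⟨L - 1, by omega, Or.inr ?_⟩
        rw [hb] at h
        have h1 := congrArg Prod.fst h
        have h2 := congrArg Prod.snd h
        exact Prod.ext h2 h1
  -- exclusivity
  have hswap : ∀ k m : ℕ, (phi ψ ^ k) a ≠ (((phi ψ ^ m) a).2, ((phi ψ ^ m) a).1) := by
    intro k m h
    have h1 : s(((phi ψ ^ k) a).1, ((phi ψ ^ k) a).2) =
        s(((phi ψ ^ m) a).1, ((phi ψ ^ m) a).2) := by
      rw [h]; exact Sym2.eq_swap
    have h2 := hinjn k m h1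
    rw [h2] at h
    have h3 := congrArg Prod.fst h
    exact (hDn m).ne h3
  have hnA : ¬ IntD ψ a L a.1 a.2 := by
    rintro (⟨k, h1, h2, h3⟩ | ⟨k, h1, h2⟩)
    · exact hper k h1 h2.le h3.symm
    · refine hswap 0 k ?_
      rw [← h2, hP0]
  have hnB : ¬ IntD ψ a L b.1 b.2 := by
    rintro (⟨k, h1, h2, h3⟩ | ⟨k, h1, h2⟩)
    · refine hswap k (L - 1) ?_
      rw [← h3, hb]
    · refine hne k (L - 1) (by omega) (by omega) ?_
      rw [← h2, hb]
  have hab : a ≠ b := by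
    intro h
    refine hswap 0 (L - 1) ?_
    rw [hP0, ← hb]; exact h
  -- the colouring
  have hchi : ∀ v w, chi (X ∆ arcP ψ a L) a b v w ↔ (X.Adj v w ↔ ¬ IntD ψ a L v w) := by
    intro v w
    unfold chi
    rw [symmDiff_adj', harc v w]
    refine logic _ _ _ _ ?_ ?_ ?_
    · intro h
      rw [show v = a.1 from congrArg Prod.fst h, show w = a.2 from congrArg Prod.snd h]
      exact hnA
    · intro h
      rw [show v = b.1 from congrArg Prod.fst h, show w = b.2 from congrArg Prod.snd h]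
      exact hnB
    · intro h h'
      exact hab (h.symm.trans h')
  intro v w
  refine ⟨fun h => ?_, (hψ v w).2⟩
  have h1 := (hψ v w).1 h
  refine ⟨h1.1, ?_, h1.2.2⟩
  have h2 : IntD ψ a L v (ψ v w) ↔ IntD ψ a L v w := by
    constructor
    · intro h3
      have := intD_step X X' ψ hψ a L v (ψ v w) h1.1 h3
      rwa [h1.2.2] at this
    · exact intD_step X X' ψ hψ a L v w h
  rw [hchi, hchi, h2]
  have h3 := h1.2.1
  tauto

end EncAux

open EncAux in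
open Classical in
theorem encode_sum {V : Type*} [Fintype V] (d : V → ℕ) (g : SimpleGraph V → ℝ)
    (hg : ∀ Y, 0 ≤ g Y) (a : V × V) (L : ℕ) (hL : 1 ≤ L) :
    ∑ t ∈ (Trip d).filter (fun t => (t.1 ∆ t.2.1).Adj a.1 a.2 ∧
        (∀ k : ℕ, 0 < k → k ≤ L → (phi t.2.2 ^ k) a ≠ a) ∧
        Near 8 d (t.1 ∆ arcP t.2.2 a L) ∧ Near 8 d (t.2.1 ∆ arcP t.2.2 a L)),
      1 / (NP (t.1 ∆ t.2.1) : ℝ) * g (t.1 ∆ arcP t.2.2 a L) ≤
    (Fintype.card V : ℝ) ^ 2 * (NrF d).card * ∑ Y ∈ NrF d, g Y := by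
  obtain ⟨π, hπ⟩ : ∃ π : SimpleGraph V × SimpleGraph V × (V → Equiv.Perm V) →
      SimpleGraph V × SimpleGraph V × (V × V) × (V → Equiv.Perm V),
      π = fun t => (t.1 ∆ arcP t.2.2 a L, t.2.1 ∆ arcP t.2.2 a L,
        (((phi t.2.2 ^ (L - 1)) a).2, ((phi t.2.2 ^ (L - 1)) a).1), t.2.2) := ⟨_, rfl⟩
  obtain ⟨w, hw⟩ : ∃ w : SimpleGraph V × SimpleGraph V × (V × V) × (V → Equiv.Perm V) → ℝ,
      w = fun s => 1 / (NP (s.1 ∆ s.2.1) : ℝ) * g s.1 := ⟨_, rfl⟩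
  have hNP : ∀ D : SimpleGraph V, (0 : ℝ) < NP D := by
    intro D
    have : 0 < NP D := Finset.prod_pos (fun v _ => Nat.factorial_pos _)
    exact_mod_cast this
  have hw0 : ∀ s, 0 ≤ w s := by
    intro s
    rw [hw]
    exact mul_nonneg (by have := hNP (s.1 ∆ s.2.1); positivity) (hg _)
  have e0 : ∀ X X' Z : SimpleGraph V, (X ∆ Z) ∆ (X' ∆ Z) = X ∆ X' := by
    intro X X' Z
    rw [symmDiff_symmDiff_symmDiff_comm, symmDiff_self, symmDiff_bot]
  have hinj : Function.Injective π := by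
    rintro ⟨X, X', ψ⟩ ⟨Z, Z', ψ'⟩ h
    rw [hπ] at h
    simp only [Prod.mk.injEq] at h
    obtain ⟨h1, h2, -, h4⟩ := h
    subst h4
    rw [symmDiff_left_injective _ h1, symmDiff_left_injective _ h2]
  have hwπ : ∀ t, 1 / (NP (t.1 ∆ t.2.1) : ℝ) * g (t.1 ∆ arcP t.2.2 a L) = w (π t) := by
    intro t
    rw [hw, hπ]
    simp only [e0]
  have h1 : ∑ t ∈ (Trip d).filter (fun t => (t.1 ∆ t.2.1).Adj a.1 a.2 ∧
        (∀ k : ℕ, 0 < k → k ≤ L → (phi t.2.2 ^ k) a ≠ a) ∧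
        Near 8 d (t.1 ∆ arcP t.2.2 a L) ∧ Near 8 d (t.2.1 ∆ arcP t.2.2 a L)),
      1 / (NP (t.1 ∆ t.2.1) : ℝ) * g (t.1 ∆ arcP t.2.2 a L) ≤
      ∑ s ∈ (NrF d ×ˢ NrF d ×ˢ (Finset.univ : Finset (V × V)) ×ˢ
        (Finset.univ : Finset (V → Equiv.Perm V))).filter
        (fun s => IsPairing (s.1 ∆ s.2.1) (chi s.1 a s.2.2.1) s.2.2.2), w s := by
    rw [Finset.sum_congr rfl (fun t _ => hwπ t),
      ← Finset.sum_image (fun x _ y _ h => hinj h)]
    apply Finset.sum_le_sum_of_subset_of_nonneg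
    · intro s hs
      obtain ⟨t, ht, rfl⟩ := Finset.mem_image.mp hs
      rw [Finset.mem_filter] at ht
      obtain ⟨ht0, ht1, ht2, ht3, ht4⟩ := ht
      rw [Trip, Finset.mem_filter] at ht0
      rw [Finset.mem_filter]
      refine ⟨?_, ?_⟩
      · simp only [Finset.mem_product, Finset.mem_univ, and_true, hπ, NrF, Finset.mem_filter,
          true_and]
        exact ⟨ht3, ht4⟩
      · rw [hπ]
        exact main t.1 t.2.1 t.2.2 ht0.2.2.2 a ht1 L hL ht2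
    · intro s _ _
      exact hw0 s
  refine h1.trans ?_
  have h2 : ∀ Y Y' : SimpleGraph V, ∀ b : V × V,
      ∑ ψ : V → Equiv.Perm V, (if IsPairing (Y ∆ Y') (chi Y a b) ψ then w (Y, Y', b, ψ) else 0) ≤
        g Y := by
    intro Y Y' b
    rw [← Finset.sum_filter]
    have h3 : ∀ ψ ∈ (Finset.univ : Finset (V → Equiv.Perm V)).filter
        (fun ψ => IsPairing (Y ∆ Y') (chi Y a b) ψ), w (Y, Y', b, ψ) =
        1 / (NP (Y ∆ Y') : ℝ) * g Y := by
      intro ψ _; rw [hw]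
    rw [Finset.sum_congr rfl h3, Finset.sum_const, nsmul_eq_mul]
    have h4 : (((Finset.univ : Finset (V → Equiv.Perm V)).filter
        (fun ψ => IsPairing (Y ∆ Y') (chi Y a b) ψ)).card : ℝ) ≤ NP (Y ∆ Y') := by
      have h5 := card_pairing_le (Y ∆ Y') (chi Y a b)
      rw [Set.ncard_eq_toFinset_card'] at h5
      have h6 : ({ψ : V → Equiv.Perm V | IsPairing (Y ∆ Y') (chi Y a b) ψ}.toFinset) =
        (Finset.univ : Finset (V → Equiv.Perm V)).filter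
        (fun ψ => IsPairing (Y ∆ Y') (chi Y a b) ψ) := by
        ext ψ; simp
      rw [h6] at h5
      exact_mod_cast h5
    calc _ ≤ (NP (Y ∆ Y') : ℝ) * (1 / (NP (Y ∆ Y') : ℝ) * g Y) :=
          mul_le_mul_of_nonneg_right h4
            (mul_nonneg (by have := hNP (Y ∆ Y'); positivity) (hg _))
      _ = g Y := by
        have := (hNP (Y ∆ Y')).ne'
        field_simp
  rw [Finset.sum_filter, Finset.sum_product]
  calc ∑ Y ∈ NrF d, ∑ s ∈ NrF d ×ˢ (Finset.univ : Finset (V × V)) ×ˢ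
        (Finset.univ : Finset (V → Equiv.Perm V)),
        (if IsPairing (Y ∆ s.1) (chi Y a s.2.1) s.2.2 then w (Y, s) else 0)
      = ∑ Y ∈ NrF d, ∑ Y' ∈ NrF d, ∑ b : V × V, ∑ ψ : V → Equiv.Perm V,
        (if IsPairing (Y ∆ Y') (chi Y a b) ψ then w (Y, Y', b, ψ) else 0) := by
        apply Finset.sum_congr rfl
        intro Y _
        rw [Finset.sum_product]
        apply Finset.sum_congr rfl
        intro Y' _
        rw [Finset.sum_product]
    _ ≤ ∑ Y ∈ NrF d, ∑ Y' ∈ NrF d, ∑ _b : V × V, g Y := by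
        apply Finset.sum_le_sum; intro Y _
        apply Finset.sum_le_sum; intro Y' _
        apply Finset.sum_le_sum; intro b _
        exact h2 Y Y' b
    _ = (Fintype.card V : ℝ) ^ 2 * (NrF d).card * ∑ Y ∈ NrF d, g Y := by
        simp only [Finset.sum_const, nsmul_eq_mul, Finset.card_univ, Fintype.card_prod]
        rw [Finset.mul_sum]
        apply Finset.sum_congr rfl
        intro Y _
        push_cast
        ring

end Vale.Agent.P335
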