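import Vale.Agent.P335.Basic
import Vale.Agent.P335.PairCount

/-! P335, T12: telescoping over the circuits of a pairing. -/

namespace Vale.Agent.P335

open scoped symmDiff

namespace FlipAux

variable {V : Type*}

/-- A `ψ`-closed subgraph of `D`. -/
def Clo (D U : SimpleGraph V) (ψ : V → Equiv.Perm V) : Prop :=
  U ≤ D ∧ ∀ v w, U.Adj v w → U.Adj v (ψ v w)

theorem clo_iff {D U : SimpleGraph V} {χ : V → V → Prop} {ψ : V → Equiv.Perm V}
    (hψ : IsPairing D χ ψ) (hU : Clo D U ψ) (v w : V) (h : D.Adj v w) :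
    U.Adj v (ψ v w) ↔ U.Adj v w := by
  constructor
  · intro h1
    have h2 := hU.2 _ _ h1
    rwa [((hψ v w).1 h).2.2] at h2
  · exact hU.2 _ _

theorem P_succ (ψ : V → Equiv.Perm V) (a : V × V) (k : ℤ) :
    (phi ψ ^ (k + 1)) a = phi ψ ((phi ψ ^ k) a) := by
  rw [add_comm, zpow_one_add]; rfl

theorem clo_phi {D U : SimpleGraph V} {χ : V → V → Prop} {ψ : V → Equiv.Perm V}
    (hψ : IsPairing D χ ψ) (hU : Clo D U ψ) (p : V × V) (h : U.Adj p.1 p.2) (k : ℤ) :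
    U.Adj ((phi ψ ^ k) p).1 ((phi ψ ^ k) p).2 := by
  induction k using Int.induction_on with
  | zero => simpa using h
  | succ k ih =>
    rw [P_succ]
    exact hU.2 _ _ ih.symm
  | pred k ih =>
    obtain ⟨q, hq⟩ : ∃ q, q = (phi ψ ^ (-(k : ℤ) - 1)) p := ⟨_, rfl⟩
    have h1 : phi ψ q = (phi ψ ^ (-(k : ℤ))) p := by
      rw [hq, ← P_succ]; congr 2; ring
    rw [← hq]
    rw [← h1] at ih
    have h2 : U.Adj q.2 (ψ q.2 q.1) := ih
    have h3 := hU.2 _ _ h2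
    -- `D.Adj q.2 (ψ q.2 q.1)`
    have h4 : D.Adj q.2 q.1 := by
      by_contra hn
      have h5 := (hψ q.2 q.1).2 hn
      rw [h5] at h2
      exact hn (hU.1 h2)
    rw [((hψ q.2 q.1).1 h4).2.2] at h3
    exact h3.symm

theorem circ_adj (ψ : V → Equiv.Perm V) (a : V × V) (x y : V) :
    (circ ψ a).Adj x y ↔
      (∃ k : ℤ, s(x, y) = s(((phi ψ ^ k) a).1, ((phi ψ ^ k) a).2)) ∧ x ≠ y := by
  simp [circ]

theorem clo_self {D : SimpleGraph V} {χ : V → V → Prop} {ψ : V → Equiv.Perm V}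
    (hψ : IsPairing D χ ψ) : Clo D D ψ :=
  ⟨le_rfl, fun v w h => ((hψ v w).1 h).1⟩

theorem clo_circ {D : SimpleGraph V} {χ : V → V → Prop} {ψ : V → Equiv.Perm V}
    (hψ : IsPairing D χ ψ) (a : V × V) (ha : D.Adj a.1 a.2) : Clo D (circ ψ a) ψ := by
  have hD := clo_phi hψ (clo_self hψ) a ha
  refine ⟨?_, ?_⟩
  · intro x y h
    rw [circ_adj] at h
    obtain ⟨⟨k, hk⟩, -⟩ := h
    rw [Sym2.eq_iff] at hk
    rcases hk with ⟨h1, h2⟩ | ⟨h1, h2⟩
    · rw [h1, h2]; exact hD k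
    · rw [h1, h2]; exact (hD k).symm
  · intro x y h
    rw [circ_adj] at h ⊢
    obtain ⟨⟨k, hk⟩, hne⟩ := h
    have hDxy : D.Adj x y := by
      rw [Sym2.eq_iff] at hk
      rcases hk with ⟨h1, h2⟩ | ⟨h1, h2⟩
      · rw [h1, h2]; exact hD k
      · rw [h1, h2]; exact (hD k).symm
    have hD2 := ((hψ x y).1 hDxy)
    refine ⟨?_, hD2.1.ne⟩
    rw [Sym2.eq_iff] at hk
    rcases hk with ⟨h1, h2⟩ | ⟨h1, h2⟩
    · -- `(x, y) = φ^k a`
      refine ⟨k - 1, ?_⟩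
      obtain ⟨q, hq⟩ : ∃ q, q = (phi ψ ^ (k - 1)) a := ⟨_, rfl⟩
      have h3 : phi ψ q = (phi ψ ^ k) a := by
        rw [hq, ← P_succ]; congr 2; ring
      rw [← hq]
      have h4 : (phi ψ ^ k) a = (x, y) := by rw [h1, h2]
      rw [h4] at h3
      have h5 : q.2 = x := congrArg Prod.fst h3
      have h6 : ψ q.2 q.1 = y := congrArg Prod.snd h3
      have h7 : D.Adj q.1 q.2 := by
        have := hD (k - 1); rwa [← hq] at this
      have h8 := ((hψ q.2 q.1).1 h7.symm).2.2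
      rw [h6, h5] at h8
      rw [h8, h5]
      exact Sym2.eq_swap
    · refine ⟨k + 1, ?_⟩
      rw [P_succ]
      have h4 : (phi ψ ^ k) a = (y, x) := by rw [h1, h2]
      rw [h4]
      rfl

theorem circ_dich {D U : SimpleGraph V} {χ : V → V → Prop} {ψ : V → Equiv.Perm V}
    (hψ : IsPairing D χ ψ) (hU : Clo D U ψ) (a : V × V) :
    circ ψ a ≤ U ∨ ∀ x y, (circ ψ a).Adj x y → ¬ U.Adj x y := by
  by_cases h : ∃ x y, (circ ψ a).Adj x y ∧ U.Adj x y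
  · left
    obtain ⟨x, y, h1, h2⟩ := h
    rw [circ_adj] at h1
    obtain ⟨⟨k, hk⟩, -⟩ := h1
    have h3 : U.Adj ((phi ψ ^ k) a).1 ((phi ψ ^ k) a).2 := by
      rw [Sym2.eq_iff] at hk
      rcases hk with ⟨h1, h4⟩ | ⟨h1, h4⟩
      · rw [← h1, ← h4]; exact h2
      · rw [← h1, ← h4]; exact h2.symm
    have h4 : ∀ m : ℤ, U.Adj ((phi ψ ^ m) a).1 ((phi ψ ^ m) a).2 := by
      intro m
      have h5 := clo_phi hψ hU _ h3 (m - k)
      rw [← Equiv.Perm.mul_apply, ← zpow_add, sub_add_cancel] at h5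
      exact h5
    intro x y h
    rw [circ_adj] at h
    obtain ⟨⟨m, hm⟩, -⟩ := h
    rw [Sym2.eq_iff] at hm
    rcases hm with ⟨h1, h2⟩ | ⟨h1, h2⟩
    · rw [h1, h2]; exact h4 m
    · rw [h1, h2]; exact (h4 m).symm
  · right
    push Not at h
    exact h

/-- The union of the circuits of the darts in `S`. -/
def UU (D : SimpleGraph V) (ψ : V → Equiv.Perm V) (S : Set (V × V)) : SimpleGraph V :=
  ⨆ a : {a : V × V // a ∈ S ∧ D.Adj a.1 a.2}, circ ψ a.1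

theorem UU_adj (D : SimpleGraph V) (ψ : V → Equiv.Perm V) (S : Set (V × V)) (x y : V) :
    (UU D ψ S).Adj x y ↔ ∃ a, a ∈ S ∧ D.Adj a.1 a.2 ∧ (circ ψ a).Adj x y := by
  unfold UU
  rw [SimpleGraph.iSup_adj]
  constructor
  · rintro ⟨⟨a, ha, ha'⟩, h⟩
    exact ⟨a, ha, ha', h⟩
  · rintro ⟨a, ha, ha', h⟩
    exact ⟨⟨a, ha, ha'⟩, h⟩

theorem clo_UU {D : SimpleGraph V} {χ : V → V → Prop} {ψ : V → Equiv.Perm V}
    (hψ : IsPairing D χ ψ) (S : Set (V × V)) : Clo D (UU D ψ S) ψ := by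
  refine ⟨?_, ?_⟩
  · intro x y h
    rw [UU_adj] at h
    obtain ⟨a, -, ha, h⟩ := h
    exact (clo_circ hψ a ha).1 h
  · intro x y h
    rw [UU_adj] at h ⊢
    obtain ⟨a, ha', ha, h⟩ := h
    exact ⟨a, ha', ha, (clo_circ hψ a ha).2 _ _ h⟩

theorem UU_empty (D : SimpleGraph V) (ψ : V → Equiv.Perm V) : UU D ψ ∅ = ⊥ := by
  ext x y
  rw [UU_adj]
  simp

theorem UU_univ {D : SimpleGraph V} {χ : V → V → Prop} {ψ : V → Equiv.Perm V}
    (hψ : IsPairing D χ ψ) : UU D ψ Set.univ = D := by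
  refine le_antisymm (clo_UU hψ _).1 ?_
  intro x y h
  rw [UU_adj]
  refine ⟨(x, y), trivial, h, ?_⟩
  rw [circ_adj]
  exact ⟨⟨0, by simp⟩, h.ne⟩

theorem UU_insert_of_not (D : SimpleGraph V) (ψ : V → Equiv.Perm V) (S : Set (V × V))
    (a : V × V) (ha : ¬ D.Adj a.1 a.2) : UU D ψ (insert a S) = UU D ψ S := by
  ext x y
  rw [UU_adj, UU_adj]
  constructor
  · rintro ⟨b, hb | hb, hb', h⟩
    · exact absurd (hb ▸ hb') ha
    · exact ⟨b, hb, hb', h⟩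
  · rintro ⟨b, hb, hb', h⟩
    exact ⟨b, Or.inr hb, hb', h⟩

theorem UU_insert (D : SimpleGraph V) (ψ : V → Equiv.Perm V) (S : Set (V × V))
    (a : V × V) (ha : D.Adj a.1 a.2) : UU D ψ (insert a S) = UU D ψ S ⊔ circ ψ a := by
  ext x y
  rw [SimpleGraph.sup_adj, UU_adj, UU_adj]
  constructor
  · rintro ⟨b, hb | hb, hb', h⟩
    · exact Or.inr (hb ▸ h)
    · exact Or.inl ⟨b, hb, hb', h⟩
  · rintro (⟨b, hb, hb', h⟩ | h)
    · exact ⟨b, Or.inr hb, hb', h⟩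
    · exact ⟨a, Or.inl rfl, ha, h⟩

theorem symmDiff_flip (X X' U : SimpleGraph V) : (X ∆ U) ∆ (X' ∆ U) = X ∆ X' := by
  ext x y
  simp only [symmDiff_adj']
  tauto

theorem pairing_flip {X X' U : SimpleGraph V} {ψ : V → Equiv.Perm V}
    (hψ : IsPairing (X ∆ X') X.Adj ψ) (hU : Clo (X ∆ X') U ψ) :
    IsPairing ((X ∆ U) ∆ (X' ∆ U)) (X ∆ U).Adj ψ := by
  rw [symmDiff_flip]
  intro v w
  refine ⟨fun h => ?_, (hψ v w).2⟩
  obtain ⟨h1, h2, h3⟩ := (hψ v w).1 h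
  refine ⟨h1, ?_, h3⟩
  have h4 := clo_iff hψ hU v w h
  rw [symmDiff_adj', symmDiff_adj', h4, h2]
  tauto

theorem pairing_swap {X X' : SimpleGraph V} {ψ : V → Equiv.Perm V}
    (hψ : IsPairing (X ∆ X') X.Adj ψ) : IsPairing (X' ∆ X) X'.Adj ψ := by
  rw [symmDiff_comm X' X]
  intro v w
  refine ⟨fun h => ?_, (hψ v w).2⟩
  obtain ⟨h1, h2, h3⟩ := (hψ v w).1 h
  refine ⟨h1, ?_, h3⟩
  rw [symmDiff_adj'] at h h1
  tauto

theorem dg_flip [Finite V] {X X' U : SimpleGraph V} {ψ : V → Equiv.Perm V}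
    (hψ : IsPairing (X ∆ X') X.Adj ψ) (hU : Clo (X ∆ X') U ψ) (v : V) :
    dg (X ∆ U) v = dg X v := by
  unfold dg
  have e1 : {w | (X ∆ U).Adj v w} =
      {w | X.Adj v w ∧ ¬ U.Adj v w} ∪ {w | U.Adj v w ∧ ¬ X.Adj v w} := by
    ext w
    simp only [Set.mem_ofPred_eq, Set.mem_union, symmDiff_adj]
  have e2 : {w | X.Adj v w} =
      {w | X.Adj v w ∧ ¬ U.Adj v w} ∪ {w | X.Adj v w ∧ U.Adj v w} := by
    ext w
    simp only [Set.mem_ofPred_eq, Set.mem_union]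
    tauto
  have e3 : {w | U.Adj v w ∧ ¬ X.Adj v w} = ψ v '' {w | X.Adj v w ∧ U.Adj v w} := by
    ext w
    simp only [Set.mem_ofPred_eq, Set.mem_image]
    constructor
    · rintro ⟨h1, h2⟩
      have hD := hU.1 h1
      obtain ⟨h3, h4, h5⟩ := (hψ v w).1 hD
      refine ⟨ψ v w, ⟨?_, hU.2 _ _ h1⟩, h5⟩
      exact h4.mpr h2
    · rintro ⟨x, ⟨h1, h2⟩, rfl⟩
      have hD := hU.1 h2
      obtain ⟨h3, h4, h5⟩ := (hψ v x).1 hD
      refine ⟨hU.2 _ _ h2, ?_⟩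
      rw [h4]
      exact not_not.mpr h1
  rw [e1, e2, Set.ncard_union_eq _ (Set.toFinite _) (Set.toFinite _),
    Set.ncard_union_eq _ (Set.toFinite _) (Set.toFinite _), e3,
    Set.ncard_image_of_injective _ (ψ v).injective]
  · rw [Set.disjoint_left]
    rintro w ⟨h1, h2⟩ ⟨h3, h4⟩
    exact h2 h4
  · rw [Set.disjoint_left]
    rintro w ⟨h1, h2⟩ ⟨h3, h4⟩
    exact h4 h1

theorem real_flip [Finite V] {d : V → ℕ} {X X' U : SimpleGraph V} {ψ : V → Equiv.Perm V}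
    (hX : Real d X) (hψ : IsPairing (X ∆ X') X.Adj ψ) (hU : Clo (X ∆ X') U ψ) :
    Real d (X ∆ U) := fun v => by rw [dg_flip hψ hU]; exact hX v

theorem real_flip' [Finite V] {d : V → ℕ} {X X' U : SimpleGraph V} {ψ : V → Equiv.Perm V}
    (hX' : Real d X') (hψ : IsPairing (X ∆ X') X.Adj ψ) (hU : Clo (X ∆ X') U ψ) :
    Real d (X' ∆ U) := by
  rw [symmDiff_comm X X'] at hU
  exact real_flip hX' (pairing_swap hψ) hU

theorem balanced [Finite V] {d : V → ℕ} {X X' : SimpleGraph V} (hX : Real d X)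
    (hX' : Real d X') (v : V) :
    {w | (X ∆ X').Adj v w ∧ X.Adj v w}.ncard = {w | (X ∆ X').Adj v w ∧ ¬ X.Adj v w}.ncard := by
  have h : {w | X.Adj v w}.ncard = {w | X'.Adj v w}.ncard := by
    have h1 := hX v
    have h2 := hX' v
    unfold dg at h1 h2
    rw [h1, h2]
  have e1 : {w | X.Adj v w} =
      {w | (X ∆ X').Adj v w ∧ X.Adj v w} ∪ {w | X.Adj v w ∧ X'.Adj v w} := by
    ext w
    simp only [Set.mem_ofPred_eq, Set.mem_union, symmDiff_adj]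
    tauto
  have e2 : {w | X'.Adj v w} =
      {w | (X ∆ X').Adj v w ∧ ¬ X.Adj v w} ∪ {w | X.Adj v w ∧ X'.Adj v w} := by
    ext w
    simp only [Set.mem_ofPred_eq, Set.mem_union, symmDiff_adj]
    tauto
  rw [e1, e2, Set.ncard_union_eq _ (Set.toFinite _) (Set.toFinite _),
    Set.ncard_union_eq _ (Set.toFinite _) (Set.toFinite _)] at h
  · exact Nat.add_right_cancel h
  · rw [Set.disjoint_left]
    rintro w ⟨h1, h2⟩ ⟨h3, h4⟩
    exact h2 h3
  · rw [Set.disjoint_left]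
    rintro w ⟨h1, h2⟩ ⟨h3, h4⟩
    rw [symmDiff_adj] at h1
    tauto


section Main
variable [Fintype V]

/-- Flip both graphs along the union of the circuits of `S`. -/
def TT (S : Set (V × V)) (t : SimpleGraph V × SimpleGraph V × (V → Equiv.Perm V)) :
    SimpleGraph V × SimpleGraph V × (V → Equiv.Perm V) :=
  (t.1 ∆ UU (t.1 ∆ t.2.1) t.2.2 S, t.2.1 ∆ UU (t.1 ∆ t.2.1) t.2.2 S, t.2.2)

omit [Fintype V] in
theorem TT_TT (S : Set (V × V)) (t : SimpleGraph V × SimpleGraph V × (V → Equiv.Perm V)) :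
    TT S (TT S t) = t := by
  obtain ⟨X, X', ψ⟩ := t
  simp only [TT, symmDiff_flip, symmDiff_symmDiff_cancel_right]

theorem mem_Trip {d : V → ℕ} {t : SimpleGraph V × SimpleGraph V × (V → Equiv.Perm V)} :
    t ∈ Trip d ↔ Real d t.1 ∧ Real d t.2.1 ∧ IsPairing (t.1 ∆ t.2.1) t.1.Adj t.2.2 := by
  simp [Trip]

theorem TT_mem {d : V → ℕ} (S : Set (V × V))
    {t : SimpleGraph V × SimpleGraph V × (V → Equiv.Perm V)} (ht : t ∈ Trip d) :
    TT S t ∈ Trip d := by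
  obtain ⟨X, X', ψ⟩ := t
  rw [mem_Trip] at ht ⊢
  obtain ⟨h1, h2, h3⟩ := ht
  simp only at h1 h2 h3
  have hc := clo_UU h3 S
  exact ⟨real_flip h1 h3 hc, real_flip' h2 h3 hc, pairing_flip h3 hc⟩

/-- The summand. -/
noncomputable def FF (f : SimpleGraph V → ℝ) (a : V × V)
    (t : SimpleGraph V × SimpleGraph V × (V → Equiv.Perm V)) : ℝ :=
  1 / (NP (t.1 ∆ t.2.1) : ℝ) * (f t.1 - f (t.1 ∆ circ t.2.2 a)) ^ 2

theorem FF_nonneg (f : SimpleGraph V → ℝ) (a : V × V)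
    (t : SimpleGraph V × SimpleGraph V × (V → Equiv.Perm V)) : 0 ≤ FF f a t := by
  unfold FF; positivity

open Classical in
theorem sum_TT (d : V → ℕ) (S : Set (V × V)) (a : V × V)
    (F : SimpleGraph V × SimpleGraph V × (V → Equiv.Perm V) → ℝ) :
    ∑ t ∈ (Trip d).filter (fun t => (t.1 ∆ t.2.1).Adj a.1 a.2), F (TT S t) =
      ∑ t ∈ (Trip d).filter (fun t => (t.1 ∆ t.2.1).Adj a.1 a.2), F t := by
  have key : ∀ t ∈ (Trip d).filter (fun t => (t.1 ∆ t.2.1).Adj a.1 a.2),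
      TT S t ∈ (Trip d).filter (fun t => (t.1 ∆ t.2.1).Adj a.1 a.2) := by
    intro t ht
    rw [Finset.mem_filter] at ht ⊢
    refine ⟨TT_mem S ht.1, ?_⟩
    have : (TT S t).1 ∆ (TT S t).2.1 = t.1 ∆ t.2.1 := by
      simp only [TT, symmDiff_flip]
    rw [this]; exact ht.2
  refine Finset.sum_bij' (fun t _ => TT S t) (fun t _ => TT S t) key key ?_ ?_ ?_
  · intro t _; exact TT_TT S t
  · intro t _; exact TT_TT S t
  · intro t _; rfl

open Classical in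
theorem step_le (d : V → ℕ) (f : SimpleGraph V → ℝ) (S : Set (V × V)) (a : V × V) :
    ∑ t ∈ Trip d, 1 / (NP (t.1 ∆ t.2.1) : ℝ) *
      (f (t.1 ∆ UU (t.1 ∆ t.2.1) t.2.2 S) -
        f (t.1 ∆ UU (t.1 ∆ t.2.1) t.2.2 (insert a S))) ^ 2 ≤
    ∑ t ∈ (Trip d).filter (fun t => (t.1 ∆ t.2.1).Adj a.1 a.2), FF f a t := by
  rw [← sum_TT d S a (FF f a), ← Finset.sum_filter_add_sum_filter_not (Trip d)
    (fun t => (t.1 ∆ t.2.1).Adj a.1 a.2)]
  have h0 : ∑ t ∈ (Trip d).filter (fun t => ¬ (t.1 ∆ t.2.1).Adj a.1 a.2),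
      1 / (NP (t.1 ∆ t.2.1) : ℝ) * (f (t.1 ∆ UU (t.1 ∆ t.2.1) t.2.2 S) -
        f (t.1 ∆ UU (t.1 ∆ t.2.1) t.2.2 (insert a S))) ^ 2 = 0 := by
    refine Finset.sum_eq_zero fun t ht => ?_
    rw [Finset.mem_filter] at ht
    rw [UU_insert_of_not _ _ _ _ ht.2]
    simp
  rw [h0, add_zero]
  refine Finset.sum_le_sum fun t ht => ?_
  rw [Finset.mem_filter, mem_Trip] at ht
  obtain ⟨⟨h1, h2, h3⟩, h4⟩ := ht
  rw [UU_insert _ _ _ _ h4]
  rcases circ_dich h3 (clo_UU h3 S) a with h | h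
  · rw [sup_of_le_left h]
    refine le_trans (le_of_eq ?_) (FF_nonneg f a (TT S t))
    simp
  · refine le_of_eq ?_
    unfold FF
    simp only [TT, symmDiff_flip]
    have h5 : t.1 ∆ (UU (t.1 ∆ t.2.1) t.2.2 S ⊔ circ t.2.2 a) =
        (t.1 ∆ UU (t.1 ∆ t.2.1) t.2.2 S) ∆ circ t.2.2 a := by
      ext x y
      have := h x y
      simp only [symmDiff_adj', SimpleGraph.sup_adj]
      tauto
    rw [h5]

open Classical in
theorem trip_sum (d : V → ℕ) (f : SimpleGraph V → ℝ) :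
    ∑ X ∈ OmF d, ∑ X' ∈ OmF d, (f X - f X') ^ 2 =
      ∑ t ∈ Trip d, 1 / (NP (t.1 ∆ t.2.1) : ℝ) * (f t.1 - f t.2.1) ^ 2 := by
  have h1 : Trip d = (OmF d).biUnion fun X => (OmF d).biUnion fun X' =>
      (Finset.univ.filter fun ψ : V → Equiv.Perm V => IsPairing (X ∆ X') X.Adj ψ).image
        fun ψ => (X, X', ψ) := by
    ext ⟨X, X', ψ⟩
    simp only [mem_Trip, Finset.mem_biUnion, Finset.mem_image, OmF, Finset.mem_filter,
      Finset.mem_univ, true_and, Prod.mk.injEq]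
    constructor
    · rintro ⟨h1, h2, h3⟩
      exact ⟨X, h1, X', h2, ψ, h3, rfl, rfl, rfl⟩
    · rintro ⟨Y, hY, Y', hY', φ, hφ, rfl, rfl, rfl⟩
      exact ⟨hY, hY', hφ⟩
  rw [h1, Finset.sum_biUnion]
  · refine Finset.sum_congr rfl fun X hX => ?_
    rw [Finset.sum_biUnion]
    · refine Finset.sum_congr rfl fun X' hX' => ?_
      rw [Finset.sum_image]
      · simp only
        rw [Finset.sum_const, nsmul_eq_mul]
        simp only [OmF, Finset.mem_filter, Finset.mem_univ, true_and] at hX hX'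
        have h2 := card_pairing_eq (X ∆ X') X.Adj (balanced hX hX')
        have h3 : (Finset.univ.filter fun ψ : V → Equiv.Perm V =>
            IsPairing (X ∆ X') X.Adj ψ).card = NP (X ∆ X') := by
          rw [← h2, Set.ncard_eq_toFinset_card', Set.toFinset_ofPred]
        rw [h3]
        have h4 : (NP (X ∆ X') : ℝ) ≠ 0 := by
          unfold NP
          rw [Nat.cast_ne_zero, Finset.prod_ne_zero_iff]
          intro v _
          exact Nat.factorial_ne_zero _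
        field_simp
      · intro ψ _ φ _ h
        simpa using h
    · intro Y _ Z _ hYZ
      rw [Function.onFun, Finset.disjoint_left]
      intro t h1 h2
      rw [Finset.mem_image] at h1 h2
      obtain ⟨ψ, -, rfl⟩ := h1
      obtain ⟨φ, -, h2⟩ := h2
      simp only [Prod.mk.injEq] at h2
      exact hYZ h2.2.1.symm
  · intro Y _ Z _ hYZ
    rw [Function.onFun, Finset.disjoint_left]
    intro t h1 h2
    rw [Finset.mem_biUnion] at h1 h2
    obtain ⟨Y', -, h1⟩ := h1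
    obtain ⟨Z', -, h2⟩ := h2
    rw [Finset.mem_image] at h1 h2
    obtain ⟨ψ, -, rfl⟩ := h1
    obtain ⟨φ, -, h2⟩ := h2
    simp only [Prod.mk.injEq] at h2
    exact hYZ h2.1.symm

end Main

end FlipAux

open FlipAux in
open Classical in
theorem flip_sum {V : Type*} [Fintype V] (d : V → ℕ) (f : SimpleGraph V → ℝ) :
    ∑ X ∈ OmF d, ∑ X' ∈ OmF d, (f X - f X') ^ 2 ≤
      (Fintype.card V : ℝ) ^ 2 * ∑ a : V × V,
        ∑ t ∈ (Trip d).filter (fun t => (t.1 ∆ t.2.1).Adj a.1 a.2),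
          1 / (NP (t.1 ∆ t.2.1) : ℝ) * (f t.1 - f (t.1 ∆ circ t.2.2 a)) ^ 2 := by
  rw [trip_sum]
  obtain ⟨N, hN⟩ : ∃ N, N = Fintype.card (V × V) := ⟨_, rfl⟩
  have hN2 : (N : ℝ) = (Fintype.card V : ℝ) ^ 2 := by
    rw [hN, Fintype.card_prod]; push_cast; ring
  let e : V × V ≃ Fin N := hN ▸ Fintype.equivFin (V × V)
  let S : ℕ → Set (V × V) := fun k => {a | (e a : ℕ) < k}
  have hS0 : S 0 = ∅ := by ext a; simp [S]
  have hSN : S N = Set.univ := by ext a; simp [S]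
  have hSs : ∀ k (hk : k < N), S (k + 1) = insert (e.symm ⟨k, hk⟩) (S k) := by
    intro k hk
    ext a
    simp only [S, Set.mem_ofPred_eq, Set.mem_insert_iff]
    rw [Nat.lt_succ_iff_lt_or_eq, Equiv.eq_symm_apply, Fin.ext_iff]
    tauto
  have htel : ∀ t ∈ Trip d, 1 / (NP (t.1 ∆ t.2.1) : ℝ) * (f t.1 - f t.2.1) ^ 2 ≤
      N * ∑ k ∈ Finset.range N, 1 / (NP (t.1 ∆ t.2.1) : ℝ) *
        (f (t.1 ∆ UU (t.1 ∆ t.2.1) t.2.2 (S k)) -
          f (t.1 ∆ UU (t.1 ∆ t.2.1) t.2.2 (S (k + 1)))) ^ 2 := by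
    intro t ht
    rw [mem_Trip] at ht
    obtain ⟨h1, h2, h3⟩ := ht
    rw [← Finset.mul_sum, mul_left_comm]
    refine mul_le_mul_of_nonneg_left ?_ (by positivity)
    have h4 : f t.1 - f t.2.1 = ∑ k ∈ Finset.range N,
        (f (t.1 ∆ UU (t.1 ∆ t.2.1) t.2.2 (S k)) -
          f (t.1 ∆ UU (t.1 ∆ t.2.1) t.2.2 (S (k + 1)))) := by
      rw [Finset.sum_range_sub', hS0, hSN, UU_empty, UU_univ h3]
      simp
    rw [h4]
    have h5 := sq_sum_le_card_mul_sum_sq (s := Finset.range N)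
      (f := fun k => f (t.1 ∆ UU (t.1 ∆ t.2.1) t.2.2 (S k)) -
          f (t.1 ∆ UU (t.1 ∆ t.2.1) t.2.2 (S (k + 1))))
    simpa using h5
  refine (Finset.sum_le_sum htel).trans ?_
  rw [← Finset.mul_sum, Finset.sum_comm, ← hN2]
  refine mul_le_mul_of_nonneg_left ?_ (by positivity)
  have h6 : ∑ a : V × V, ∑ t ∈ (Trip d).filter (fun t => (t.1 ∆ t.2.1).Adj a.1 a.2),
      1 / (NP (t.1 ∆ t.2.1) : ℝ) * (f t.1 - f (t.1 ∆ circ t.2.2 a)) ^ 2 =
      ∑ k : Fin N, ∑ t ∈ (Trip d).filter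
        (fun t => (t.1 ∆ t.2.1).Adj (e.symm k).1 (e.symm k).2), FF f (e.symm k) t := by
    rw [← Equiv.sum_comp e.symm]
    rfl
  rw [h6, Finset.sum_range]
  refine Finset.sum_le_sum fun k _ => ?_
  have h7 := step_le d f (S k) (e.symm k)
  have h8 := hSs k k.2
  simp only [Fin.eta] at h8
  rw [h8]
  exact h7

end Vale.Agent.P335
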