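import Vale.Agent.P335.Defs

/-!
# P335: basic lemmas about `dg`, `ed`, symmetric differences and arcs
-/

namespace Vale.Agent.P335

open scoped symmDiff

variable {V : Type*}

theorem symmDiff_adj (G H : SimpleGraph V) (x y : V) :
    (G ∆ H).Adj x y ↔ (G.Adj x y ∧ ¬ H.Adj x y) ∨ (H.Adj x y ∧ ¬ G.Adj x y) := by
  simp [symmDiff_def]

theorem symmDiff_adj' (G H : SimpleGraph V) (x y : V) :
    (G ∆ H).Adj x y ↔ ¬ (G.Adj x y ↔ H.Adj x y) := by
  rw [symmDiff_adj]; tauto

theorem ed_comm (G H : SimpleGraph V) : ed G H = ed H G := by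
  unfold ed; congr 1; ext p; simp only [Set.mem_ofPred_eq]; tauto

@[simp] theorem ed_self (G : SimpleGraph V) : ed G G = 0 := by
  simp [ed]

theorem arcG_adj (v : ℤ → V) (i j : ℤ) (x y : V) :
    (arcG v i j).Adj x y ↔ (∃ k, i ≤ k ∧ k < j ∧ s(x, y) = s(v k, v (k + 1))) ∧ x ≠ y := by
  simp [arcG]

section
variable [Finite V]

theorem dg_add_edge {G G' : SimpleGraph V} {u v : V} (huv : u ≠ v) (hn : ¬ G.Adj u v)
    (h : ∀ x y, G'.Adj x y ↔ G.Adj x y ∨ s(x, y) = s(u, v)) (x : V) [Decidable (x = u)]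
    [Decidable (x = v)] :
    dg G' x = dg G x + (if x = u then 1 else 0) + (if x = v then 1 else 0) := by
  classical
  unfold dg
  by_cases h1 : x = u
  · subst h1
    have : {w | G'.Adj x w} = insert v {w | G.Adj x w} := by
      ext w; simp only [Set.mem_ofPred_eq, Set.mem_insert_iff, h, Sym2.eq_iff]
      constructor
      · rintro (h | ⟨-, h⟩ | ⟨h, h'⟩)
        · exact Or.inr h
        · exact Or.inl h
        · exact absurd h huv
      · rintro (h | h)
        · exact Or.inr (Or.inl ⟨trivial, h⟩)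
        · exact Or.inl h
    have hmem : v ∉ {w | G.Adj x w} := by simpa using hn
    rw [this, Set.ncard_insert_of_notMem hmem (Set.toFinite _)]
    simp [huv]
  · by_cases h2 : x = v
    · subst h2
      have : {w | G'.Adj x w} = insert u {w | G.Adj x w} := by
        ext w; simp only [Set.mem_ofPred_eq, Set.mem_insert_iff, h, Sym2.eq_iff]
        constructor
        · rintro (h | ⟨h, h'⟩ | ⟨-, h⟩)
          · exact Or.inr h
          · exact absurd h (fun hh => huv hh.symm)
          · exact Or.inl h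
        · rintro (h | h)
          · exact Or.inr (Or.inr ⟨trivial, h⟩)
          · exact Or.inl h
      have hmem : u ∉ {w | G.Adj x w} := by
        simp only [Set.mem_ofPred_eq]
        exact fun hh => hn (G.adj_symm hh)
      rw [this, Set.ncard_insert_of_notMem hmem (Set.toFinite _)]
      simp [h1]
    · have : {w | G'.Adj x w} = {w | G.Adj x w} := by
        ext w; simp only [Set.mem_ofPred_eq, h, Sym2.eq_iff]
        constructor
        · rintro (h | ⟨h, h'⟩ | ⟨h, h'⟩)
          · exact h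
          · exact absurd h h1
          · exact absurd h h2
        · exact Or.inl
      rw [this]; simp [h1, h2]

theorem ed_triangle (G H K : SimpleGraph V) : ed G K ≤ ed G H + ed H K := by
  classical
  unfold ed
  refine le_trans (Set.ncard_le_ncard ?_ (Set.toFinite _)) (Set.ncard_union_le _ _)
  intro p hp
  simp only [Set.mem_ofPred_eq, Set.mem_union] at hp ⊢
  tauto

theorem ed_le_two_of_edge {G G' : SimpleGraph V} {u v : V}
    (h : ∀ x y, ¬ (G.Adj x y ↔ G'.Adj x y) → s(x, y) = s(u, v)) : ed G G' ≤ 2 := by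
  classical
  unfold ed
  have : {p : V × V | ¬ (G.Adj p.1 p.2 ↔ G'.Adj p.1 p.2)} ⊆ {(u, v), (v, u)} := by
    rintro ⟨x, y⟩ hp
    have := h x y hp
    rw [Sym2.eq_iff] at this
    rcases this with ⟨h1, h2⟩ | ⟨h1, h2⟩
    · left; simp [h1, h2]
    · right; simp [h1, h2]
  refine (Set.ncard_le_ncard this (Set.toFinite _)).trans ?_
  exact (Set.ncard_insert_le _ _).trans (by simp)

theorem ed_le_six_of_edges {G G' : SimpleGraph V} {a b c e u v : V}
    (h : ∀ x y, ¬ (G.Adj x y ↔ G'.Adj x y) →
      s(x, y) = s(a, b) ∨ s(x, y) = s(c, e) ∨ s(x, y) = s(u, v)) : ed G G' ≤ 6 := by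
  classical
  unfold ed
  have : {p : V × V | ¬ (G.Adj p.1 p.2 ↔ G'.Adj p.1 p.2)} ⊆
      ({(a, b), (b, a)} ∪ {(c, e), (e, c)}) ∪ {(u, v), (v, u)} := by
    rintro ⟨x, y⟩ hp
    have := h x y hp
    simp only [Sym2.eq_iff] at this
    simp only [Set.mem_union, Set.mem_insert_iff, Set.mem_singleton_iff, Prod.mk.injEq]
    tauto
  refine (Set.ncard_le_ncard this (Set.toFinite _)).trans ?_
  refine (Set.ncard_union_le _ _).trans ?_
  have h2 : ∀ p q : V × V, ({p, q} : Set (V × V)).ncard ≤ 2 := fun p q =>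
    (Set.ncard_insert_le _ _).trans (by simp)
  have := Set.ncard_union_le ({(a, b), (b, a)} : Set (V × V)) {(c, e), (e, c)}
  have h3 := h2 (a, b) (b, a)
  have h4 := h2 (c, e) (e, c)
  have h5 := h2 (u, v) (v, u)
  omega

end

end Vale.Agent.P335
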