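import Vale.Agent.P335.Repair

/-!
# P335: local connectivity of the space of realisations under switches
-/

namespace Vale.Agent.P335

open scoped symmDiff

variable {V : Type*}

theorem exists_switchAt (G : SimpleGraph V) {a b c e : V} (hab : a ≠ b) (hac : a ≠ c)
    (hae : a ≠ e) (hbc : b ≠ c) (hbe : b ≠ e) (hce : c ≠ e) (h1 : G.Adj a b)
    (h2 : G.Adj c e) (h3 : ¬ G.Adj a c) (h4 : ¬ G.Adj b e) : ∃ G', SwitchAt G G' a b c e := by
  refine ⟨SimpleGraph.fromEdgeSet {p | (p ∈ G.edgeSet ∧ p ≠ s(a, b) ∧ p ≠ s(c, e)) ∨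
    p = s(a, c) ∨ p = s(b, e)}, hab, hac, hae, hbc, hbe, hce, h1, h2, h3, h4, ?_⟩
  intro x y
  rw [SimpleGraph.fromEdgeSet_adj]
  constructor
  · rintro ⟨h, -⟩; exact h
  · intro h
    refine ⟨h, ?_⟩
    rcases h with ⟨h, -, -⟩ | h | h
    · exact h.ne
    · rintro rfl
      rw [Sym2.eq_iff] at h
      rcases h with ⟨h5, h6⟩ | ⟨h5, h6⟩
      · exact hac (h5.symm.trans h6)
      · exact hac (h6.symm.trans h5)
    · rintro rfl
      rw [Sym2.eq_iff] at h
      rcases h with ⟨h5, h6⟩ | ⟨h5, h6⟩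
      · exact hbe (h5.symm.trans h6)
      · exact hbe (h6.symm.trans h5)

theorem Sw.symm {G H : SimpleGraph V} (h : Sw G H) : Sw H G := by
  obtain ⟨a, b, c, e, hab, hac, hae, hbc, hbe, hce, h1, h2, h3, h4, h5⟩ := h
  have n1 : s(a, b) ≠ s(a, c) := by rw [Ne, Sym2.eq_iff]; tauto
  have n2 : s(a, b) ≠ s(b, e) := by rw [Ne, Sym2.eq_iff]; tauto
  have n3 : s(c, e) ≠ s(a, c) := by
    rw [Ne, Sym2.eq_iff]; rintro (⟨h, -⟩ | ⟨-, h⟩)
    · exact hac h.symm
    · exact hae h.symm
  have n4 : s(c, e) ≠ s(b, e) := by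
    rw [Ne, Sym2.eq_iff]; rintro (⟨h, -⟩ | ⟨h, -⟩)
    · exact hbc h.symm
    · exact hce h
  refine ⟨a, c, b, e, hac, hab, hae, hbc.symm, hce, hbe, ?_, ?_, ?_, ?_, ?_⟩
  · rw [h5]; exact Or.inr (Or.inl rfl)
  · rw [h5]; exact Or.inr (Or.inr rfl)
  · rw [h5]; tauto
  · rw [h5]; tauto
  · intro x y
    rw [h5]
    by_cases e1 : s(x, y) = s(a, b)
    · have := (adj_of_sym2 G e1).2 h1
      rw [e1]; tauto
    by_cases e2 : s(x, y) = s(c, e)
    · have := (adj_of_sym2 G e2).2 h2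
      rw [e2]; tauto
    by_cases e3 : s(x, y) = s(a, c)
    · have := (adj_of_sym2 G e3).not.2 h3
      rw [e3]; tauto
    by_cases e4 : s(x, y) = s(b, e)
    · have := (adj_of_sym2 G e4).not.2 h4
      rw [e4]; tauto
    tauto

theorem DiffIn.refl (A : Set V) (G : SimpleGraph V) : DiffIn A G G := by
  intro x y h; exact absurd Iff.rfl h

theorem DiffIn.symm {A : Set V} {G H : SimpleGraph V} (h : DiffIn A G H) : DiffIn A H G := by
  intro x y hxy; exact h x y (fun hh => hxy hh.symm)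

theorem DiffIn.trans {A : Set V} {G H K : SimpleGraph V} (h : DiffIn A G H)
    (h' : DiffIn A H K) : DiffIn A G K := by
  intro x y hxy
  by_cases h1 : G.Adj x y ↔ H.Adj x y
  · exact h' x y (fun hh => hxy (h1.trans hh))
  · exact h x y h1

theorem DiffIn.mono {A B : Set V} (hAB : A ⊆ B) {G H : SimpleGraph V} (h : DiffIn A G H) :
    DiffIn B G H := fun x y hxy => ⟨hAB (h x y hxy).1, hAB (h x y hxy).2⟩

/-- local switch relation -/
def RA (A : Set V) (K L : SimpleGraph V) : Prop := Sw K L ∧ DiffIn A K L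

theorem RA.symm {A : Set V} {K L : SimpleGraph V} (h : RA A K L) : RA A L K :=
  ⟨h.1.symm, h.2.symm⟩

section
variable [Finite V]

theorem dA_eq {A : Set V} {G H : SimpleGraph V} (hdeg : ∀ v, dg G v = dg H v)
    (hA : DiffIn A G H) (x : V) :
    {w | w ∈ A ∧ G.Adj x w}.ncard = {w | w ∈ A ∧ H.Adj x w}.ncard := by
  have key : ∀ K : SimpleGraph V, dg K x =
      {w | w ∈ A ∧ K.Adj x w}.ncard + {w | w ∉ A ∧ K.Adj x w}.ncard := by
    intro K
    rw [← Set.ncard_union_eq]
    · unfold dg; congr 1; ext w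
      simp only [Set.mem_ofPred_eq, Set.mem_union]
      tauto
    · rw [Set.disjoint_left]
      rintro w ⟨h1, -⟩ ⟨h2, -⟩
      exact h2 h1
  have h1 : {w | w ∉ A ∧ G.Adj x w} = {w | w ∉ A ∧ H.Adj x w} := by
    ext w
    simp only [Set.mem_ofPred_eq]
    constructor
    · rintro ⟨h1, h2⟩
      refine ⟨h1, ?_⟩
      by_contra h3
      exact h1 (hA x w (by tauto)).2
    · rintro ⟨h1, h2⟩
      refine ⟨h1, ?_⟩
      by_contra h3
      exact h1 (hA x w (by tauto)).2
  have h2 := key G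
  have h3 := key H
  have h4 := hdeg x
  rw [h1] at h2
  omega

/-- number of disagreements at `v` -/
noncomputable def dis (G H : SimpleGraph V) (v : V) : ℕ :=
  {w | ¬ (G.Adj v w ↔ H.Adj v w)}.ncard

theorem dis_comm (G H : SimpleGraph V) (v : V) : dis G H v = dis H G v := by
  unfold dis; congr 1; ext w; simp only [Set.mem_ofPred_eq]; tauto

/-- the one-sided step -/
theorem step_aux {A : Set V} {G H : SimpleGraph V} (hA : DiffIn A G H) {v a b : V}
    (ha : G.Adj v a) (ha' : ¬ H.Adj v a) (hb : ¬ G.Adj v b) (hb' : H.Adj v b)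
    (hle : {w | w ∈ A ∧ G.Adj a w}.ncard ≤ {w | w ∈ A ∧ G.Adj b w}.ncard) :
    ∃ G', RA A G G' ∧ dis G' H v < dis G H v := by
  have hvA : v ∈ A := (hA v a (by tauto)).1
  have haA : a ∈ A := (hA v a (by tauto)).2
  have hbA : b ∈ A := (hA v b (by tauto)).2
  have hab : a ≠ b := by rintro rfl; exact hb ha
  have hva : v ≠ a := ha.ne
  have hvb : v ≠ b := hb'.ne
  obtain ⟨w, hwA, hbw, hwa, haw⟩ : ∃ w, w ∈ A ∧ G.Adj b w ∧ w ≠ a ∧ ¬ G.Adj a w := by
    by_contra hcon
    push Not at hcon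
    by_cases hadj : G.Adj a b
    · have hsub : insert v (insert b ({w | w ∈ A ∧ G.Adj b w} \ {a})) ⊆
          {w | w ∈ A ∧ G.Adj a w} := by
        rintro w (rfl | rfl | ⟨⟨h1, h2⟩, h3⟩)
        · exact ⟨hvA, ha.symm⟩
        · exact ⟨hbA, hadj⟩
        · exact ⟨h1, hcon w h1 h2 h3⟩
      have h5 := Set.ncard_le_ncard hsub (Set.toFinite _)
      have h6 := Set.ncard_sdiff_singleton_add_one
        (show a ∈ {w | w ∈ A ∧ G.Adj b w} from ⟨haA, hadj.symm⟩) (Set.toFinite _)
      have h7 : (insert b ({w | w ∈ A ∧ G.Adj b w} \ {a}) : Set V).ncard =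
          ({w | w ∈ A ∧ G.Adj b w} \ {a} : Set V).ncard + 1 :=
        Set.ncard_insert_of_notMem (by
          rintro ⟨⟨-, h⟩, -⟩; exact (SimpleGraph.irrefl G) h) (Set.toFinite _)
      have h8 : (insert v (insert b ({w | w ∈ A ∧ G.Adj b w} \ {a})) : Set V).ncard =
          (insert b ({w | w ∈ A ∧ G.Adj b w} \ {a}) : Set V).ncard + 1 :=
        Set.ncard_insert_of_notMem (by
          rintro (h | ⟨⟨-, h⟩, -⟩)
          · exact hvb h
          · exact hb h.symm) (Set.toFinite _)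
      omega
    · have hsub : insert v {w | w ∈ A ∧ G.Adj b w} ⊆ {w | w ∈ A ∧ G.Adj a w} := by
        rintro w (rfl | ⟨h1, h2⟩)
        · exact ⟨hvA, ha.symm⟩
        · exact ⟨h1, hcon w h1 h2 (by rintro rfl; exact hadj h2.symm)⟩
      have h5 := Set.ncard_le_ncard hsub (Set.toFinite _)
      have h8 : (insert v {w | w ∈ A ∧ G.Adj b w} : Set V).ncard =
          {w | w ∈ A ∧ G.Adj b w}.ncard + 1 :=
        Set.ncard_insert_of_notMem (by
          rintro ⟨-, h⟩
          exact hb h.symm) (Set.toFinite _)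
      omega
  have hvw : v ≠ w := by rintro rfl; exact hb hbw.symm
  obtain ⟨G', hG'⟩ := exists_switchAt G hva hvb hvw hab hwa.symm hbw.ne ha hbw hb haw
  have hadj := hG'.2.2.2.2.2.2.2.2.2.2
  refine ⟨G', ⟨⟨v, a, b, w, hG'⟩, ?_⟩, ?_⟩
  · intro x y hxy
    rw [hadj x y] at hxy
    have hcases : s(x, y) = s(v, a) ∨ s(x, y) = s(b, w) ∨ s(x, y) = s(v, b) ∨
        s(x, y) = s(a, w) := by tauto
    simp only [Sym2.eq_iff] at hcases
    rcases hcases with (⟨rfl, rfl⟩ | ⟨rfl, rfl⟩) | (⟨rfl, rfl⟩ | ⟨rfl, rfl⟩) |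
      (⟨rfl, rfl⟩ | ⟨rfl, rfl⟩) | (⟨rfl, rfl⟩ | ⟨rfl, rfl⟩) <;> exact ⟨by assumption, by assumption⟩
  · unfold dis
    apply Set.ncard_lt_ncard _ (Set.toFinite _)
    rw [Set.ssubset_iff_of_subset]
    · refine ⟨a, ?_, ?_⟩
      · simp only [Set.mem_ofPred_eq]; tauto
      · simp only [Set.mem_ofPred_eq, not_not]
        rw [hadj v a]
        have e1 : s(v, a) ≠ s(v, b) := by
          rw [Ne, Sym2.eq_iff]; rintro (⟨-, h⟩ | ⟨h, -⟩)
          · exact hab h
          · exact hvb h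
        have e2 : s(v, a) ≠ s(a, w) := by
          rw [Ne, Sym2.eq_iff]; rintro (⟨h, -⟩ | ⟨h, -⟩)
          · exact hva h
          · exact hvw h
        tauto
    · intro x hx
      simp only [Set.mem_ofPred_eq] at hx ⊢
      rw [hadj v x] at hx
      intro hiff
      apply hx
      have e2 : s(v, x) ≠ s(a, w) := by
        rw [Ne, Sym2.eq_iff]; rintro (⟨h, -⟩ | ⟨h, -⟩)
        · exact hva h
        · exact hvw h
      have e4 : s(v, x) ≠ s(b, w) := by
        rw [Ne, Sym2.eq_iff]; rintro (⟨h, -⟩ | ⟨h, -⟩)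
        · exact hvb h
        · exact hvw h
      have e1 : s(v, x) = s(v, b) → H.Adj v x := by
        intro h; exact (adj_of_sym2 H h).2 hb'
      have e3 : s(v, x) = s(v, a) → ¬ H.Adj v x := by
        intro h; exact (adj_of_sym2 H h).not.2 ha'
      tauto

theorem step_exists {A : Set V} {G H : SimpleGraph V} (hdeg : ∀ v, dg G v = dg H v)
    (hA : DiffIn A G H) {v : V} (hdis : dis G H v ≠ 0) :
    (∃ G', RA A G G' ∧ dis G' H v < dis G H v) ∨
      (∃ H', RA A H H' ∧ dis G H' v < dis G H v) := by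
  have hne : {w | ¬ (G.Adj v w ↔ H.Adj v w)}.Nonempty := by
    exact Set.nonempty_of_ncard_ne_zero hdis
  have hne2 : {w | G.Adj v w} ≠ {w | H.Adj v w} := by
    intro h
    obtain ⟨w, hw⟩ := hne
    apply hw
    exact Set.ext_iff.1 h w
  obtain ⟨a, ha, ha'⟩ : ∃ a, G.Adj v a ∧ ¬ H.Adj v a := by
    by_contra hcon
    push Not at hcon
    exact hne2 (Set.eq_of_subset_of_ncard_le (fun w hw => hcon w hw)
      (le_of_eq (hdeg v).symm) (Set.toFinite _))
  obtain ⟨b, hb', hb⟩ : ∃ b, H.Adj v b ∧ ¬ G.Adj v b := by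
    by_contra hcon
    push Not at hcon
    exact hne2 (Set.eq_of_subset_of_ncard_le (fun w hw => hcon w hw)
      (le_of_eq (hdeg v)) (Set.toFinite _)).symm
  rcases le_total {w | w ∈ A ∧ G.Adj a w}.ncard {w | w ∈ A ∧ G.Adj b w}.ncard with h | h
  · left; exact step_aux hA ha ha' hb hb' h
  · right
    rw [dA_eq hdeg hA a, dA_eq hdeg hA b] at h
    obtain ⟨H', h1, h2⟩ := step_aux hA.symm hb' hb ha' ha h
    exact ⟨H', h1, by rw [dis_comm G H' v, dis_comm G H v]; exact h2⟩

theorem RA.dg {A : Set V} {G H : SimpleGraph V} (h : RA A G H) (v : V) :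
    Vale.Agent.P335.dg H v = Vale.Agent.P335.dg G v := sw_dg h.1 v

theorem clear_vertex {A : Set V} (v : V) : ∀ (n : ℕ) (G H : SimpleGraph V),
    (∀ v, dg G v = dg H v) → DiffIn A G H → dis G H v = n →
    ∃ G' H', Relation.ReflTransGen (RA A) G G' ∧ Relation.ReflTransGen (RA A) H H' ∧
      dis G' H' v = 0 ∧ (∀ v, dg G' v = dg H' v) ∧ DiffIn A G' H' := by
  intro n
  induction n using Nat.strong_induction_on with
  | _ n ih =>
    intro G H hdeg hA hn
    by_cases h0 : dis G H v = 0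
    · exact ⟨G, H, Relation.ReflTransGen.refl, Relation.ReflTransGen.refl, h0, hdeg, hA⟩
    · rcases step_exists hdeg hA h0 with ⟨G1, h1, h2⟩ | ⟨H1, h1, h2⟩
      · obtain ⟨G', H', a1, a2, a3, a4, a5⟩ := ih (dis G1 H v) (by omega) G1 H
          (fun w => by rw [h1.dg]; exact hdeg w) (h1.2.symm.trans hA) rfl
        exact ⟨G', H', Relation.ReflTransGen.head h1 a1, a2, a3, a4, a5⟩
      · obtain ⟨G', H', a1, a2, a3, a4, a5⟩ := ih (dis G H1 v) (by omega) G H1
          (fun w => by rw [h1.dg]; exact hdeg w) (hA.trans h1.2) rfl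
        exact ⟨G', H', a1, Relation.ReflTransGen.head h1 a2, a3, a4, a5⟩

theorem reach_RA : ∀ (n : ℕ) (A : Set V) (G H : SimpleGraph V), A.ncard = n →
    (∀ v, dg G v = dg H v) → DiffIn A G H → Relation.ReflTransGen (RA A) G H := by
  intro n
  induction n with
  | zero =>
    intro A G H hn hdeg hA
    have hAe : A = ∅ := by
      rwa [Set.ncard_eq_zero (Set.toFinite _)] at hn
    have : G = H := by
      ext x y
      by_contra hcon
      have := (hA x y hcon).1
      rw [hAe] at this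
      exact this
    subst this
    exact Relation.ReflTransGen.refl
  | succ n ih =>
    intro A G H hn hdeg hA
    obtain ⟨v, hv⟩ : A.Nonempty := by
      exact Set.nonempty_of_ncard_ne_zero (by omega)
    obtain ⟨G', H', a1, a2, a3, a4, a5⟩ := clear_vertex (A := A) v _ G H hdeg hA rfl
    have hdis : ∀ w, G'.Adj v w ↔ H'.Adj v w := by
      have : {w | ¬ (G'.Adj v w ↔ H'.Adj v w)} = ∅ := by
        rwa [dis, Set.ncard_eq_zero (Set.toFinite _)] at a3
      intro w
      by_contra hcon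
      have h1 : w ∈ {w | ¬ (G'.Adj v w ↔ H'.Adj v w)} := hcon
      rw [this] at h1
      exact h1
    have hA' : DiffIn (A \ {v}) G' H' := by
      intro x y hxy
      obtain ⟨b1, b2⟩ := a5 x y hxy
      refine ⟨⟨b1, ?_⟩, ⟨b2, ?_⟩⟩
      · rintro rfl; exact hxy (hdis y)
      · rintro rfl
        apply hxy
        rw [SimpleGraph.adj_comm G', SimpleGraph.adj_comm H']
        exact hdis x
    have hcard : (A \ {v}).ncard = n := by
      have := Set.ncard_sdiff_singleton_add_one hv (Set.toFinite _)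
      omega
    have h1 := ih (A \ {v}) G' H' hcard a4 hA'
    have h2 : Relation.ReflTransGen (RA A) G' H' :=
      Relation.ReflTransGen.mono (fun K L hKL => ⟨hKL.1, hKL.2.mono Set.sdiff_subset⟩) _ _ h1
    have h3 : Relation.ReflTransGen (RA A) H' H := by
      clear a1 a3 a4 a5 hdis hA' hcard h1 h2
      induction a2 with
      | refl => exact Relation.ReflTransGen.refl
      | tail _ hbc ih2 => exact Relation.ReflTransGen.head hbc.symm ih2
    exact (a1.trans h2).trans h3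

theorem sw_reachable (A : Set V) (G H : SimpleGraph V)
    (hdeg : ∀ v, dg G v = dg H v) (hA : DiffIn A G H) :
    Relation.ReflTransGen (fun K L => Sw K L ∧ DiffIn A G K ∧ DiffIn A G L) G H := by
  have h := reach_RA _ A G H rfl hdeg hA
  have key : ∀ K, Relation.ReflTransGen (RA A) G K →
      Relation.ReflTransGen (fun K L => Sw K L ∧ DiffIn A G K ∧ DiffIn A G L) G K ∧
      DiffIn A G K := by
    intro K hK
    induction hK with
    | refl => exact ⟨Relation.ReflTransGen.refl, DiffIn.refl A G⟩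
    | tail _ hbc ih =>
      have h3 := ih.2.trans hbc.2
      exact ⟨ih.1.tail ⟨hbc.1, ih.2, h3⟩, h3⟩
  exact (key H h).1

end

end Vale.Agent.P335
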