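import Mathlib

/-!
# P335: on a connected path some step jumps by at least a `1 / |S|` fraction
-/

namespace Vale.Agent.P335

theorem walk_le {S : Type*} {G : SimpleGraph S} (h : S → ℝ) (M : ℝ)
    (hM : ∀ z z', G.Adj z z' → |h z - h z'| ≤ M) {s t : S} (p : G.Walk s t) :
    |h s - h t| ≤ p.length * M := by
  induction p with
  | nil => simp
  | cons hadj p ih =>
    rw [SimpleGraph.Walk.length_cons]
    push_cast
    have h1 := hM _ _ hadj
    refine (abs_sub_le _ _ _).trans ((add_le_add h1 ih).trans ?_)
    linarith

theorem path_jump {S : Type*} [Fintype S] (R : S → S → Prop) (h : S → ℝ) (s t : S)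
    (hst : Relation.ReflTransGen R s t) (hne : s ≠ t) :
    ∃ z z', R z z' ∧ |h s - h t| ≤ Fintype.card S * |h z - h z'| := by
  classical
  by_contra hcon
  push Not at hcon
  have hcard : (0 : ℝ) < Fintype.card S := by
    have : 0 < Fintype.card S := Fintype.card_pos_iff.2 ⟨s⟩
    exact_mod_cast this
  set G : SimpleGraph S := SimpleGraph.fromRel R with hG
  have hreach : G.Reachable s t := by
    clear hcon
    induction hst with
    | refl => exact absurd rfl hne
    | @tail b c hb hbc ih =>
      by_cases hsb : s = b
      · subst hsb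
        exact SimpleGraph.Adj.reachable (by rw [hG, SimpleGraph.fromRel_adj]; exact ⟨hne, Or.inl hbc⟩)
      · have h1 := ih hsb
        by_cases hbc' : b = c
        · subst hbc'; exact h1
        · exact h1.trans (SimpleGraph.Adj.reachable
            (by rw [hG, SimpleGraph.fromRel_adj]; exact ⟨hbc', Or.inl hbc⟩))
  obtain ⟨p, hp⟩ := hreach.exists_isPath
  have hlen := hp.length_lt
  set D := |h s - h t| with hD
  have hedge : ∃ z z', R z z' := by
    rcases Relation.ReflTransGen.cases_head hst with h1 | ⟨c, h1, -⟩
    · exact absurd h1 hne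
    · exact ⟨s, c, h1⟩
  have hDpos : 0 < D := by
    obtain ⟨z, z', hz⟩ := hedge
    have := hcon z z' hz
    exact lt_of_le_of_lt (by positivity) this
  have hM : ∀ z z', G.Adj z z' → |h z - h z'| ≤ D / Fintype.card S := by
    intro z z' hz
    rw [hG, SimpleGraph.fromRel_adj] at hz
    rw [le_div_iff₀ hcard]
    rcases hz.2 with hz | hz
    · have := hcon z z' hz; linarith
    · have := hcon z' z hz; rw [abs_sub_comm]; linarith
  have h1 := walk_le h _ hM p
  have h2 : (p.length : ℝ) < Fintype.card S := by exact_mod_cast hlen
  have h3 : (p.length : ℝ) * (D / Fintype.card S) < Fintype.card S * (D / Fintype.card S) :=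
    mul_lt_mul_of_pos_right h2 (by positivity)
  have h4 : (Fintype.card S : ℝ) * (D / Fintype.card S) = D := by field_simp
  linarith

end Vale.Agent.P335
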