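import Vale.Agent.P335.Basic

/-!
# P335: repairing near-realisations
-/

namespace Vale.Agent.P335

open scoped symmDiff

variable {V : Type*}

/-- toggle the pair `ab` -/
def toggle (G : SimpleGraph V) (a b : V) : SimpleGraph V :=
  G ∆ SimpleGraph.fromEdgeSet {s(a, b)}

theorem toggle_adj (G : SimpleGraph V) (a b x y : V) :
    (toggle G a b).Adj x y ↔ ¬ (G.Adj x y ↔ (s(x, y) = s(a, b) ∧ x ≠ y)) := by
  rw [toggle, symmDiff_adj']; simp

theorem toggle_adj_ne (G : SimpleGraph V) {a b x y : V} (h : s(x, y) ≠ s(a, b)) :
    (toggle G a b).Adj x y ↔ G.Adj x y := by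
  rw [toggle_adj]; tauto

theorem toggle_adj_self (G : SimpleGraph V) {a b x y : V} (hab : a ≠ b)
    (h : s(x, y) = s(a, b)) : (toggle G a b).Adj x y ↔ ¬ G.Adj x y := by
  rw [toggle_adj]
  have hne : x ≠ y := by
    rintro rfl
    rw [Sym2.eq_iff] at h
    rcases h with ⟨h1, h2⟩ | ⟨h1, h2⟩
    · exact hab (h1.symm.trans h2)
    · exact hab (h2.symm.trans h1)
  tauto

theorem adj_of_sym2 (G : SimpleGraph V) {a b x y : V} (h : s(x, y) = s(a, b)) :
    G.Adj x y ↔ G.Adj a b := by
  rw [← SimpleGraph.mem_edgeSet, h, SimpleGraph.mem_edgeSet]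

section
variable [Finite V]

theorem dg_toggle_add {G : SimpleGraph V} {a b : V} (hab : a ≠ b) (hn : ¬ G.Adj a b) (x : V)
    [Decidable (x = a)] [Decidable (x = b)] :
    dg (toggle G a b) x = dg G x + (if x = a then 1 else 0) + (if x = b then 1 else 0) := by
  refine dg_add_edge hab hn ?_ x
  intro x y
  by_cases h : s(x, y) = s(a, b)
  · rw [toggle_adj_self G hab h]
    have := (adj_of_sym2 G h).not.2 hn
    tauto
  · rw [toggle_adj_ne G h]; tauto

theorem dg_toggle_remove {G : SimpleGraph V} {a b : V} (hn : G.Adj a b) (x : V)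
    [Decidable (x = a)] [Decidable (x = b)] :
    dg G x = dg (toggle G a b) x + (if x = a then 1 else 0) + (if x = b then 1 else 0) := by
  have hab := hn.ne
  refine dg_add_edge hab ?_ ?_ x
  · rw [toggle_adj_self G hab rfl]; simpa using hn
  intro x y
  by_cases h : s(x, y) = s(a, b)
  · rw [toggle_adj_self G hab h]
    have := (adj_of_sym2 G h).2 hn
    tauto
  · rw [toggle_adj_ne G h]; tauto

theorem ed_toggle (G : SimpleGraph V) (a b : V) : ed G (toggle G a b) ≤ 2 := by
  refine ed_le_two_of_edge (u := a) (v := b) ?_
  intro x y h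
  by_contra hne
  exact h (toggle_adj_ne G hne).symm

theorem ed_toggle_three (G : SimpleGraph V) (a b c e u v : V) :
    ed G (toggle (toggle (toggle G a b) c e) u v) ≤ 6 := by
  have h1 := ed_toggle G a b
  have h2 := ed_toggle (toggle G a b) c e
  have h3 := ed_toggle (toggle (toggle G a b) c e) u v
  have h4 := ed_triangle G (toggle G a b) (toggle (toggle G a b) c e)
  have h5 := ed_triangle G (toggle (toggle G a b) c e) (toggle (toggle (toggle G a b) c e) u v)
  omega

open Classical in
theorem sw_dg {G H : SimpleGraph V} (h : Sw G H) (v : V) : dg H v = dg G v := by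
  obtain ⟨a, b, c, e, hab, hac, hae, hbc, hbe, hce, h1, h2, h3, h4, h5⟩ := h
  have hH : H = toggle (toggle (toggle (toggle G a b) c e) a c) b e := by
    ext x y
    rw [h5]
    by_cases e1 : s(x, y) = s(a, b)
    · have n2 : s(a, b) ≠ s(c, e) := by simp [Sym2.eq_iff, hac, hae]
      have n3 : s(a, b) ≠ s(a, c) := by simp [Sym2.eq_iff, hbc, hac]
      have n4 : s(a, b) ≠ s(b, e) := by simp [Sym2.eq_iff, hab, hae]
      rw [toggle_adj_ne _ (by rw [e1]; exact n4), toggle_adj_ne _ (by rw [e1]; exact n3),
        toggle_adj_ne _ (by rw [e1]; exact n2), toggle_adj_self _ hab e1, adj_of_sym2 G e1, e1]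
      simp [h1, n3, n4]
    · by_cases e2 : s(x, y) = s(c, e)
      · have n3 : s(c, e) ≠ s(a, c) := by simp [Sym2.eq_iff, hac.symm, hae.symm]
        have n4 : s(c, e) ≠ s(b, e) := by simp [Sym2.eq_iff, hbc.symm, hce]
        rw [toggle_adj_ne _ (by rw [e2]; exact n4), toggle_adj_ne _ (by rw [e2]; exact n3),
          toggle_adj_self _ hce e2, toggle_adj_ne _ e1, adj_of_sym2 G e2, e2]
        simp [h2, n3, n4]
      · by_cases e3 : s(x, y) = s(a, c)
        · have n4 : s(a, c) ≠ s(b, e) := by simp [Sym2.eq_iff, hab, hae]
          rw [toggle_adj_ne _ (by rw [e3]; exact n4), toggle_adj_self _ hac e3,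
            toggle_adj_ne _ e2, toggle_adj_ne _ e1, adj_of_sym2 G e3, e3]
          simp [h3]
        · by_cases e4 : s(x, y) = s(b, e)
          · rw [toggle_adj_self _ hbe e4, toggle_adj_ne _ e3,
              toggle_adj_ne _ e2, toggle_adj_ne _ e1, adj_of_sym2 G e4, e4]
            simp [h4]
          · rw [toggle_adj_ne _ e4, toggle_adj_ne _ e3, toggle_adj_ne _ e2, toggle_adj_ne _ e1]
            simp [e1, e2, e3, e4]
  have m2 : s(c, e) ≠ s(a, b) := by simp [Sym2.eq_iff, hac.symm, hbc.symm]
  have m3 : s(a, c) ≠ s(a, b) := by simp [Sym2.eq_iff, hbc.symm, hab]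
  have m3' : s(a, c) ≠ s(c, e) := by simp [Sym2.eq_iff, hac, hae]
  have m4 : s(b, e) ≠ s(a, b) := by simp [Sym2.eq_iff, hab.symm, hae.symm]
  have m4' : s(b, e) ≠ s(c, e) := by simp [Sym2.eq_iff, hbc, hbe]
  have m4'' : s(b, e) ≠ s(a, c) := by simp [Sym2.eq_iff, hab.symm, hbc]
  have r1 := dg_toggle_remove h1 v
  have r2 := dg_toggle_remove (G := toggle G a b) (a := c) (b := e)
    ((toggle_adj_ne _ m2).2 h2) v
  have r3 := dg_toggle_add (G := toggle (toggle G a b) c e) hac
    (by rw [toggle_adj_ne _ m3', toggle_adj_ne _ m3]; exact h3) v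
  have r4 := dg_toggle_add (G := toggle (toggle (toggle G a b) c e) a c) hbe
    (by rw [toggle_adj_ne _ m4'', toggle_adj_ne _ m4', toggle_adj_ne _ m4]; exact h4) v
  rw [hH]
  omega

end

section
variable [Fintype V] [DecidableEq V]

theorem add_repair (d : V → ℕ) (Y : SimpleGraph V)
    (u v z : V)
    (hdeg : ∀ x, (dg Y x : ℤ) = d x - (if x = u then 1 else 0) - (if x = v then 1 else 0))
    (hzu : z ≠ u) (hz : ¬ Y.Adj u z) (hd : d v ≤ d z + 1) : Near 6 d Y := by
  by_cases h1 : u ≠ v ∧ ¬ Y.Adj u v
  · -- add the edge `uv`
    refine ⟨toggle Y u v, fun x => ?_, (ed_toggle Y u v).trans (by norm_num)⟩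
    have h2 := dg_toggle_add h1.1 h1.2 x
    have h3 := hdeg x
    have h4 : (dg (toggle Y u v) x : ℤ) = d x := by
      rw [h2]; push_cast; rw [h3]; ring
    exact_mod_cast h4
  · -- need `y`
    have huv : u = v ∨ Y.Adj u v := by tauto
    have hzv : z ≠ v := by
      rcases huv with h | h
      · rw [← h]; exact hzu
      · rintro rfl; exact hz h
    obtain ⟨y, hyv, hvy, hyz, hzy⟩ : ∃ y, y ≠ v ∧ ¬ Y.Adj v y ∧ y ≠ z ∧ Y.Adj z y := by
      by_contra hcon
      push Not at hcon
      have hsub : ∀ w, Y.Adj z w → w = v ∨ Y.Adj v w := by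
        intro w hw
        by_contra hc
        push Not at hc
        exact hcon w hc.1 hc.2 hw.ne' hw
      have hz1 := hdeg z
      rw [if_neg hzu, if_neg hzv] at hz1
      have hv1 := hdeg v
      rw [if_pos rfl] at hv1
      rcases huv with h | h
      · -- u = v
        subst h
        have hle : dg Y z ≤ dg Y u := by
          refine Set.ncard_le_ncard ?_ (Set.toFinite _)
          intro w hw
          rcases hsub w hw with h | h
          · subst h; exact absurd hw.symm hz
          · exact h
        rw [if_pos rfl] at hv1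
        omega
      · have hvu : v ≠ u := h.ne'
        rw [if_neg hvu] at hv1
        have hle : dg Y z + 1 ≤ dg Y v := by
          by_cases hzv' : Y.Adj v z
          · have hsub2 : {w | Y.Adj z w} ⊆ insert v ({w | Y.Adj v w} \ {u, z}) := by
              intro w hw
              rcases hsub w hw with h' | h'
              · left; exact h'
              · right
                refine ⟨h', ?_⟩
                rintro (rfl | rfl)
                · exact hz hw.symm
                · exact hw.ne rfl
            have h5 := Set.ncard_le_ncard hsub2 (Set.toFinite _)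
            have h6 := Set.ncard_insert_le v ({w | Y.Adj v w} \ {u, z})
            have h7 : ({w | Y.Adj v w} \ {u, z} : Set V).ncard = {w | Y.Adj v w}.ncard - 2 := by
              rw [Set.ncard_sdiff]
              · rw [Set.ncard_pair hzu.symm]
              · rintro w (rfl | rfl)
                · exact h.symm
                · exact hzv'
            have h8 : 2 ≤ {w | Y.Adj v w}.ncard := by
              rw [← Set.ncard_pair hzu.symm]
              refine Set.ncard_le_ncard ?_ (Set.toFinite _)
              rintro w (rfl | rfl)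
              · exact h.symm
              · exact hzv'
            unfold dg
            omega
          · have hsub2 : {w | Y.Adj z w} ⊆ {w | Y.Adj v w} \ {u} := by
              intro w hw
              rcases hsub w hw with h' | h'
              · subst h'; exact absurd hw.symm hzv'
              · refine ⟨h', ?_⟩
                rintro rfl
                exact hz hw.symm
            have h5 := Set.ncard_le_ncard hsub2 (Set.toFinite _)
            have h7 := Set.ncard_sdiff_singleton_add_one (show u ∈ {w | Y.Adj v w} from h.symm)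
              (Set.toFinite _)
            unfold dg
            omega
        omega
    have hyu : y ≠ u := by
      rintro rfl
      rcases huv with h | h
      · exact hyv h
      · exact hvy h.symm
    have e1 : s(u, z) ≠ s(z, y) := by simp [Sym2.eq_iff, hzu.symm, hyu.symm]
    have e2 : s(v, y) ≠ s(z, y) := by simp [Sym2.eq_iff, hzv.symm, hyv.symm]
    have e3 : s(v, y) ≠ s(u, z) := by
      rw [Ne, Sym2.eq_iff]; push Not
      exact ⟨fun _ => hyz, fun h => absurd h hzv.symm⟩
    refine ⟨toggle (toggle (toggle Y z y) u z) v y, fun x => ?_, ed_toggle_three _ _ _ _ _ _ _⟩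
    have r1 := dg_toggle_remove hzy x
    have r2 := dg_toggle_add (G := toggle Y z y) hzu.symm
      (by rw [toggle_adj_ne _ e1]; exact hz) x
    have r3 := dg_toggle_add (G := toggle (toggle Y z y) u z) hyv.symm
      (by rw [toggle_adj_ne _ e3, toggle_adj_ne _ e2]; exact hvy) x
    have h3 := hdeg x
    zify at r1 r2 r3
    have : (dg (toggle (toggle (toggle Y z y) u z) v y) x : ℤ) = d x := by
      linarith
    exact_mod_cast this

theorem remove_repair (d : V → ℕ) (Y : SimpleGraph V)
    (u v z : V)
    (hdeg : ∀ x, (dg Y x : ℤ) = d x + (if x = u then 1 else 0) + (if x = v then 1 else 0))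
    (hz : Y.Adj u z) (hd : d z ≤ d v + 1) : Near 6 d Y := by
  have hzu : z ≠ u := hz.ne'
  by_cases h1 : u ≠ v ∧ Y.Adj u v
  · refine ⟨toggle Y u v, fun x => ?_, (ed_toggle Y u v).trans (by norm_num)⟩
    have h2 := dg_toggle_remove h1.2 x
    have h3 := hdeg x
    zify at h2
    have h4 : (dg (toggle Y u v) x : ℤ) = d x := by linarith
    exact_mod_cast h4
  · have huv : u = v ∨ ¬ Y.Adj u v := by tauto
    have hzv : z ≠ v := by
      rcases huv with h | h
      · rw [← h]; exact hzu
      · rintro rfl; exact h hz
    obtain ⟨y, hvy, hyz, hzy⟩ : ∃ y, Y.Adj v y ∧ y ≠ z ∧ ¬ Y.Adj z y := by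
      by_contra hcon
      push Not at hcon
      have hz1 := hdeg z
      rw [if_neg hzu, if_neg hzv] at hz1
      have hv1 := hdeg v
      rw [if_pos rfl] at hv1
      rcases huv with h | h
      · subst h
        rw [if_pos rfl] at hv1
        have hsub : insert u ({w | Y.Adj u w} \ {z}) ⊆ {w | Y.Adj z w} := by
          rintro w (rfl | ⟨hw, hwz⟩)
          · exact hz.symm
          · exact hcon w hw hwz
        have h5 := Set.ncard_le_ncard hsub (Set.toFinite _)
        have h6 := Set.ncard_sdiff_singleton_add_one (show z ∈ {w | Y.Adj u w} from hz)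
          (Set.toFinite _)
        have h7 : (insert u ({w | Y.Adj u w} \ {z}) : Set V).ncard =
            ({w | Y.Adj u w} \ {z} : Set V).ncard + 1 :=
          Set.ncard_insert_of_notMem (by
            rintro ⟨hw, -⟩
            exact (SimpleGraph.irrefl Y) hw) (Set.toFinite _)
        unfold dg at hz1 hv1
        omega
      · by_cases huv' : u = v
        · subst huv'
          rw [if_pos rfl] at hv1
          have hsub : insert u ({w | Y.Adj u w} \ {z}) ⊆ {w | Y.Adj z w} := by
            rintro w (rfl | ⟨hw, hwz⟩)
            · exact hz.symm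
            · exact hcon w hw hwz
          have h5 := Set.ncard_le_ncard hsub (Set.toFinite _)
          have h6 := Set.ncard_sdiff_singleton_add_one (show z ∈ {w | Y.Adj u w} from hz)
            (Set.toFinite _)
          have h7 : (insert u ({w | Y.Adj u w} \ {z}) : Set V).ncard =
              ({w | Y.Adj u w} \ {z} : Set V).ncard + 1 :=
            Set.ncard_insert_of_notMem (by
              rintro ⟨hw, -⟩
              exact (SimpleGraph.irrefl Y) hw) (Set.toFinite _)
          unfold dg at hz1 hv1
          omega
        · rw [if_neg (fun hh => huv' hh.symm)] at hv1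
          by_cases hzv' : Y.Adj v z
          · have hsub : insert v (insert u ({w | Y.Adj v w} \ {z})) ⊆ {w | Y.Adj z w} := by
              rintro w (rfl | rfl | ⟨hw, hwz⟩)
              · exact hzv'.symm
              · exact hz.symm
              · exact hcon w hw hwz
            have h5 := Set.ncard_le_ncard hsub (Set.toFinite _)
            have h6 := Set.ncard_sdiff_singleton_add_one (show z ∈ {w | Y.Adj v w} from hzv')
              (Set.toFinite _)
            have h7 : (insert u ({w | Y.Adj v w} \ {z}) : Set V).ncard =
                ({w | Y.Adj v w} \ {z} : Set V).ncard + 1 :=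
              Set.ncard_insert_of_notMem (by
                rintro ⟨hw, -⟩
                exact h (SimpleGraph.Adj.symm hw)) (Set.toFinite _)
            have h8 : (insert v (insert u ({w | Y.Adj v w} \ {z})) : Set V).ncard =
                (insert u ({w | Y.Adj v w} \ {z}) : Set V).ncard + 1 :=
              Set.ncard_insert_of_notMem (by
                rintro (hw | ⟨hw, -⟩)
                · exact huv' hw.symm
                · exact (SimpleGraph.irrefl Y) hw) (Set.toFinite _)
            unfold dg at hz1 hv1
            omega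
          · have hsub : insert u {w | Y.Adj v w} ⊆ {w | Y.Adj z w} := by
              rintro w (rfl | hw)
              · exact hz.symm
              · exact hcon w hw (by rintro rfl; exact hzv' hw)
            have h5 := Set.ncard_le_ncard hsub (Set.toFinite _)
            have h7 : (insert u {w | Y.Adj v w} : Set V).ncard =
                {w | Y.Adj v w}.ncard + 1 :=
              Set.ncard_insert_of_notMem (by
                intro hw
                exact h (SimpleGraph.Adj.symm hw)) (Set.toFinite _)
            unfold dg at hz1 hv1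
            omega
    have hyu : y ≠ u := by
      rintro rfl
      rcases huv with h | h
      · subst h; exact (SimpleGraph.irrefl Y) hvy
      · exact h hvy.symm
    have hyv : y ≠ v := hvy.ne'
    have e1 : s(v, y) ≠ s(u, z) := by
      rw [Ne, Sym2.eq_iff]; push Not
      exact ⟨fun _ => hyz, fun h => absurd h hzv.symm⟩
    have e2 : s(z, y) ≠ s(v, y) := by simp [Sym2.eq_iff, hzv, hyz.symm]
    have e3 : s(z, y) ≠ s(u, z) := by simp [Sym2.eq_iff, hzu, hyu]
    refine ⟨toggle (toggle (toggle Y u z) v y) z y, fun x => ?_, ed_toggle_three _ _ _ _ _ _ _⟩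
    have r1 := dg_toggle_remove hz x
    have r2 := dg_toggle_remove (G := toggle Y u z) (a := v) (b := y)
      (by rw [toggle_adj_ne _ e1]; exact hvy) x
    have r3 := dg_toggle_add (G := toggle (toggle Y u z) v y) (a := z) (b := y) hyz.symm
      (by rw [toggle_adj_ne _ e2, toggle_adj_ne _ e3]; exact hzy) x
    have h3 := hdeg x
    zify at r1 r2 r3
    have : (dg (toggle (toggle (toggle Y u z) v y) z y) x : ℤ) = d x := by
      linarith
    exact_mod_cast this

end

end Vale.Agent.P335
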