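import Vale.Agent.P335.Defs
import Vale.Agent.P335.Basic
import Vale.Agent.P335.PathIneq
import Vale.Agent.P335.Repair
import Vale.Agent.P335.Connect

/-! P335, T10: local comparison. -/

namespace Vale.Agent.P335

open scoped symmDiff

namespace LocalAux

variable {V : Type*} [Fintype V]

theorem exists_code {α : Type*} [Finite α] (r : ℕ) (D : Set α) (h : D.ncard ≤ r) :
    ∃ c : Fin r → Option α, {p | ∃ i, c i = some p} = D := by
  classical
  have := Fintype.ofFinite D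
  have hc : Fintype.card D ≤ r := by
    rw [← Nat.card_eq_fintype_card, Nat.card_coe_set_eq]; exact h
  obtain ⟨e⟩ : Nonempty (Fin (Fintype.card D) ≃ D) := ⟨(Fintype.equivFin D).symm⟩
  refine ⟨fun i => if hi : (i : ℕ) < Fintype.card D then some (e ⟨i, hi⟩).1 else none, ?_⟩
  ext p
  simp only [Set.mem_ofPred_eq]
  constructor
  · rintro ⟨i, hi⟩
    split_ifs at hi with h1
    simp only [Option.some.injEq] at hi
    rw [← hi]
    exact (e ⟨i, h1⟩).2
  · intro hp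
    obtain ⟨j, hj⟩ := e.surjective ⟨p, hp⟩
    refine ⟨⟨j, j.2.trans_le hc⟩, ?_⟩
    rw [dif_pos j.2]
    simp only [Fin.eta, hj]

end LocalAux

open LocalAux in
theorem ball_card {V : Type*} [Fintype V] (r : ℕ) (G : SimpleGraph V) :
    {Y : SimpleGraph V | ed Y G ≤ r}.ncard ≤ (Fintype.card V ^ 2 + 1) ^ r := by
  classical
  have h1 : ∀ Y : SimpleGraph V, ∃ c : Fin r → Option (V × V), ed Y G ≤ r →
      {p | ∃ i, c i = some p} = {p : V × V | ¬ (Y.Adj p.1 p.2 ↔ G.Adj p.1 p.2)} := by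
    intro Y
    by_cases h : ed Y G ≤ r
    · obtain ⟨c, hc⟩ := exists_code r _ h
      exact ⟨c, fun _ => hc⟩
    · exact ⟨fun _ => none, fun h' => absurd h' h⟩
  choose c hc using h1
  have h2 : Set.InjOn c {Y : SimpleGraph V | ed Y G ≤ r} := by
    intro Y hY Z hZ h
    have e1 := hc Y hY
    have e2 := hc Z hZ
    rw [h, e2] at e1
    ext x y
    have e3 := Set.ext_iff.mp e1 (x, y)
    simp only [Set.mem_ofPred_eq] at e3
    tauto
  have h3 : Fintype.card (Fin r → Option (V × V)) = (Fintype.card V ^ 2 + 1) ^ r := by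
    simp [Fintype.card_option, sq]
  rw [← h3, ← h2.ncard_image, ← Nat.card_eq_fintype_card, ← Set.ncard_univ]
  exact Set.ncard_le_ncard (Set.subset_univ _) (Set.toFinite _)

namespace LocalAux

variable {V : Type*} [Fintype V]

theorem jump (r : ℕ) (d : V → ℕ) (f : SimpleGraph V → ℝ) (G H : SimpleGraph V)
    (hG : Real d G) (hH : Real d H) (hne : G ≠ H) (hr : ed G H ≤ r) :
    ∃ K L, Real d K ∧ Real d L ∧ Sw K L ∧ ed G K ≤ r ^ 2 ∧
      (f G - f H) ^ 2 ≤ 2 ^ (2 * r ^ 2) * (f K - f L) ^ 2 := by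
  classical
  obtain ⟨A, hA⟩ : ∃ A : Set V, A = {x | ∃ y, ¬ (G.Adj x y ↔ H.Adj x y)} := ⟨_, rfl⟩
  have hAc : A.ncard ≤ r := by
    refine le_trans ?_ hr
    have : A = Prod.fst '' {p : V × V | ¬ (G.Adj p.1 p.2 ↔ H.Adj p.1 p.2)} := by
      rw [hA]; ext x; simp
    rw [this]
    exact Set.ncard_image_le (Set.toFinite _)
  have hD : DiffIn A G H := by
    intro x y hxy
    rw [hA]
    refine ⟨⟨y, hxy⟩, ⟨x, ?_⟩⟩
    rw [G.adj_comm, H.adj_comm]; exact hxy
  have hchain := sw_reachable A G H (fun v => (hG v).trans (hH v).symm) hD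
  obtain ⟨R, hR⟩ : ∃ R : {K : SimpleGraph V // DiffIn A G K} → {K : SimpleGraph V // DiffIn A G K} →
      Prop, R = fun z z' => Sw z.1 z'.1 ∧ Real d z.1 ∧ Real d z'.1 := ⟨_, rfl⟩
  have hGG : DiffIn A G G := by intro x y h; exact absurd Iff.rfl h
  have hlift : ∀ H' : SimpleGraph V,
      Relation.ReflTransGen (fun K L => Sw K L ∧ DiffIn A G K ∧ DiffIn A G L) G H' →
      Real d H' ∧ ∃ h' : DiffIn A G H', Relation.ReflTransGen R ⟨G, hGG⟩ ⟨H', h'⟩ := by
    intro H' h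
    induction h with
    | refl => exact ⟨hG, hGG, Relation.ReflTransGen.refl⟩
    | @tail K L _ hKL ih =>
      obtain ⟨h1, h2, h3⟩ := ih
      have h4 : Real d L := fun v => (sw_dg hKL.1 v).trans (h1 v)
      refine ⟨h4, hKL.2.2, h3.tail ?_⟩
      rw [hR]
      exact ⟨hKL.1, h1, h4⟩
  obtain ⟨-, h', hrt⟩ := hlift H hchain
  have hfin : Fintype {K : SimpleGraph V // DiffIn A G K} := Fintype.ofFinite _
  have hcard : Fintype.card {K : SimpleGraph V // DiffIn A G K} ≤ 2 ^ (r ^ 2) := by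
    have e1 : Fintype.card {K : SimpleGraph V // DiffIn A G K} ≤ Fintype.card (Set (A × A)) := by
      apply Fintype.card_le_of_injective
        (fun K => {p : A × A | K.1.Adj p.1.1 p.2.1})
      intro K L hKL
      apply Subtype.ext
      ext x y
      by_cases hxy : x ∈ A ∧ y ∈ A
      · have := Set.ext_iff.mp hKL (⟨x, hxy.1⟩, ⟨y, hxy.2⟩)
        simpa using this
      · have e1 : (G.Adj x y ↔ K.1.Adj x y) := by
          by_contra h; exact hxy (K.2 x y h)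
        have e2 : (G.Adj x y ↔ L.1.Adj x y) := by
          by_contra h; exact hxy (L.2 x y h)
        tauto
    refine e1.trans ?_
    rw [Fintype.card_set]
    apply Nat.pow_le_pow_right (by norm_num)
    rw [Fintype.card_prod, ← sq, ← Nat.card_eq_fintype_card, Nat.card_coe_set_eq]
    exact Nat.pow_le_pow_left hAc 2
  obtain ⟨z, z', hzz, hle⟩ := path_jump R (fun z => f z.1) ⟨G, hGG⟩ ⟨H, h'⟩ hrt
    (fun h => hne (congrArg Subtype.val h))
  rw [hR] at hzz
  refine ⟨z.1, z'.1, hzz.2.1, hzz.2.2, hzz.1, ?_, ?_⟩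
  · have e1 : {p : V × V | ¬ (G.Adj p.1 p.2 ↔ z.1.Adj p.1 p.2)} ⊆ A ×ˢ A := by
      rintro ⟨x, y⟩ h
      exact z.2 x y h
    calc ed G z.1 ≤ (A ×ˢ A).ncard := Set.ncard_le_ncard e1 (Set.toFinite _)
      _ = A.ncard ^ 2 := by rw [Set.ncard_prod, sq]
      _ ≤ r ^ 2 := Nat.pow_le_pow_left hAc 2
  · have e1 : |f G - f H| ≤ 2 ^ (r ^ 2) * |f z.1 - f z'.1| := by
      refine hle.trans ?_
      apply mul_le_mul_of_nonneg_right _ (abs_nonneg _)
      exact_mod_cast hcard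
    calc (f G - f H) ^ 2 = |f G - f H| ^ 2 := (sq_abs _).symm
      _ ≤ (2 ^ (r ^ 2) * |f z.1 - f z'.1|) ^ 2 := pow_le_pow_left₀ (abs_nonneg _) e1 2
      _ = 2 ^ (2 * r ^ 2) * (f z.1 - f z'.1) ^ 2 := by
        rw [mul_pow, sq_abs, ← pow_mul, mul_comm (r ^ 2) 2]

open Classical in
theorem mult_bound (r s : ℕ) (K : SimpleGraph V) :
    ((Finset.univ : Finset (SimpleGraph V × SimpleGraph V)).filter
      (fun q => ed q.1 K ≤ s ∧ ed q.2 q.1 ≤ r)).card ≤ (Fintype.card V ^ 2 + 1) ^ (r + s) := by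
  have hball : ∀ (r : ℕ) (G : SimpleGraph V),
      (Finset.univ.filter (fun Y : SimpleGraph V => ed Y G ≤ r)).card ≤
        (Fintype.card V ^ 2 + 1) ^ r := by
    intro r G
    have h := ball_card r G
    rw [Set.ncard_eq_toFinset_card'] at h
    have h6 : ({Y : SimpleGraph V | ed Y G ≤ r}.toFinset) =
        (Finset.univ.filter (fun Y : SimpleGraph V => ed Y G ≤ r)) := by
      ext Y; simp
    rwa [h6] at h
  have h1 : (Finset.univ : Finset (SimpleGraph V × SimpleGraph V)).filter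
      (fun q => ed q.1 K ≤ s ∧ ed q.2 q.1 ≤ r) ⊆
      (Finset.univ.filter (fun Y : SimpleGraph V => ed Y K ≤ s)).biUnion
        (fun G => (Finset.univ.filter (fun Y : SimpleGraph V => ed Y G ≤ r)).image
          (fun H => (G, H))) := by
    rintro ⟨G, H⟩ hq
    simp only [Finset.mem_filter, Finset.mem_univ, true_and] at hq
    simp only [Finset.mem_biUnion, Finset.mem_filter, Finset.mem_univ, true_and,
      Finset.mem_image]
    exact ⟨G, hq.1, H, hq.2, rfl⟩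
  refine (Finset.card_le_card h1).trans (Finset.card_biUnion_le.trans ?_)
  calc _ ≤ ∑ _G ∈ Finset.univ.filter (fun Y : SimpleGraph V => ed Y K ≤ s),
        (Fintype.card V ^ 2 + 1) ^ r :=
        Finset.sum_le_sum (fun G _ => Finset.card_image_le.trans (hball r G))
    _ = (Finset.univ.filter (fun Y : SimpleGraph V => ed Y K ≤ s)).card *
        (Fintype.card V ^ 2 + 1) ^ r := by rw [Finset.sum_const, smul_eq_mul]
    _ ≤ (Fintype.card V ^ 2 + 1) ^ s * (Fintype.card V ^ 2 + 1) ^ r :=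
        Nat.mul_le_mul_right _ (hball s K)
    _ = _ := by rw [← pow_add, Nat.add_comm s r]

end LocalAux

open LocalAux in
open Classical in
theorem local_sum {V : Type*} [Fintype V] (r : ℕ) (d : V → ℕ) (f : SimpleGraph V → ℝ) :
    ∑ G ∈ OmF d, ∑ H ∈ OmF d, (if ed G H ≤ r then (f G - f H) ^ 2 else 0) ≤
      2 ^ (2 * r ^ 2) * ((Fintype.card V : ℝ) ^ 2 + 1) ^ (r + r ^ 2) *
        ∑ G ∈ OmF d, ∑ H ∈ OmF d, (if Sw G H then (f G - f H) ^ 2 else 0) := by
  have hj : ∀ q : SimpleGraph V × SimpleGraph V, ∃ q' : SimpleGraph V × SimpleGraph V,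
      q ∈ (OmF d ×ˢ OmF d).filter (fun q => ed q.1 q.2 ≤ r ∧ q.1 ≠ q.2) →
      q' ∈ (OmF d ×ˢ OmF d).filter (fun q => Sw q.1 q.2) ∧ ed q.1 q'.1 ≤ r ^ 2 ∧
      (f q.1 - f q.2) ^ 2 ≤ 2 ^ (2 * r ^ 2) * (f q'.1 - f q'.2) ^ 2 := by
    intro q
    by_cases hq : q ∈ (OmF d ×ˢ OmF d).filter (fun q => ed q.1 q.2 ≤ r ∧ q.1 ≠ q.2)
    · have hq' := hq
      simp only [Finset.mem_filter, Finset.mem_product, OmF, Finset.mem_univ, true_and] at hq'
      obtain ⟨⟨h1, h2⟩, h3, h4⟩ := hq'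
      obtain ⟨K, L, h5, h6, h7, h8, h9⟩ := jump r d f q.1 q.2 h1 h2 h4 h3
      refine ⟨(K, L), fun _ => ⟨?_, h8, h9⟩⟩
      simp only [Finset.mem_filter, Finset.mem_product, OmF, Finset.mem_univ, true_and]
      exact ⟨⟨h5, h6⟩, h7⟩
    · exact ⟨q, fun h => absurd h hq⟩
  choose J hJ using hj
  have hL : ∑ G ∈ OmF d, ∑ H ∈ OmF d, (if ed G H ≤ r then (f G - f H) ^ 2 else 0) =
      ∑ q ∈ (OmF d ×ˢ OmF d).filter (fun q => ed q.1 q.2 ≤ r ∧ q.1 ≠ q.2),
        (f q.1 - f q.2) ^ 2 := by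
    rw [Finset.sum_filter, Finset.sum_product]
    apply Finset.sum_congr rfl
    intro G _
    apply Finset.sum_congr rfl
    intro H _
    by_cases h1 : ed G H ≤ r <;> by_cases h2 : G = H <;> simp [h1, h2]
  have hRs : ∑ G ∈ OmF d, ∑ H ∈ OmF d, (if Sw G H then (f G - f H) ^ 2 else 0) =
      ∑ q ∈ (OmF d ×ˢ OmF d).filter (fun q => Sw q.1 q.2), (f q.1 - f q.2) ^ 2 := by
    rw [Finset.sum_filter, Finset.sum_product]
  rw [hL, hRs]
  calc ∑ q ∈ (OmF d ×ˢ OmF d).filter (fun q => ed q.1 q.2 ≤ r ∧ q.1 ≠ q.2), (f q.1 - f q.2) ^ 2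
      ≤ ∑ q ∈ (OmF d ×ˢ OmF d).filter (fun q => ed q.1 q.2 ≤ r ∧ q.1 ≠ q.2),
        2 ^ (2 * r ^ 2) * (f (J q).1 - f (J q).2) ^ 2 :=
        Finset.sum_le_sum (fun q hq => (hJ q hq).2.2)
    _ = ∑ q' ∈ (OmF d ×ˢ OmF d).filter (fun q => Sw q.1 q.2),
        ∑ q ∈ ((OmF d ×ˢ OmF d).filter (fun q => ed q.1 q.2 ≤ r ∧ q.1 ≠ q.2)).filter
          (fun q => J q = q'), 2 ^ (2 * r ^ 2) * (f (J q).1 - f (J q).2) ^ 2 :=
        (Finset.sum_fiberwise_of_maps_to (fun q hq => (hJ q hq).1) _).symm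
    _ ≤ ∑ q' ∈ (OmF d ×ˢ OmF d).filter (fun q => Sw q.1 q.2),
        ((Fintype.card V : ℝ) ^ 2 + 1) ^ (r + r ^ 2) *
          (2 ^ (2 * r ^ 2) * (f q'.1 - f q'.2) ^ 2) := by
        apply Finset.sum_le_sum
        intro q' _
        have e1 : ∀ q ∈ ((OmF d ×ˢ OmF d).filter (fun q => ed q.1 q.2 ≤ r ∧ q.1 ≠ q.2)).filter
          (fun q => J q = q'), 2 ^ (2 * r ^ 2) * (f (J q).1 - f (J q).2) ^ 2 =
            2 ^ (2 * r ^ 2) * (f q'.1 - f q'.2) ^ 2 := by
          intro q hq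
          rw [(Finset.mem_filter.mp hq).2]
        rw [Finset.sum_congr rfl e1, Finset.sum_const, nsmul_eq_mul]
        apply mul_le_mul_of_nonneg_right _ (by positivity)
        have e2 : (((OmF d ×ˢ OmF d).filter (fun q => ed q.1 q.2 ≤ r ∧ q.1 ≠ q.2)).filter
          (fun q => J q = q')).card ≤ (Fintype.card V ^ 2 + 1) ^ (r + r ^ 2) := by
          refine le_trans (Finset.card_le_card ?_) (mult_bound r (r ^ 2) q'.1)
          intro q hq
          obtain ⟨hq1, hq2⟩ := Finset.mem_filter.mp hq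
          have h3 := (hJ q hq1).2.1
          rw [hq2] at h3
          simp only [Finset.mem_filter, Finset.mem_univ, true_and]
          refine ⟨h3, ?_⟩
          rw [ed_comm]
          exact (Finset.mem_filter.mp hq1).2.1
        exact_mod_cast e2
    _ = 2 ^ (2 * r ^ 2) * ((Fintype.card V : ℝ) ^ 2 + 1) ^ (r + r ^ 2) *
        ∑ q ∈ (OmF d ×ˢ OmF d).filter (fun q => Sw q.1 q.2), (f q.1 - f q.2) ^ 2 := by
        rw [Finset.mul_sum]
        apply Finset.sum_congr rfl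
        intro q _
        ring

end Vale.Agent.P335
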