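import Vale.Agent.P335.Circ3
import Vale.Agent.P335.Walk
import Vale.Agent.P335.Encode
import Vale.Agent.P335.Flip
import Vale.Agent.P335.Local

/-!
# P335: assembly of the Poincare inequality
-/

namespace Vale.Agent.P335

open scoped symmDiff

variable {V : Type*}

theorem phi_fst_succ (ψ : V → Equiv.Perm V) (a : V × V) (k : ℤ) :
    ((phi ψ ^ (k + 1)) a).1 = ((phi ψ ^ k) a).2 := by
  rw [add_comm, zpow_one_add]; rfl

/-- arcs as `arcG` of the walk -/
theorem arcG_eq_arcP (ψ : V → Equiv.Perm V) (a : V × V) (i : ℤ) (L : ℕ) :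
    arcG (fun k => ((phi ψ ^ k) a).1) i (i + L) = arcP ψ ((phi ψ ^ i) a) L := by
  unfold arcG arcP
  congr 1
  ext e
  simp only [Set.mem_ofPred_eq]
  constructor
  · rintro ⟨k, h1, h2, rfl⟩
    refine ⟨(k - i).toNat, by omega, ?_⟩
    have : (phi ψ ^ (k - i).toNat) ((phi ψ ^ i) a) = (phi ψ ^ k) a := by
      rw [← zpow_natCast, ← Equiv.Perm.mul_apply, ← zpow_add]
      congr 2; omega
    rw [this, phi_fst_succ]
  · rintro ⟨k, h1, rfl⟩
    refine ⟨i + k, by omega, by omega, ?_⟩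
    have : (phi ψ ^ k) ((phi ψ ^ i) a) = (phi ψ ^ (i + k)) a := by
      rw [← zpow_natCast, ← Equiv.Perm.mul_apply, ← zpow_add]
      congr 2; ring
    rw [this, phi_fst_succ]

/-- the full circuit as `arcG` of the walk -/
theorem arcG_eq_circ (ψ : V → Equiv.Perm V) (a : V × V) (l : ℕ) (hl : 0 < l)
    (per : ∀ k : ℤ, ((phi ψ ^ (k + 2 * l)) a).1 = ((phi ψ ^ k) a).1) :
    arcG (fun k => ((phi ψ ^ k) a).1) 0 (2 * l) = circ ψ a := by
  ext x y
  rw [arcG_adj, circ, SimpleGraph.fromEdgeSet_adj]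
  constructor
  · rintro ⟨⟨k, h1, h2, h3⟩, h4⟩
    exact ⟨⟨k, by rw [h3, phi_fst_succ]⟩, h4⟩
  · rintro ⟨⟨k, h3⟩, h4⟩
    have h5 : (arcG (fun k => ((phi ψ ^ k) a).1) k (k + 2 * l)).Adj x y := by
      rw [arcG_adj]
      exact ⟨⟨k, le_rfl, by omega, by rw [h3, phi_fst_succ]⟩, h4⟩
    rw [arcG_full hl per] at h5
    rw [arcG_adj] at h5
    exact h5

theorem circ_shift (ψ : V → Equiv.Perm V) (a : V × V) (i : ℤ) :
    circ ψ ((phi ψ ^ i) a) = circ ψ a := by
  unfold circ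
  congr 1
  ext e
  simp only [Set.mem_ofPred_eq]
  constructor
  · rintro ⟨k, rfl⟩
    refine ⟨k + i, ?_⟩
    rw [zpow_add, Equiv.Perm.mul_apply]
  · rintro ⟨k, rfl⟩
    refine ⟨k - i, ?_⟩
    rw [← Equiv.Perm.mul_apply, ← zpow_add, sub_add_cancel]

/-- the conditions under which `encode_sum` applies -/
def Good (d : V → ℕ) (t : SimpleGraph V × SimpleGraph V × (V → Equiv.Perm V)) (a : V × V)
    (L : ℕ) : Prop :=
  (t.1 ∆ t.2.1).Adj a.1 a.2 ∧ (∀ k : ℕ, 0 < k → k ≤ L → (phi t.2.2 ^ k) a ≠ a) ∧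
    Near 8 d (t.1 ∆ arcP t.2.2 a L) ∧ Near 8 d (t.2.1 ∆ arcP t.2.2 a L)

section
variable [Fintype V]

theorem jump_of_red (d : V → ℕ) (h : SimpleGraph V → ℝ) (X X' : SimpleGraph V)
    (ψ : V → Equiv.Perm V) (hX : Real d X) (hX' : Real d X')
    (hψ : IsPairing (X ∆ X') X.Adj ψ) (a : V × V) (ha : X.Adj a.1 a.2)
    (ha' : ¬ X'.Adj a.1 a.2) :
    ∃ (a' : V × V) (L : ℕ), 1 ≤ L ∧ L ≤ 2 * Fintype.card V ^ 2 ∧ Good d (X, X', ψ) a' L ∧
      ∃ Z, Near 8 d Z ∧ ed (X ∆ arcP ψ a' L) Z ≤ 6 ∧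
      |h X - h (X ∆ circ ψ a)| ≤ ((Fintype.card V : ℝ) ^ 4 + 2) * |h (X ∆ arcP ψ a' L) - h Z| := by
  classical
  obtain ⟨l, hl, hc⟩ := altCirc_of_pairing X X' ψ hψ a ha ha'
  obtain ⟨i, j, hij, hji, n1, n2, Z, nZ, eZ, hZ⟩ := cell_exists d X X' hX hX' _ l hc h
  obtain ⟨L, rfl⟩ : ∃ L : ℕ, j = i + L := ⟨(j - i).toNat, by omega⟩
  have hcirc := arcG_eq_circ ψ a l hc.pos hc.per
  rw [arcG_eq_arcP] at n1 n2 eZ hZ
  rw [hcirc] at hZ
  refine ⟨(phi ψ ^ i) a, L, by omega, by omega, ⟨?_, ?_, n1, n2⟩, Z, nZ, eZ, ?_⟩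
  · -- the edge is in the difference
    have hadj : (X ∆ X').Adj ((phi ψ ^ i) a).1 ((phi ψ ^ (i + 1)) a).1 := by
      rw [symmDiff_adj]
      rcases Int.even_or_odd' i with ⟨m, rfl | rfl⟩
      · left; exact hc.ev m
      · right
        have := hc.od m
        rwa [show (2 * m + 2 : ℤ) = 2 * m + 1 + 1 by ring] at this
    rw [phi_fst_succ] at hadj
    exact hadj
  · intro k hk hkL he
    have h1 : (phi ψ ^ (i + k)) a = (phi ψ ^ i) a := by
      rw [add_comm, zpow_add, Equiv.Perm.mul_apply, zpow_natCast]; exact he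
    have h2 := hc.inj (i + k) i (by
      simp only [phi_fst_succ]
      rw [h1])
    obtain ⟨c, hc'⟩ := h2
    have h3 : (k : ℤ) = 2 * l * c := by omega
    have h4 : 0 < c := by
      by_contra hneg
      push Not at hneg
      have : (2 * l : ℤ) * c ≤ 0 := mul_nonpos_of_nonneg_of_nonpos (by positivity) hneg
      omega
    have h5 : (2 * l : ℤ) * 1 ≤ 2 * l * c := mul_le_mul_of_nonneg_left (by omega) (by positivity)
    omega
  · refine hZ.trans (mul_le_mul_of_nonneg_right ?_ (abs_nonneg _))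
    have h1 : (l : ℝ) ≤ (Fintype.card V : ℝ) ^ 2 := by exact_mod_cast hl
    have h2 : (l : ℝ) * l ≤ (Fintype.card V : ℝ) ^ 2 * (Fintype.card V : ℝ) ^ 2 :=
      mul_le_mul h1 h1 (by positivity) (by positivity)
    nlinarith

theorem jump_exists (d : V → ℕ) (h : SimpleGraph V → ℝ) (X X' : SimpleGraph V)
    (ψ : V → Equiv.Perm V) (hX : Real d X) (hX' : Real d X')
    (hψ : IsPairing (X ∆ X') X.Adj ψ) (a : V × V) (ha : (X ∆ X').Adj a.1 a.2) :
    ∃ (a' : V × V) (L : ℕ), 1 ≤ L ∧ L ≤ 2 * Fintype.card V ^ 2 ∧ Good d (X, X', ψ) a' L ∧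
      ∃ Z, Near 8 d Z ∧ ed (X ∆ arcP ψ a' L) Z ≤ 6 ∧
      |h X - h (X ∆ circ ψ a)| ≤ ((Fintype.card V : ℝ) ^ 4 + 2) * |h (X ∆ arcP ψ a' L) - h Z| := by
  rw [symmDiff_adj] at ha
  rcases ha with ha | ha
  · exact jump_of_red d h X X' ψ hX hX' hψ a ha.1 ha.2
  · -- start from the next dart
    have h1 := (hψ a.2 a.1).1 (by
      rw [symmDiff_adj]; right; exact ⟨ha.1.symm, fun hh => ha.2 hh.symm⟩)
    have h2 : X.Adj (phi ψ a).1 (phi ψ a).2 := by
      change X.Adj a.2 (ψ a.2 a.1)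
      rw [h1.2.1]
      exact fun hh => ha.2 hh.symm
    have h3 : ¬ X'.Adj (phi ψ a).1 (phi ψ a).2 := by
      change ¬ X'.Adj a.2 (ψ a.2 a.1)
      have h4 := h1.1
      rw [symmDiff_adj] at h4
      rcases h4 with h4 | h4
      · exact h4.2
      · exact absurd h2 h4.2
    obtain ⟨a', L, b1, b2, b3, Z, b4, b5, b6⟩ :=
      jump_of_red d h X X' ψ hX hX' hψ (phi ψ a) h2 h3
    refine ⟨a', L, b1, b2, b3, Z, b4, b5, ?_⟩
    have h5 := circ_shift ψ a 1
    rw [zpow_one] at h5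
    rw [← h5]; exact b6

open Classical in
/-- local Dirichlet density of an extension `h` at a near-realisation -/
noncomputable def gfun (d : V → ℕ) (h : SimpleGraph V → ℝ) (Y : SimpleGraph V) : ℝ :=
  ∑ Z ∈ NrF d, (if ed Y Z ≤ 6 then (h Y - h Z) ^ 2 else 0)

theorem gfun_nonneg (d : V → ℕ) (h : SimpleGraph V → ℝ) (Y : SimpleGraph V) :
    0 ≤ gfun d h Y := by
  unfold gfun
  apply Finset.sum_nonneg
  intro Z _
  split_ifs
  · positivity
  · exact le_rfl

open Classical in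
theorem jump_sq (d : V → ℕ) (h : SimpleGraph V → ℝ)
    (t : SimpleGraph V × SimpleGraph V × (V → Equiv.Perm V)) (ht : t ∈ Trip d)
    (a : V × V) (ha : (t.1 ∆ t.2.1).Adj a.1 a.2) :
    (h t.1 - h (t.1 ∆ circ t.2.2 a)) ^ 2 ≤ ((Fintype.card V : ℝ) ^ 4 + 2) ^ 2 *
      ∑ a' : V × V, ∑ L ∈ Finset.Icc 1 (2 * Fintype.card V ^ 2),
        (if Good d t a' L then gfun d h (t.1 ∆ arcP t.2.2 a' L) else 0) := by
  obtain ⟨X, X', ψ⟩ := t
  simp only [Trip, Finset.mem_filter, Finset.mem_univ, true_and] at ht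
  obtain ⟨hX, hX', hψ⟩ := ht
  obtain ⟨a', L, b1, b2, b3, Z, b4, b5, b6⟩ := jump_exists d h X X' ψ hX hX' hψ a ha
  have h1 : (h X - h (X ∆ circ ψ a)) ^ 2 ≤ ((Fintype.card V : ℝ) ^ 4 + 2) ^ 2 *
      (h (X ∆ arcP ψ a' L) - h Z) ^ 2 := by
    rw [← sq_abs (h X - h (X ∆ circ ψ a)), ← sq_abs (h (X ∆ arcP ψ a' L) - h Z), ← mul_pow]
    exact pow_le_pow_left₀ (abs_nonneg _) b6 2
  refine h1.trans (mul_le_mul_of_nonneg_left ?_ (by positivity))
  have h2 : (h (X ∆ arcP ψ a' L) - h Z) ^ 2 ≤ gfun d h (X ∆ arcP ψ a' L) := by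
    unfold gfun
    have hZ : Z ∈ NrF d := by simp [NrF, b4]
    refine le_trans ?_ (Finset.single_le_sum (f := fun Z =>
      (if ed (X ∆ arcP ψ a' L) Z ≤ 6 then (h (X ∆ arcP ψ a' L) - h Z) ^ 2 else 0)) ?_ hZ)
    · simp [b5]
    · intro W _
      split_ifs
      · positivity
      · exact le_rfl
  refine h2.trans ?_
  have nn : ∀ a'' : V × V, ∀ L' : ℕ, (0 : ℝ) ≤ (if Good d (X, X', ψ) a'' L' then
      gfun d h (X ∆ arcP ψ a'' L') else 0) := by
    intro a'' L'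
    split_ifs
    · exact gfun_nonneg _ _ _
    · exact le_rfl
  have hL : L ∈ Finset.Icc 1 (2 * Fintype.card V ^ 2) := Finset.mem_Icc.2 ⟨b1, b2⟩
  have h3 : gfun d h (X ∆ arcP ψ a' L) ≤ ∑ L ∈ Finset.Icc 1 (2 * Fintype.card V ^ 2),
      (if Good d (X, X', ψ) a' L then gfun d h (X ∆ arcP ψ a' L) else 0) := by
    refine le_trans ?_ (Finset.single_le_sum (f := fun L =>
      (if Good d (X, X', ψ) a' L then gfun d h (X ∆ arcP ψ a' L) else 0))
      (fun L' _ => nn a' L') hL)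
    simp [b3]
  refine h3.trans ?_
  exact Finset.single_le_sum (f := fun a' => ∑ L ∈ Finset.Icc 1 (2 * Fintype.card V ^ 2),
      (if Good d (X, X', ψ) a' L then gfun d h (X ∆ arcP ψ a' L) else 0))
      (fun a'' _ => Finset.sum_nonneg (fun L' _ => nn a'' L')) (Finset.mem_univ a')

open Classical in
/-- Poincare inequality in terms of near-realisations. -/
theorem poincare_near (d : V → ℕ) (h : SimpleGraph V → ℝ) :
    ∑ X ∈ OmF d, ∑ X' ∈ OmF d, (h X - h X') ^ 2 ≤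
      2 * (Fintype.card V : ℝ) ^ 10 * ((Fintype.card V : ℝ) ^ 4 + 2) ^ 2 * (NrF d).card *
        ∑ Y ∈ NrF d, gfun d h Y := by
  set N : ℝ := (Fintype.card V : ℝ) with hN
  set K : ℝ := (N ^ 4 + 2) ^ 2 with hK
  have hK0 : 0 ≤ K := by positivity
  set S : ℝ := N ^ 2 * (NrF d).card * ∑ Y ∈ NrF d, gfun d h Y with hS
  have key : ∀ a : V × V, ∑ t ∈ (Trip d).filter (fun t => (t.1 ∆ t.2.1).Adj a.1 a.2),
      1 / (NP (t.1 ∆ t.2.1) : ℝ) * (h t.1 - h (t.1 ∆ circ t.2.2 a)) ^ 2 ≤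
      K * (N ^ 2 * (2 * N ^ 2 * S)) := by
    intro a
    calc ∑ t ∈ (Trip d).filter (fun t => (t.1 ∆ t.2.1).Adj a.1 a.2),
          1 / (NP (t.1 ∆ t.2.1) : ℝ) * (h t.1 - h (t.1 ∆ circ t.2.2 a)) ^ 2
        ≤ ∑ t ∈ (Trip d).filter (fun t => (t.1 ∆ t.2.1).Adj a.1 a.2),
          1 / (NP (t.1 ∆ t.2.1) : ℝ) * (K *
            ∑ a' : V × V, ∑ L ∈ Finset.Icc 1 (2 * Fintype.card V ^ 2),
              (if Good d t a' L then gfun d h (t.1 ∆ arcP t.2.2 a' L) else 0)) := by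
          apply Finset.sum_le_sum
          intro t ht
          rw [Finset.mem_filter] at ht
          exact mul_le_mul_of_nonneg_left (jump_sq d h t ht.1 a ht.2) (by positivity)
      _ ≤ ∑ t ∈ Trip d,
          1 / (NP (t.1 ∆ t.2.1) : ℝ) * (K *
            ∑ a' : V × V, ∑ L ∈ Finset.Icc 1 (2 * Fintype.card V ^ 2),
              (if Good d t a' L then gfun d h (t.1 ∆ arcP t.2.2 a' L) else 0)) := by
          apply Finset.sum_le_sum_of_subset_of_nonneg (Finset.filter_subset _ _)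
          intro t _ _
          refine mul_nonneg (by positivity) (mul_nonneg hK0 ?_)
          apply Finset.sum_nonneg; intro a' _
          apply Finset.sum_nonneg; intro L _
          split_ifs
          · exact gfun_nonneg _ _ _
          · exact le_rfl
      _ = K * ∑ a' : V × V, ∑ L ∈ Finset.Icc 1 (2 * Fintype.card V ^ 2),
            ∑ t ∈ (Trip d).filter (fun t => Good d t a' L),
              1 / (NP (t.1 ∆ t.2.1) : ℝ) * gfun d h (t.1 ∆ arcP t.2.2 a' L) := by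
          simp_rw [Finset.sum_filter]
          rw [Finset.mul_sum]
          simp_rw [Finset.mul_sum]
          rw [Finset.sum_comm]
          apply Finset.sum_congr rfl; intro a' _
          rw [Finset.sum_comm]
          apply Finset.sum_congr rfl; intro L _
          apply Finset.sum_congr rfl; intro t _
          split_ifs
          · ring
          · ring
      _ ≤ K * ∑ a' : V × V, ∑ L ∈ Finset.Icc 1 (2 * Fintype.card V ^ 2), S := by
          refine mul_le_mul_of_nonneg_left ?_ hK0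
          apply Finset.sum_le_sum; intro a' _
          apply Finset.sum_le_sum; intro L hL
          refine le_trans (le_of_eq ?_)
            (encode_sum d (gfun d h) (gfun_nonneg d h) a' L (Finset.mem_Icc.1 hL).1)
          refine Finset.sum_congr ?_ (fun _ _ => rfl)
          ext t
          rw [Finset.mem_filter, Finset.mem_filter]
          exact Iff.rfl
      _ = K * (N ^ 2 * (2 * N ^ 2 * S)) := by
          simp only [Finset.sum_const, Nat.card_Icc, Finset.card_univ, Fintype.card_prod,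
            nsmul_eq_mul, add_tsub_cancel_right]
          push_cast
          ring
  calc ∑ X ∈ OmF d, ∑ X' ∈ OmF d, (h X - h X') ^ 2
      ≤ N ^ 2 * ∑ a : V × V, ∑ t ∈ (Trip d).filter (fun t => (t.1 ∆ t.2.1).Adj a.1 a.2),
          1 / (NP (t.1 ∆ t.2.1) : ℝ) * (h t.1 - h (t.1 ∆ circ t.2.2 a)) ^ 2 :=
        flip_sum d h
    _ ≤ N ^ 2 * ∑ _a : V × V, K * (N ^ 2 * (2 * N ^ 2 * S)) := by
        refine mul_le_mul_of_nonneg_left ?_ (by positivity)
        exact Finset.sum_le_sum (fun a _ => key a)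
    _ = 2 * N ^ 10 * K * (NrF d).card * ∑ Y ∈ NrF d, gfun d h Y := by
        simp only [Finset.sum_const, Finset.card_univ, Fintype.card_prod, nsmul_eq_mul]
        rw [hS]
        push_cast
        ring

end

end Vale.Agent.P335
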