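import Mathlib

/-!
# P335: the switch chain on the realisations of a degree vector, and its mixing time
-/

namespace Vale.Agent.P335

/-- `G` has degree `d v` at every vertex `v`. -/
def HasDeg {n : ℕ} (d : Fin n → ℕ) (G : SimpleGraph (Fin n)) : Prop :=
  ∀ v, (G.neighborSet v).ncard = d v

/-- `d` is graphical. -/
def Graphical {n : ℕ} (d : Fin n → ℕ) : Prop := ∃ G : SimpleGraph (Fin n), HasDeg d G

/-- The state space: all simple graphs on `Fin n` with degree vector `d`. -/
def Omega {n : ℕ} (d : Fin n → ℕ) : Type := {G : SimpleGraph (Fin n) // HasDeg d G}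

noncomputable instance {n : ℕ} (d : Fin n → ℕ) : Fintype (Omega d) :=
  Fintype.ofInjective (fun G : Omega d => G.1) Subtype.val_injective

noncomputable instance {n : ℕ} (d : Fin n → ℕ) : DecidableEq (Omega d) := Classical.decEq _

open Classical in
/-- The perfect matchings (as edge sets) of the complete graph on the vertex set `S`. -/
noncomputable def perfectMatchings {n : ℕ} (S : Finset (Fin n)) :
    Finset (Finset (Sym2 (Fin n))) :=
  Finset.univ.filter fun F =>
    (∀ e ∈ F, ¬ e.IsDiag ∧ ∀ v ∈ e, v ∈ S) ∧ ∀ v ∈ S, ∃! e, e ∈ F ∧ v ∈ e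

open Classical in
/-- Replace `F` by `F'` if all edges of `F` are present and all edges of `F'` are absent;
otherwise stay. -/
noncomputable def switchMove {n : ℕ} (G : SimpleGraph (Fin n)) (F F' : Finset (Sym2 (Fin n))) :
    SimpleGraph (Fin n) :=
  if (∀ e ∈ F, e ∈ G.edgeSet) ∧ (∀ e ∈ F', e ∉ G.edgeSet) then
    SimpleGraph.fromEdgeSet {e | (e ∈ G.edgeSet ∧ e ∉ F) ∨ e ∈ F'}
  else G

open Classical in
/-- The transition matrix of the switch chain: with probability `1/2` stay put; otherwise a
uniform `4`-set `S` and a uniform one of the six ordered pairs `(F, F')` of distinct perfect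
matchings of the complete graph on `S`. -/
noncomputable def switchChain {n : ℕ} (d : Fin n → ℕ) : Matrix (Omega d) (Omega d) ℝ :=
  fun G H => 1 / 2 * (if G = H then 1 else 0) +
    1 / 2 * ∑ S ∈ Finset.powersetCard 4 (Finset.univ : Finset (Fin n)), 1 / (n.choose 4 : ℝ) *
      ∑ FF ∈ (perfectMatchings S).offDiag, 1 / 6 *
        (if switchMove G.1 FF.1 FF.2 = H.1 then 1 else 0)

/-- The uniform distribution on the state space. -/
noncomputable def unif {n : ℕ} (d : Fin n → ℕ) : Omega d → ℝ :=
  fun _ => 1 / (Fintype.card (Omega d) : ℝ)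

/-- Total variation distance. -/
noncomputable def tv {n : ℕ} {d : Fin n → ℕ} (μ ν : Omega d → ℝ) : ℝ :=
  1 / 2 * ∑ G, |μ G - ν G|

/-- The times at which the chain is `1/4`-mixed from every starting state. -/
def mixedTimes {n : ℕ} (d : Fin n → ℕ) : Set ℕ :=
  {t | ∀ G : Omega d, tv ((switchChain d ^ t) G) (unif d) ≤ 1 / 4}

/-- The mixing time. -/
noncomputable def tmix {n : ℕ} (d : Fin n → ℕ) : ℕ := sInf (mixedTimes d)

end Vale.Agent.P335
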