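import Vale.Agent.P335.Defs
import Vale.Agent.P335.Chain

/-! T2: elementary facts on the switch chain. -/

namespace Vale.Agent.P335

namespace ChainAux

variable {n : ℕ}

theorem mem_pm {S : Finset (Fin n)} {F : Finset (Sym2 (Fin n))} :
    F ∈ perfectMatchings S ↔
      (∀ e ∈ F, ¬ e.IsDiag ∧ ∀ v ∈ e, v ∈ S) ∧ ∀ v ∈ S, ∃! e, e ∈ F ∧ v ∈ e := by
  classical
  unfold perfectMatchings
  rw [Finset.mem_filter]
  simp

theorem pm_case {a b c d : Fin n} {S : Finset (Fin n)} (hS : S = {a, b, c, d})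
    (hab : a ≠ b) (hac : a ≠ c) (had : a ≠ d) (hbc : b ≠ c) (hbd : b ≠ d) (hcd : c ≠ d)
    {F : Finset (Sym2 (Fin n))} (hF : F ∈ perfectMatchings S) (h : s(a, b) ∈ F) :
    F = {s(a, b), s(c, d)} := by
  rw [mem_pm] at hF
  obtain ⟨h1, h2⟩ := hF
  have haS : a ∈ S := by simp [hS]
  have hbS : b ∈ S := by simp [hS]
  have hcS : c ∈ S := by simp [hS]
  have hdS : d ∈ S := by simp [hS]
  have uniq : ∀ v ∈ S, ∀ e ∈ F, ∀ e' ∈ F, v ∈ e → v ∈ e' → e = e' := by
    intro v hv e he e' he' hve hve'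
    exact (h2 v hv).unique ⟨he, hve⟩ ⟨he', hve'⟩
  have hcdF : s(c, d) ∈ F := by
    obtain ⟨e, ⟨heF, hce⟩, -⟩ := h2 c hcS
    obtain ⟨y, rfl⟩ := hce
    have hyS := (h1 _ heF).2 y (by simp)
    have hdiag := (h1 _ heF).1
    rw [Sym2.mk_isDiag_iff] at hdiag
    rw [hS] at hyS
    simp only [Finset.mem_insert, Finset.mem_singleton] at hyS
    rcases hyS with rfl | rfl | rfl | rfl
    · exfalso
      have := uniq y haS _ heF _ h (by simp) (by simp)
      rw [Sym2.eq_iff] at this
      rcases this with ⟨h3, h4⟩ | ⟨h3, h4⟩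
      · exact hac h3.symm
      · exact hbc h3.symm
    · exfalso
      have := uniq y hbS _ heF _ h (by simp) (by simp)
      rw [Sym2.eq_iff] at this
      rcases this with ⟨h3, h4⟩ | ⟨h3, h4⟩
      · exact hac h3.symm
      · exact hbc h3.symm
    · exact absurd rfl hdiag
    · exact heF
  ext e
  simp only [Finset.mem_insert, Finset.mem_singleton]
  constructor
  · intro he
    induction e with
    | _ x y =>
      have hxS := (h1 _ he).2 x (by simp)
      have hxS' := hxS
      rw [hS] at hxS'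
      simp only [Finset.mem_insert, Finset.mem_singleton] at hxS'
      rcases hxS' with hx | hx | hx | hx
      · left; exact uniq x hxS _ he _ h (by simp) (by simp [hx])
      · left; exact uniq x hxS _ he _ h (by simp) (by simp [hx])
      · right; exact uniq x hxS _ he _ hcdF (by simp) (by simp [hx])
      · right; exact uniq x hxS _ he _ hcdF (by simp) (by simp [hx])
  · rintro (rfl | rfl)
    · exact h
    · exact hcdF

theorem mem_pm_pair {a b c d : Fin n} {S : Finset (Fin n)} (hS : S = {a, b, c, d})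
    (hab : a ≠ b) (hac : a ≠ c) (had : a ≠ d) (hbc : b ≠ c) (hbd : b ≠ d) (hcd : c ≠ d) :
    ({s(a, b), s(c, d)} : Finset (Sym2 (Fin n))) ∈ perfectMatchings S := by
  rw [mem_pm]
  constructor
  · intro e he
    simp only [Finset.mem_insert, Finset.mem_singleton] at he
    rcases he with rfl | rfl
    · refine ⟨by rwa [Sym2.mk_isDiag_iff], fun v hv => ?_⟩
      rw [Sym2.mem_iff] at hv
      rw [hS]
      rcases hv with rfl | rfl <;> simp
    · refine ⟨by rwa [Sym2.mk_isDiag_iff], fun v hv => ?_⟩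
      rw [Sym2.mem_iff] at hv
      rw [hS]
      rcases hv with rfl | rfl <;> simp
  · intro v hv
    rw [hS] at hv
    simp only [Finset.mem_insert, Finset.mem_singleton] at hv
    have key : ∀ e, (v = a ∨ v = b) → (e ∈ ({s(a, b), s(c, d)} : Finset (Sym2 (Fin n))) ∧ v ∈ e ↔
        e = s(a, b)) := by
      intro e hv
      simp only [Finset.mem_insert, Finset.mem_singleton]
      constructor
      · rintro ⟨rfl | rfl, h⟩
        · rfl
        · exfalso
          rw [Sym2.mem_iff] at h
          rcases hv with rfl | rfl <;> rcases h with h | h <;> tauto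
      · rintro rfl
        refine ⟨Or.inl rfl, ?_⟩
        rw [Sym2.mem_iff]; exact hv
    have key2 : ∀ e, (v = c ∨ v = d) → (e ∈ ({s(a, b), s(c, d)} : Finset (Sym2 (Fin n))) ∧ v ∈ e ↔
        e = s(c, d)) := by
      intro e hv
      simp only [Finset.mem_insert, Finset.mem_singleton]
      constructor
      · rintro ⟨rfl | rfl, h⟩
        · exfalso
          rw [Sym2.mem_iff] at h
          rcases hv with rfl | rfl <;> rcases h with h | h <;> simp_all
        · rfl
      · rintro rfl
        refine ⟨Or.inr rfl, ?_⟩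
        rw [Sym2.mem_iff]; exact hv
    rcases hv with hv | hv | hv | hv
    · exact ⟨s(a, b), (key _ (Or.inl hv)).2 rfl, fun e he => (key e (Or.inl hv)).1 he⟩
    · exact ⟨s(a, b), (key _ (Or.inr hv)).2 rfl, fun e he => (key e (Or.inr hv)).1 he⟩
    · exact ⟨s(c, d), (key2 _ (Or.inl hv)).2 rfl, fun e he => (key2 e (Or.inl hv)).1 he⟩
    · exact ⟨s(c, d), (key2 _ (Or.inr hv)).2 rfl, fun e he => (key2 e (Or.inr hv)).1 he⟩

theorem pm_eq {a b c d : Fin n} {S : Finset (Fin n)} (hS : S = {a, b, c, d})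
    (hab : a ≠ b) (hac : a ≠ c) (had : a ≠ d) (hbc : b ≠ c) (hbd : b ≠ d) (hcd : c ≠ d) :
    perfectMatchings S = {{s(a, b), s(c, d)}, {s(a, c), s(b, d)}, {s(a, d), s(b, c)}} := by
  have hS2 : S = {a, c, b, d} := by
    rw [hS]; ext x; simp only [Finset.mem_insert, Finset.mem_singleton]; tauto
  have hS3 : S = {a, d, b, c} := by
    rw [hS]; ext x; simp only [Finset.mem_insert, Finset.mem_singleton]; tauto
  ext F
  simp only [Finset.mem_insert, Finset.mem_singleton]
  constructor
  · intro hF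
    have hF' := mem_pm.1 hF
    obtain ⟨h1, h2⟩ := hF'
    have haS : a ∈ S := by simp [hS]
    obtain ⟨e, ⟨heF, hae⟩, -⟩ := h2 a haS
    obtain ⟨y, rfl⟩ := hae
    have hyS := (h1 _ heF).2 y (by simp)
    have hdiag := (h1 _ heF).1
    rw [Sym2.mk_isDiag_iff] at hdiag
    rw [hS] at hyS
    simp only [Finset.mem_insert, Finset.mem_singleton] at hyS
    rcases hyS with rfl | rfl | rfl | rfl
    · exact absurd rfl hdiag
    · exact Or.inl (pm_case hS hab hac had hbc hbd hcd hF heF)
    · exact Or.inr (Or.inl (pm_case hS2 hac hab had hbc.symm hcd hbd hF heF))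
    · exact Or.inr (Or.inr (pm_case hS3 had hab hac hbd.symm hcd.symm hbc hF heF))
  · rintro (rfl | rfl | rfl)
    · exact mem_pm_pair hS hab hac had hbc hbd hcd
    · exact mem_pm_pair hS2 hac hab had hbc.symm hcd hbd
    · exact mem_pm_pair hS3 had hab hac hbd.symm hcd.symm hbc

theorem exists_four {S : Finset (Fin n)} (hS : S.card = 4) :
    ∃ a b c d : Fin n, S = {a, b, c, d} ∧ a ≠ b ∧ a ≠ c ∧ a ≠ d ∧ b ≠ c ∧ b ≠ d ∧ c ≠ d := by
  obtain ⟨a, T, haT, rfl, hT⟩ := Finset.card_eq_succ.1 hS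
  obtain ⟨b, c, d, hbc, hbd, hcd, rfl⟩ := Finset.card_eq_three.1 hT
  simp only [Finset.mem_insert, Finset.mem_singleton, not_or] at haT
  exact ⟨a, b, c, d, rfl, haT.1, haT.2.1, haT.2.2, hbc, hbd, hcd⟩

/-- degrees are preserved -/
theorem hasDeg_switchMove {d : Fin n → ℕ} {G : SimpleGraph (Fin n)} (hG : HasDeg d G)
    {S : Finset (Fin n)} {F F' : Finset (Sym2 (Fin n))} (hF : F ∈ perfectMatchings S)
    (hF' : F' ∈ perfectMatchings S) : HasDeg d (switchMove G F F') := by
  classical
  unfold switchMove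
  split_ifs with hc
  swap
  · exact hG
  intro v
  rw [← hG v]
  rw [mem_pm] at hF hF'
  by_cases hv : v ∈ S
  · obtain ⟨e, ⟨heF, hve⟩, hu⟩ := hF.2 v hv
    obtain ⟨x, rfl⟩ := hve
    obtain ⟨e', ⟨heF', hve'⟩, hu'⟩ := hF'.2 v hv
    obtain ⟨y, rfl⟩ := hve'
    have hvx : G.Adj v x := hc.1 _ heF
    have hvy : ¬ G.Adj v y := fun h => hc.2 _ heF' h
    have hyv : v ≠ y := by
      have := (hF'.1 _ heF').1
      rwa [Sym2.mk_isDiag_iff] at this
    have h1 : (SimpleGraph.fromEdgeSet {e | (e ∈ G.edgeSet ∧ e ∉ F) ∨ e ∈ F'}).neighborSet v =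
        insert y (G.neighborSet v \ {x}) := by
      ext w
      rw [SimpleGraph.mem_neighborSet, SimpleGraph.fromEdgeSet_adj, Set.mem_insert_iff,
        Set.mem_sdiff, SimpleGraph.mem_neighborSet, Set.mem_singleton_iff, Set.mem_ofPred_eq,
        SimpleGraph.mem_edgeSet]
      constructor
      · rintro ⟨⟨h2, h3⟩ | h2, h4⟩
        · right
          refine ⟨h2, ?_⟩
          rintro rfl
          exact h3 heF
        · left
          have := hu' _ ⟨h2, by simp⟩
          rw [Sym2.congr_right] at this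
          exact this
      · rintro (rfl | ⟨h2, h3⟩)
        · exact ⟨Or.inr heF', hyv⟩
        · refine ⟨Or.inl ⟨h2, fun h4 => h3 ?_⟩, h2.ne⟩
          have := hu _ ⟨h4, by simp⟩
          rw [Sym2.congr_right] at this
          exact this
    rw [h1, Set.ncard_insert_of_notMem (fun h => hvy h.1) (Set.toFinite _),
      Set.ncard_sdiff_singleton_add_one (a := x) (s := G.neighborSet v) hvx (Set.toFinite _)]
  · have h1 : (SimpleGraph.fromEdgeSet {e | (e ∈ G.edgeSet ∧ e ∉ F) ∨ e ∈ F'}).neighborSet v =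
        G.neighborSet v := by
      ext w
      rw [SimpleGraph.mem_neighborSet, SimpleGraph.fromEdgeSet_adj, SimpleGraph.mem_neighborSet,
        Set.mem_ofPred_eq, SimpleGraph.mem_edgeSet]
      constructor
      · rintro ⟨⟨h2, h3⟩ | h2, h4⟩
        · exact h2
        · exact absurd ((hF'.1 _ h2).2 v (by simp)) hv
      · intro h2
        exact ⟨Or.inl ⟨h2, fun h3 => hv ((hF.1 _ h3).2 v (by simp))⟩, h2.ne⟩
    rw [h1]

theorem switchMove_rev {G H : SimpleGraph (Fin n)} (hne : G ≠ H) {S : Finset (Fin n)}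
    {F F' : Finset (Sym2 (Fin n))} (hF : F ∈ perfectMatchings S)
    (hF' : F' ∈ perfectMatchings S) (h : switchMove G F F' = H) : switchMove H F' F = G := by
  classical
  rw [mem_pm] at hF hF'
  unfold switchMove at h
  split_ifs at h with hc
  swap
  · exact absurd h hne
  have hadj : ∀ x y, H.Adj x y ↔ ((G.Adj x y ∧ s(x, y) ∉ F) ∨ s(x, y) ∈ F') ∧ x ≠ y := by
    intro x y
    rw [← h, SimpleGraph.fromEdgeSet_adj]
    rfl
  have hedge : ∀ e, e ∈ H.edgeSet ↔ ((e ∈ G.edgeSet ∧ e ∉ F) ∨ e ∈ F') := by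
    intro e
    induction e with
    | _ x y =>
      rw [SimpleGraph.mem_edgeSet, hadj, SimpleGraph.mem_edgeSet]
      constructor
      · exact fun h => h.1
      · intro h1
        refine ⟨h1, ?_⟩
        rcases h1 with h1 | h1
        · exact h1.1.ne
        · have := (hF'.1 _ h1).1
          rwa [Sym2.mk_isDiag_iff] at this
  have hc2 : (∀ e ∈ F', e ∈ H.edgeSet) ∧ (∀ e ∈ F, e ∉ H.edgeSet) := by
    refine ⟨fun e he => (hedge e).2 (Or.inr he), fun e he h1 => ?_⟩
    rcases (hedge e).1 h1 with h2 | h2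
    · exact h2.2 he
    · exact hc.2 e h2 (hc.1 e he)
  unfold switchMove
  rw [if_pos hc2]
  ext x y
  rw [SimpleGraph.fromEdgeSet_adj, Set.mem_ofPred_eq]
  rw [hedge]
  constructor
  · rintro ⟨⟨h1 | h1, h2⟩ | h1, h3⟩
    · exact h1.1
    · exact absurd h1 h2
    · exact hc.1 _ h1
  · intro h1
    refine ⟨?_, h1.ne⟩
    by_cases h2 : s(x, y) ∈ F
    · exact Or.inr h2
    · exact Or.inl ⟨Or.inl ⟨h1, h2⟩, fun h3 => hc.2 _ h3 h1⟩

end ChainAux

open ChainAux

theorem card_offDiag_perfectMatchings {n : ℕ} (S : Finset (Fin n)) (hS : S.card = 4) :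
    (perfectMatchings S).offDiag.card = 6 := by
  obtain ⟨a, b, c, d, hSe, hab, hac, had, hbc, hbd, hcd⟩ := exists_four hS
  have h3 : (perfectMatchings S).card = 3 := by
    rw [pm_eq hSe hab hac had hbc hbd hcd]
    rw [Finset.card_eq_three]
    refine ⟨_, _, _, ?_, ?_, ?_, rfl⟩
    · intro h
      have : s(a, b) ∈ ({s(a, c), s(b, d)} : Finset (Sym2 (Fin n))) := by
        rw [← h]; simp
      simp only [Finset.mem_insert, Finset.mem_singleton, Sym2.eq_iff] at this
      tauto
    · intro h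
      have : s(a, b) ∈ ({s(a, d), s(b, c)} : Finset (Sym2 (Fin n))) := by
        rw [← h]; simp
      simp only [Finset.mem_insert, Finset.mem_singleton, Sym2.eq_iff] at this
      tauto
    · intro h
      have : s(a, c) ∈ ({s(a, d), s(b, c)} : Finset (Sym2 (Fin n))) := by
        rw [← h]; simp
      simp only [Finset.mem_insert, Finset.mem_singleton, Sym2.eq_iff] at this
      tauto
  rw [Finset.offDiag_card, h3]

theorem switchChain_symm {n : ℕ} (d : Fin n → ℕ) (G H : Omega d) :
    switchChain d G H = switchChain d H G := by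
  classical
  by_cases hGH : G = H
  · rw [hGH]
  · unfold switchChain
    have h1 : ¬ H = G := fun h => hGH h.symm
    rw [if_neg hGH, if_neg h1]
    congr 2
    refine Finset.sum_congr rfl fun S _ => ?_
    congr 1
    refine Finset.sum_bij' (fun p _ => (p.2, p.1)) (fun p _ => (p.2, p.1)) ?_ ?_ ?_ ?_ ?_
    · rintro ⟨F, F'⟩ hp
      rw [Finset.mem_offDiag] at hp ⊢
      exact ⟨hp.2.1, hp.1, fun h => hp.2.2 h.symm⟩
    · rintro ⟨F, F'⟩ hp
      rw [Finset.mem_offDiag] at hp ⊢
      exact ⟨hp.2.1, hp.1, fun h => hp.2.2 h.symm⟩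
    · rintro ⟨F, F'⟩ _; rfl
    · rintro ⟨F, F'⟩ _; rfl
    · rintro ⟨F, F'⟩ hp
      rw [Finset.mem_offDiag] at hp
      have hne : G.1 ≠ H.1 := fun h => hGH (Subtype.ext h)
      have : switchMove G.1 F F' = H.1 ↔ switchMove H.1 F' F = G.1 :=
        ⟨fun h => switchMove_rev hne hp.1 hp.2.1 h,
          fun h => switchMove_rev hne.symm hp.2.1 hp.1 h⟩
      simp only [this]

theorem switchChain_nonneg {n : ℕ} (d : Fin n → ℕ) (G H : Omega d) :
    0 ≤ switchChain d G H := by
  classical
  unfold switchChain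
  refine add_nonneg ?_ (mul_nonneg (by norm_num) (Finset.sum_nonneg fun S _ =>
    mul_nonneg (by positivity) (Finset.sum_nonneg fun p _ => ?_)))
  · split_ifs <;> norm_num
  · split_ifs <;> norm_num

theorem switchChain_sum {n : ℕ} (hn : 4 ≤ n) (d : Fin n → ℕ) (G : Omega d) :
    ∑ H, switchChain d G H = 1 := by
  classical
  unfold switchChain
  rw [Finset.sum_add_distrib, ← Finset.mul_sum, ← Finset.mul_sum, Finset.sum_ite_eq,
    if_pos (Finset.mem_univ G), Finset.sum_comm]
  have hch : (0 : ℝ) < n.choose 4 := by exact_mod_cast Nat.choose_pos hn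
  have h1 : ∀ S ∈ Finset.powersetCard 4 (Finset.univ : Finset (Fin n)),
      ∑ H : Omega d, 1 / (n.choose 4 : ℝ) * ∑ FF ∈ (perfectMatchings S).offDiag, 1 / 6 *
        (if switchMove G.1 FF.1 FF.2 = H.1 then (1 : ℝ) else 0) = 1 / (n.choose 4 : ℝ) := by
    intro S hS
    rw [Finset.mem_powersetCard] at hS
    rw [← Finset.mul_sum, Finset.sum_comm]
    have h2 : ∀ FF ∈ (perfectMatchings S).offDiag, ∑ H : Omega d, 1 / 6 *
        (if switchMove G.1 FF.1 FF.2 = H.1 then (1 : ℝ) else 0) = 1 / 6 := by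
      intro FF hFF
      rw [Finset.mem_offDiag] at hFF
      rw [← Finset.mul_sum]
      obtain ⟨K, hK⟩ : ∃ K : Omega d, K.1 = switchMove G.1 FF.1 FF.2 :=
        ⟨⟨switchMove G.1 FF.1 FF.2, hasDeg_switchMove G.2 hFF.1 hFF.2.1⟩, rfl⟩
      rw [Finset.sum_eq_single K]
      · rw [if_pos hK.symm, mul_one]
      · intro H _ hH
        rw [if_neg]
        intro h
        exact hH (Subtype.ext (h.symm.trans hK.symm))
      · intro h
        exact absurd (Finset.mem_univ K) h
    rw [Finset.sum_congr rfl h2, Finset.sum_const, card_offDiag_perfectMatchings S hS.2]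
    norm_num
  rw [Finset.sum_congr rfl h1, Finset.sum_const, Finset.card_powersetCard, Finset.card_univ,
    Fintype.card_fin, nsmul_eq_mul]
  field_simp
  norm_num

theorem switchChain_lazy {n : ℕ} (d : Fin n → ℕ) (G : Omega d) :
    1 / 2 ≤ switchChain d G G := by
  classical
  unfold switchChain
  rw [if_pos rfl, mul_one]
  refine le_add_of_nonneg_right (mul_nonneg (by norm_num) (Finset.sum_nonneg fun S _ =>
    mul_nonneg (by positivity) (Finset.sum_nonneg fun p _ => ?_)))
  split_ifs <;> norm_num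

theorem switchChain_ge {n : ℕ} (hn : 4 ≤ n) (d : Fin n → ℕ) (G H : Omega d) (h : Sw G.1 H.1) :
    1 / (12 * (n.choose 4 : ℝ)) ≤ switchChain d G H := by
  classical
  obtain ⟨a, b, c, e, hab, hac, hae, hbc, hbe, hce, gab, gce, gac, gbe, hH⟩ := h
  set S : Finset (Fin n) := {a, b, c, e} with hS
  have hS2 : S = {a, c, b, e} := by
    rw [hS]; ext x; simp only [Finset.mem_insert, Finset.mem_singleton]; tauto
  have hcard : S.card = 4 := by
    rw [hS, Finset.card_insert_of_notMem, Finset.card_insert_of_notMem,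
      Finset.card_insert_of_notMem, Finset.card_singleton]
    · simp [hce]
    · simp [hbc, hbe]
    · simp [hab, hac, hae]
  have hF : ({s(a, b), s(c, e)} : Finset (Sym2 (Fin n))) ∈ perfectMatchings S :=
    mem_pm_pair hS hab hac hae hbc hbe hce
  have hF' : ({s(a, c), s(b, e)} : Finset (Sym2 (Fin n))) ∈ perfectMatchings S :=
    mem_pm_pair hS2 hac hab hae hbc.symm hce hbe
  have hFF : (({s(a, b), s(c, e)} : Finset (Sym2 (Fin n))),
      ({s(a, c), s(b, e)} : Finset (Sym2 (Fin n)))) ∈ (perfectMatchings S).offDiag := by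
    rw [Finset.mem_offDiag]
    refine ⟨hF, hF', fun h' => ?_⟩
    have h : ({s(a, b), s(c, e)} : Finset (Sym2 (Fin n))) = {s(a, c), s(b, e)} := h'
    have : s(a, b) ∈ ({s(a, c), s(b, e)} : Finset (Sym2 (Fin n))) := by
      rw [← h]; simp
    simp only [Finset.mem_insert, Finset.mem_singleton, Sym2.eq_iff] at this
    tauto
  have hmove : switchMove G.1 {s(a, b), s(c, e)} {s(a, c), s(b, e)} = H.1 := by
    unfold switchMove
    rw [if_pos]
    · ext x y
      rw [SimpleGraph.fromEdgeSet_adj, Set.mem_ofPred_eq, hH x y]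
      simp only [Finset.mem_insert, Finset.mem_singleton, not_or, SimpleGraph.mem_edgeSet]
      constructor
      · rintro ⟨h1 | h1, h2⟩
        · exact Or.inl ⟨h1.1, h1.2⟩
        · exact Or.inr h1
      · rintro (h1 | h1 | h1)
        · exact ⟨Or.inl ⟨h1.1, h1.2⟩, h1.1.ne⟩
        · refine ⟨Or.inr (Or.inl h1), ?_⟩
          rintro rfl
          rw [Sym2.eq_iff] at h1
          rcases h1 with ⟨h3, h4⟩ | ⟨h3, h4⟩
          · exact hac (h3.symm.trans h4)
          · exact hac (h4.symm.trans h3)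
        · refine ⟨Or.inr (Or.inr h1), ?_⟩
          rintro rfl
          rw [Sym2.eq_iff] at h1
          rcases h1 with ⟨h3, h4⟩ | ⟨h3, h4⟩
          · exact hbe (h3.symm.trans h4)
          · exact hbe (h4.symm.trans h3)
    · constructor
      · intro f hf
        simp only [Finset.mem_insert, Finset.mem_singleton] at hf
        rcases hf with rfl | rfl
        · exact gab
        · exact gce
      · intro f hf
        simp only [Finset.mem_insert, Finset.mem_singleton] at hf
        rcases hf with rfl | rfl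
        · exact gac
        · exact gbe
  have hch : (0 : ℝ) < n.choose 4 := by exact_mod_cast Nat.choose_pos hn
  unfold switchChain
  have hnn : ∀ T : Finset (Fin n), ∀ FF ∈ (perfectMatchings T).offDiag, (0 : ℝ) ≤ 1 / 6 *
      (if switchMove G.1 FF.1 FF.2 = H.1 then 1 else 0) := by
    intro T FF _
    split_ifs <;> norm_num
  have h1 : (1 : ℝ) / 6 ≤ ∑ FF ∈ (perfectMatchings S).offDiag, 1 / 6 *
      (if switchMove G.1 FF.1 FF.2 = H.1 then (1 : ℝ) else 0) := by
    have h2 := Finset.single_le_sum (hnn S) hFF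
    simp only [hmove, if_true, mul_one] at h2
    exact h2
  have h2 : 1 / (n.choose 4 : ℝ) * (1 / 6) ≤
      ∑ T ∈ Finset.powersetCard 4 (Finset.univ : Finset (Fin n)), 1 / (n.choose 4 : ℝ) *
      ∑ FF ∈ (perfectMatchings T).offDiag, 1 / 6 *
        (if switchMove G.1 FF.1 FF.2 = H.1 then (1 : ℝ) else 0) := by
    have hST : S ∈ Finset.powersetCard 4 (Finset.univ : Finset (Fin n)) := by
      rw [Finset.mem_powersetCard]; exact ⟨Finset.subset_univ _, hcard⟩
    refine le_trans ?_ (Finset.single_le_sum (f := fun T : Finset (Fin n) =>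
      1 / (n.choose 4 : ℝ) * ∑ FF ∈ (perfectMatchings T).offDiag, 1 / 6 *
        (if switchMove G.1 FF.1 FF.2 = H.1 then (1 : ℝ) else 0))
      (fun T _ => mul_nonneg (by positivity) (Finset.sum_nonneg (hnn T))) hST)
    exact mul_le_mul_of_nonneg_left h1 (by positivity)
  have h3 : (1 : ℝ) / (12 * (n.choose 4 : ℝ)) = 1 / 2 * (1 / (n.choose 4 : ℝ) * (1 / 6)) := by
    field_simp
    norm_num
  rw [h3]
  have h4 : (0 : ℝ) ≤ 1 / 2 * (if G = H then 1 else 0) := by
    split_ifs <;> norm_num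
  have h5 := mul_le_mul_of_nonneg_left h2 (by norm_num : (0 : ℝ) ≤ 1 / 2)
  linarith

end Vale.Agent.P335
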