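import Vale.Agent.P335.Basic

/-!
# P335: degrees along arcs of an alternating circuit
-/

namespace Vale.Agent.P335

open scoped symmDiff

variable {V : Type*}

/-- One-sided version of an alternating circuit: `G` contains exactly the edges with
`(k + ρ) % 2 = 0`. -/
structure AltW (G : SimpleGraph V) (v : ℤ → V) (l : ℕ) (ρ : ℤ) : Prop where
  pos : 0 < l
  per : ∀ k, v (k + 2 * l) = v k
  ne : ∀ k, v k ≠ v (k + 1)
  adj : ∀ k, G.Adj (v k) (v (k + 1)) ↔ (k + ρ) % 2 = 0
  inj : ∀ k m, s(v k, v (k + 1)) = s(v m, v (m + 1)) → (2 * l : ℤ) ∣ k - m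

/-- sign -/
def sg (k : ℤ) : ℤ := if k % 2 = 0 then 1 else -1

theorem sg_succ (k : ℤ) : sg (k + 1) = - sg k := by
  unfold sg; split_ifs <;> omega

theorem sg_add_two_mul (k m : ℤ) : sg (k + 2 * m) = sg k := by
  unfold sg; split_ifs <;> omega

theorem AltCirc.altW {X X' : SimpleGraph V} {v : ℤ → V} {l : ℕ} (hc : AltCirc X X' v l) :
    AltW X v l 0 where
  pos := hc.pos
  per := hc.per
  ne := by
    intro k
    rcases Int.even_or_odd' k with ⟨m, rfl | rfl⟩
    · exact (hc.ev m).1.ne
    · have := (hc.od m).1.ne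
      rwa [show (2 * m + 1 + 1 : ℤ) = 2 * m + 2 by ring]
  adj := by
    intro k
    rcases Int.even_or_odd' k with ⟨m, rfl | rfl⟩
    · constructor
      · intro; omega
      · intro; exact (hc.ev m).1
    · constructor
      · intro h
        have := (hc.od m).2
        rw [show (2 * m + 1 + 1 : ℤ) = 2 * m + 2 by ring] at h
        exact absurd h this
      · intro; omega
  inj := hc.inj

theorem AltCirc.altW' {X X' : SimpleGraph V} {v : ℤ → V} {l : ℕ} (hc : AltCirc X X' v l) :
    AltW X' v l 1 where
  pos := hc.pos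
  per := hc.per
  ne := hc.altW.ne
  adj := by
    intro k
    rcases Int.even_or_odd' k with ⟨m, rfl | rfl⟩
    · constructor
      · intro h; exact absurd h (hc.ev m).2
      · intro; omega
    · constructor
      · intro h; omega
      · intro
        have := (hc.od m).1
        rwa [show (2 * m + 1 + 1 : ℤ) = 2 * m + 2 by ring]
  inj := hc.inj

namespace AltW

variable {G : SimpleGraph V} {v : ℤ → V} {l : ℕ} {ρ : ℤ}

/-- membership of edge `k` in the arc `[i, j)`, `k ∈ [i, i + 2l)` -/
theorem arc_adj_iff (h : AltW G v l ρ) {i j k : ℤ} (hk : i ≤ k) (hk' : k < i + 2 * l)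
    (hj : j ≤ i + 2 * l) : (arcG v i j).Adj (v k) (v (k + 1)) ↔ k < j := by
  rw [arcG_adj]
  constructor
  · rintro ⟨⟨m, h1, h2, h3⟩, -⟩
    obtain ⟨c, hc⟩ := h.inj k m h3
    have h4 : |k - m| < 2 * l := by rw [abs_lt]; constructor <;> omega
    have h5 : c = 0 := by
      by_contra hne
      have : (1 : ℤ) ≤ |c| := Int.one_le_abs hne
      have h6 : |k - m| = 2 * l * |c| := by
        rw [hc, abs_mul]; congr 1; exact abs_of_nonneg (by positivity)
      have h7 : (0 : ℤ) ≤ 2 * l := by positivity
      nlinarith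
    rw [h5] at hc
    omega
  · intro hkj
    exact ⟨⟨k, hk, hkj, rfl⟩, h.ne k⟩

/-- adjacency after flipping an arc, at an edge of the circuit -/
theorem flip_adj (h : AltW G v l ρ) {i j k : ℤ} (hk : i ≤ k) (hk' : k < i + 2 * l)
    (hj : j ≤ i + 2 * l) :
    (G ∆ arcG v i j).Adj (v k) (v (k + 1)) ↔ ¬ ((k + ρ) % 2 = 0 ↔ k < j) := by
  rw [symmDiff_adj', h.arc_adj_iff hk hk' hj, h.adj]

theorem arcG_self (v : ℤ → V) (i : ℤ) : arcG v i i = ⊥ := by
  ext x y
  rw [arcG_adj]
  constructor
  · rintro ⟨⟨k, h1, h2, -⟩, -⟩; omega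
  · intro h; exact absurd h (by simp)

theorem arcG_succ_adj (v : ℤ → V) {i j : ℤ} (hij : i ≤ j) (hne : v j ≠ v (j + 1)) (x y : V) :
    (arcG v i (j + 1)).Adj x y ↔ (arcG v i j).Adj x y ∨ s(x, y) = s(v j, v (j + 1)) := by
  rw [arcG_adj, arcG_adj]
  constructor
  · rintro ⟨⟨k, h1, h2, h3⟩, h4⟩
    by_cases hk : k < j
    · exact Or.inl ⟨⟨k, h1, hk, h3⟩, h4⟩
    · have : k = j := by omega
      subst this; exact Or.inr h3
  · rintro (⟨⟨k, h1, h2, h3⟩, h4⟩ | h3)
    · exact ⟨⟨k, h1, by omega, h3⟩, h4⟩
    · refine ⟨⟨j, hij, by omega, h3⟩, ?_⟩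
      rintro rfl
      rw [Sym2.eq_iff] at h3
      rcases h3 with ⟨h5, h6⟩ | ⟨h5, h6⟩
      · exact hne (h5.symm.trans h6)
      · exact hne (h6.symm.trans h5)

variable [Finite V]

open Classical in
theorem dg_flip (h : AltW G v l ρ) {i : ℤ} (n : ℕ) (hn : (n : ℤ) ≤ 2 * l) (x : V) :
    (dg (G ∆ arcG v i (i + n)) x : ℤ) = dg G x - (if x = v i then sg (i + ρ) else 0)
      + (if x = v (i + n) then sg (i + n + ρ) else 0) := by
  induction n with
  | zero =>
    simp only [Nat.cast_zero, add_zero, arcG_self]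
    simp
  | succ n ih =>
    have hn' : (n : ℤ) ≤ 2 * l := by push_cast at hn; omega
    have ih := ih hn'
    have hne := h.ne (i + n)
    have hnot : ¬ (arcG v i (i + n)).Adj (v (i + n)) (v (i + n + 1)) := by
      rw [h.arc_adj_iff (by omega) (by push_cast at hn; omega) (by omega)]; omega
    have hsucc := arcG_succ_adj v (i := i) (j := i + n) (by omega) hne
    have hcast : (i + ((n + 1 : ℕ) : ℤ)) = i + n + 1 := by push_cast; ring
    rw [hcast]
    have hsg : sg (i + n + 1 + ρ) = - sg (i + n + ρ) := by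
      rw [← sg_succ]; congr 1; ring
    rw [hsg]
    by_cases hpar : (i + n + ρ) % 2 = 0
    · -- the edge is in `G`, it is removed
      have hG : G.Adj (v (i + n)) (v (i + n + 1)) := (h.adj _).2 hpar
      have hs : sg (i + n + ρ) = 1 := by simp [sg, hpar]
      have key := dg_add_edge (G := G ∆ arcG v i (i + n + 1)) (G' := G ∆ arcG v i (i + n))
        (u := v (i + n)) (v := v (i + n + 1)) hne
        (by
          rw [symmDiff_adj', hsucc]
          simp [hG])
        (by
          intro x y
          rw [symmDiff_adj', symmDiff_adj', hsucc]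
          by_cases he : s(x, y) = s(v (i + n), v (i + n + 1))
          · have h1 : G.Adj x y := by
              rw [← SimpleGraph.mem_edgeSet, he]; exact hG
            have h2 : ¬ (arcG v i (i + n)).Adj x y := by
              rw [← SimpleGraph.mem_edgeSet, he]; exact hnot
            simp [he, h1, h2]
          · simp [he]) x
      rw [hs] at ih ⊢
      have key' : (dg (G ∆ arcG v i (i + n)) x : ℤ) = dg (G ∆ arcG v i (i + n + 1)) x +
        (if x = v (i + n) then 1 else 0) + (if x = v (i + n + 1) then 1 else 0) := by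
        rw [key]; push_cast; rfl
      split_ifs at * <;> omega
    · have hG : ¬ G.Adj (v (i + n)) (v (i + n + 1)) := fun hh => hpar ((h.adj _).1 hh)
      have hs : sg (i + n + ρ) = -1 := by simp [sg, hpar]
      have key := dg_add_edge (G := G ∆ arcG v i (i + n)) (G' := G ∆ arcG v i (i + n + 1))
        (u := v (i + n)) (v := v (i + n + 1)) hne
        (by
          rw [symmDiff_adj']
          simp [hG, hnot])
        (by
          intro x y
          rw [symmDiff_adj', symmDiff_adj', hsucc]
          by_cases he : s(x, y) = s(v (i + n), v (i + n + 1))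
          · have h1 : ¬ G.Adj x y := by
              rw [← SimpleGraph.mem_edgeSet, he]; exact hG
            have h2 : ¬ (arcG v i (i + n)).Adj x y := by
              rw [← SimpleGraph.mem_edgeSet, he]; exact hnot
            simp [he, h1, h2]
          · simp [he]) x
      rw [hs] at ih ⊢
      have key' : (dg (G ∆ arcG v i (i + n + 1)) x : ℤ) = dg (G ∆ arcG v i (i + n)) x +
        (if x = v (i + n) then 1 else 0) + (if x = v (i + n + 1) then 1 else 0) := by
        rw [key]; push_cast; rfl
      split_ifs at * <;> omega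

end AltW

end Vale.Agent.P335
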