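import Vale.Agent.P335.Circ1
import Vale.Agent.P335.Repair

/-!
# P335: arcs are near-realisations
-/

namespace Vale.Agent.P335

open scoped symmDiff

variable {V : Type*}

section
variable [Finite V]

/-- arcs differing in one edge give graphs at distance at most `2` -/
theorem ed_arc_right (G : SimpleGraph V) (v : ℤ → V) (i j : ℤ) :
    ed (G ∆ arcG v i j) (G ∆ arcG v i (j + 1)) ≤ 2 := by
  refine ed_le_two_of_edge (u := v j) (v := v (j + 1)) ?_
  intro x y hxy
  rw [symmDiff_adj', symmDiff_adj'] at hxy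
  have h2 : ¬ ((arcG v i j).Adj x y ↔ (arcG v i (j + 1)).Adj x y) := by tauto
  rw [arcG_adj, arcG_adj] at h2
  by_contra hne
  apply h2
  constructor
  · rintro ⟨⟨k, h1, h2, h3⟩, h4⟩; exact ⟨⟨k, h1, by omega, h3⟩, h4⟩
  · rintro ⟨⟨k, h1, h2, h3⟩, h4⟩
    refine ⟨⟨k, h1, ?_, h3⟩, h4⟩
    by_contra hk
    have : k = j := by omega
    subst this; exact hne h3

theorem ed_arc_left (G : SimpleGraph V) (v : ℤ → V) (i j : ℤ) :
    ed (G ∆ arcG v i j) (G ∆ arcG v (i + 1) j) ≤ 2 := by
  refine ed_le_two_of_edge (u := v i) (v := v (i + 1)) ?_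
  intro x y hxy
  rw [symmDiff_adj', symmDiff_adj'] at hxy
  have h2 : ¬ ((arcG v i j).Adj x y ↔ (arcG v (i + 1) j).Adj x y) := by tauto
  rw [arcG_adj, arcG_adj] at h2
  by_contra hne
  apply h2
  constructor
  · rintro ⟨⟨k, h1, h2, h3⟩, h4⟩
    refine ⟨⟨k, ?_, h2, h3⟩, h4⟩
    by_contra hk
    have : k = i := by omega
    subst this; exact hne h3
  · rintro ⟨⟨k, h1, h2, h3⟩, h4⟩; exact ⟨⟨k, by omega, h2, h3⟩, h4⟩

theorem ed_arc_right' (G : SimpleGraph V) (v : ℤ → V) (i j : ℤ) :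
    ed (G ∆ arcG v i (j + 1)) (G ∆ arcG v i j) ≤ 2 := by
  rw [ed_comm]; exact ed_arc_right G v i j

theorem ed_arc_left' (G : SimpleGraph V) (v : ℤ → V) (i j : ℤ) :
    ed (G ∆ arcG v (i + 1) j) (G ∆ arcG v i j) ≤ 2 := by
  rw [ed_comm]; exact ed_arc_left G v i j

theorem ed_arc_right_two (G : SimpleGraph V) (v : ℤ → V) (i j : ℤ) :
    ed (G ∆ arcG v i j) (G ∆ arcG v i (j + 2)) ≤ 4 := by
  have h1 := ed_arc_right G v i j
  have h2 := ed_arc_right G v i (j + 1)
  have h3 := ed_triangle (G ∆ arcG v i j) (G ∆ arcG v i (j + 1)) (G ∆ arcG v i (j + 1 + 1))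
  rw [show (j + 2 : ℤ) = j + 1 + 1 by ring]
  omega

theorem ed_arc_left_two (G : SimpleGraph V) (v : ℤ → V) (i j : ℤ) :
    ed (G ∆ arcG v (i + 2) j) (G ∆ arcG v i j) ≤ 4 := by
  have h1 := ed_arc_left' G v i j
  have h2 := ed_arc_left' G v (i + 1) j
  have h3 := ed_triangle (G ∆ arcG v (i + 1 + 1) j) (G ∆ arcG v (i + 1) j) (G ∆ arcG v i j)
  rw [show (i + 2 : ℤ) = i + 1 + 1 by ring]
  omega

theorem Near.mono {r r' : ℕ} {d : V → ℕ} {Y : SimpleGraph V} (h : Near r d Y) (hr : r ≤ r') :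
    Near r' d Y := by
  obtain ⟨G, h1, h2⟩ := h; exact ⟨G, h1, h2.trans hr⟩

theorem Near.of_ed {r s : ℕ} {d : V → ℕ} {Y Z : SimpleGraph V} (h : Near r d Y)
    (hr : ed Z Y ≤ s) : Near (r + s) d Z := by
  obtain ⟨G, h1, h2⟩ := h
  refine ⟨G, h1, ?_⟩
  have := ed_triangle Z Y G
  omega

end

namespace AltW

variable [Fintype V] {G : SimpleGraph V} {v : ℤ → V} {l : ℕ} {ρ : ℤ} {d : V → ℕ}

/-- degrees of the flipped graph, in terms of integer positions -/
theorem dg_flip' (h : AltW G v l ρ) {i j : ℤ} (hij : i ≤ j) (hj : j ≤ i + 2 * l) (x : V)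
    [Decidable (x = v i)] [Decidable (x = v j)] :
    (dg (G ∆ arcG v i j) x : ℤ) = dg G x - (if x = v i then sg (i + ρ) else 0)
      + (if x = v j then sg (j + ρ) else 0) := by
  obtain ⟨n, rfl⟩ : ∃ n : ℕ, j = i + n := ⟨(j - i).toNat, by omega⟩
  have := h.dg_flip (i := i) n (by omega) x
  rw [this]
  congr

/-- full turn: again a realisation -/
theorem real_full (h : AltW G v l ρ) (hG : Real d G) (i : ℤ) :
    Real d (G ∆ arcG v i (i + 2 * l)) := by
  classical
  intro x
  have h1 := h.dg_flip' (i := i) (j := i + 2 * l) (by have := h.pos; omega) le_rfl x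
  have h2 : v (i + 2 * l) = v i := h.per i
  have h3 : sg (i + 2 * l + ρ) = sg (i + ρ) := by
    rw [show (i + 2 * l + ρ : ℤ) = i + ρ + 2 * l by ring, sg_add_two_mul]
  rw [h2, h3, hG x] at h1
  omega

/-- deficient arcs -/
theorem near_of_deficient (h : AltW G v l ρ) (hG : Real d G) {i j : ℤ} (hij : i < j)
    (hj : j < i + 2 * l) (hi : (i + ρ) % 2 = 0) (hjo : (j + ρ) % 2 = 1)
    (hd : d (v j) ≤ d (v (i - 1)) + 1 ∨ d (v j) ≤ d (v (i + 1)) + 1 ∨
      d (v i) ≤ d (v (j - 1)) + 1 ∨ d (v i) ≤ d (v (j + 1)) + 1) :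
    Near 6 d (G ∆ arcG v i j) := by
  classical
  have hdeg : ∀ x, (dg (G ∆ arcG v i j) x : ℤ) = d x - (if x = v i then 1 else 0)
      - (if x = v j then 1 else 0) := by
    intro x
    rw [h.dg_flip' hij.le (by omega), hG x]
    have h1 : sg (i + ρ) = 1 := by simp [sg, hi]
    have h2 : sg (j + ρ) = -1 := by simp [sg, hjo]
    rw [h1, h2]; split_ifs <;> ring
  have hdeg' : ∀ x, (dg (G ∆ arcG v i j) x : ℤ) = d x - (if x = v j then 1 else 0)
      - (if x = v i then 1 else 0) := by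
    intro x; rw [hdeg x]; ring
  have n1 : ¬ (G ∆ arcG v i j).Adj (v i) (v (i + 1)) := by
    rw [h.flip_adj (by omega) (by omega) (by omega)]; simp [hi, hij]
  have n2 : ¬ (G ∆ arcG v i j).Adj (v i) (v (i - 1)) := by
    intro hh
    have hh := hh.symm
    have e1 : v (i - 1) = v (i - 1 + 2 * l) := (h.per _).symm
    have e2 : v i = v (i - 1 + 2 * l + 1) := by
      rw [show (i - 1 + 2 * l + 1 : ℤ) = i + 2 * l by ring]; exact (h.per _).symm
    rw [e1, e2, h.flip_adj (by omega) (by omega) (by omega)] at hh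
    omega
  have n3 : ¬ (G ∆ arcG v i j).Adj (v j) (v (j - 1)) := by
    intro hh
    have hh := hh.symm
    have e2 : v j = v (j - 1 + 1) := by congr 1; ring
    rw [e2, h.flip_adj (by omega) (by omega) (by omega)] at hh
    omega
  have n4 : ¬ (G ∆ arcG v i j).Adj (v j) (v (j + 1)) := by
    rw [h.flip_adj (by omega) (by omega) (by omega)]; omega
  rcases hd with hd | hd | hd | hd
  · refine add_repair d _ (v i) (v j) (v (i - 1)) hdeg ?_ n2 hd
    have := h.ne (i - 1); rwa [show (i - 1 + 1 : ℤ) = i by ring] at this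
  · exact add_repair d _ (v i) (v j) (v (i + 1)) hdeg (h.ne i).symm n1 hd
  · refine add_repair d _ (v j) (v i) (v (j - 1)) hdeg' ?_ n3 hd
    have := h.ne (j - 1); rwa [show (j - 1 + 1 : ℤ) = j by ring] at this
  · exact add_repair d _ (v j) (v i) (v (j + 1)) hdeg' (h.ne j).symm n4 hd

/-- arcs with excess -/
theorem near_of_excess (h : AltW G v l ρ) (hG : Real d G) {i j : ℤ} (hij : i < j)
    (hj : j < i + 2 * l) (hi : (i + ρ) % 2 = 1) (hjo : (j + ρ) % 2 = 0)
    (hd : d (v (i - 1)) ≤ d (v j) + 1 ∨ d (v (i + 1)) ≤ d (v j) + 1 ∨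
      d (v (j - 1)) ≤ d (v i) + 1 ∨ d (v (j + 1)) ≤ d (v i) + 1) :
    Near 6 d (G ∆ arcG v i j) := by
  classical
  have hdeg : ∀ x, (dg (G ∆ arcG v i j) x : ℤ) = d x + (if x = v i then 1 else 0)
      + (if x = v j then 1 else 0) := by
    intro x
    rw [h.dg_flip' hij.le (by omega), hG x]
    have h1 : sg (i + ρ) = -1 := by simp [sg, hi]
    have h2 : sg (j + ρ) = 1 := by simp [sg, hjo]
    rw [h1, h2]; split_ifs <;> ring
  have hdeg' : ∀ x, (dg (G ∆ arcG v i j) x : ℤ) = d x + (if x = v j then 1 else 0)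
      + (if x = v i then 1 else 0) := by
    intro x; rw [hdeg x]; ring
  have n1 : (G ∆ arcG v i j).Adj (v i) (v (i + 1)) := by
    rw [h.flip_adj (by omega) (by omega) (by omega)]; omega
  have n2 : (G ∆ arcG v i j).Adj (v i) (v (i - 1)) := by
    have e1 : v (i - 1) = v (i - 1 + 2 * l) := (h.per _).symm
    have e2 : v i = v (i - 1 + 2 * l + 1) := by
      rw [show (i - 1 + 2 * l + 1 : ℤ) = i + 2 * l by ring]; exact (h.per _).symm
    apply SimpleGraph.Adj.symm
    rw [e1, e2, h.flip_adj (by omega) (by omega) (by omega)]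
    omega
  have n3 : (G ∆ arcG v i j).Adj (v j) (v (j - 1)) := by
    have e2 : v j = v (j - 1 + 1) := by congr 1; ring
    apply SimpleGraph.Adj.symm
    rw [e2, h.flip_adj (by omega) (by omega) (by omega)]
    omega
  have n4 : (G ∆ arcG v i j).Adj (v j) (v (j + 1)) := by
    rw [h.flip_adj (by omega) (by omega) (by omega)]; omega
  rcases hd with hd | hd | hd | hd
  · exact remove_repair d _ (v i) (v j) (v (i - 1)) hdeg n2 hd
  · exact remove_repair d _ (v i) (v j) (v (i + 1)) hdeg n1 hd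
  · exact remove_repair d _ (v j) (v i) (v (j - 1)) hdeg' n3 hd
  · exact remove_repair d _ (v j) (v i) (v (j + 1)) hdeg' n4 hd

end AltW

section
variable [Fintype V] {X X' : SimpleGraph V} {v : ℤ → V} {l : ℕ} {d : V → ℕ}

/-- node of the first kind: `i` even, `j` odd, the degree of `v j` between those of
`v (i-1)` and `v (i+1)` -/
theorem node_A (hc : AltCirc X X' v l) (hX : Real d X) (hX' : Real d X') {i j : ℤ}
    (hij : i < j) (hj : j < i + 2 * l) (hi : i % 2 = 0) (hjo : j % 2 = 1)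
    (h1 : min (d (v (i - 1))) (d (v (i + 1))) ≤ d (v j))
    (h2 : d (v j) ≤ max (d (v (i - 1))) (d (v (i + 1)))) :
    Near 6 d (X ∆ arcG v i j) ∧ Near 6 d (X' ∆ arcG v i j) := by
  constructor
  · refine hc.altW.near_of_deficient hX hij hj (by omega) (by omega) ?_
    rcases le_max_iff.1 h2 with h | h
    · left; omega
    · right; left; omega
  · refine hc.altW'.near_of_excess hX' hij hj (by omega) (by omega) ?_
    rcases min_le_iff.1 h1 with h | h
    · left; omega
    · right; left; omega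

/-- node of the second kind: `i` odd, `j` even, the degree of `v i` between those of
`v (j-1)` and `v (j+1)` -/
theorem node_B (hc : AltCirc X X' v l) (hX : Real d X) (hX' : Real d X') {i j : ℤ}
    (hij : i < j) (hj : j < i + 2 * l) (hi : i % 2 = 1) (hjo : j % 2 = 0)
    (h1 : min (d (v (j - 1))) (d (v (j + 1))) ≤ d (v i))
    (h2 : d (v i) ≤ max (d (v (j - 1))) (d (v (j + 1)))) :
    Near 6 d (X ∆ arcG v i j) ∧ Near 6 d (X' ∆ arcG v i j) := by
  constructor
  · refine hc.altW.near_of_excess hX hij hj (by omega) (by omega) ?_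
    rcases min_le_iff.1 h1 with h | h
    · right; right; left; omega
    · right; right; right; omega
  · refine hc.altW'.near_of_deficient hX' hij hj (by omega) (by omega) ?_
    rcases le_max_iff.1 h2 with h | h
    · right; right; left; omega
    · right; right; right; omega

/-- cells: `i`, `j` even with meeting altitude intervals -/
theorem cell_near (hc : AltCirc X X' v l) (hX : Real d X) (hX' : Real d X') {i j : ℤ}
    (hij : i + 2 ≤ j) (hj : j + 2 ≤ i + 2 * l) (hi : i % 2 = 0) (hje : j % 2 = 0)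
    (h1 : min (d (v (i - 1))) (d (v (i + 1))) ≤ max (d (v (j - 1))) (d (v (j + 1))))
    (h2 : min (d (v (j - 1))) (d (v (j + 1))) ≤ max (d (v (i - 1))) (d (v (i + 1)))) :
    Near 8 d (X ∆ arcG v i j) ∧ Near 8 d (X' ∆ arcG v i j) := by
  have hr : ∀ G : SimpleGraph V, ed (G ∆ arcG v i j) (G ∆ arcG v i (j - 1)) ≤ 2 := by
    intro G
    have := ed_arc_right' G v i (j - 1)
    rwa [show (j - 1 + 1 : ℤ) = j by ring] at this
  have hl : ∀ G : SimpleGraph V, ed (G ∆ arcG v i j) (G ∆ arcG v (i - 1) j) ≤ 2 := by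
    intro G
    have := ed_arc_left' G v (i - 1) j
    rwa [show (i - 1 + 1 : ℤ) = i by ring] at this
  rcases le_total (min (d (v (i - 1))) (d (v (i + 1)))) (min (d (v (j - 1))) (d (v (j + 1))))
    with h | h
  · -- a vertex of the right edge
    rcases min_choice (d (v (j - 1))) (d (v (j + 1))) with he | he
    · rw [he] at h h2
      obtain ⟨a, b⟩ := node_A hc hX hX' (i := i) (j := j - 1) (by omega) (by omega) hi
        (by omega) h h2
      exact ⟨a.of_ed (hr X), b.of_ed (hr X')⟩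
    · rw [he] at h h2
      obtain ⟨a, b⟩ := node_A hc hX hX' (i := i) (j := j + 1) (by omega) (by omega) hi
        (by omega) h h2
      exact ⟨a.of_ed (ed_arc_right X v i j), b.of_ed (ed_arc_right X' v i j)⟩
  · rcases min_choice (d (v (i - 1))) (d (v (i + 1))) with he | he
    · rw [he] at h h1
      obtain ⟨a, b⟩ := node_B hc hX hX' (i := i - 1) (j := j) (by omega) (by omega)
        (by omega) hje h h1
      exact ⟨a.of_ed (hl X), b.of_ed (hl X')⟩
    · rw [he] at h h1
      obtain ⟨a, b⟩ := node_B hc hX hX' (i := i + 1) (j := j) (by omega) (by omega)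
        (by omega) hje h h1
      exact ⟨a.of_ed (ed_arc_left X v i j), b.of_ed (ed_arc_left X' v i j)⟩

end

end Vale.Agent.P335
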