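import Vale.Agent.P335.Defs

/-! P335, T5: discrete mountain climbing. -/

namespace Vale.Agent.P335

namespace MountAux

/-- `f X` lies strictly inside the altitude interval of the edge `y` of `g` -/
def Ins (f g : ℕ → ℕ) (X y : ℕ) : Prop :=
  (g y < f X ∧ f X < g (y + 1)) ∨ (g (y + 1) < f X ∧ f X < g y)

instance (f g : ℕ → ℕ) (X y : ℕ) : Decidable (Ins f g X y) := by
  unfold Ins; infer_instance

theorem arith (a b c d : ℕ) (hab : a ≠ b) (hcd : c ≠ d)
    (hov : max (min a b) (min c d) < min (max a b) (max c d)) :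
    (if (c < a ∧ a < d) ∨ (d < a ∧ a < c) then 1 else 0) +
    (if (c < b ∧ b < d) ∨ (d < b ∧ b < c) then 1 else 0) +
    (if (a < c ∧ c < b) ∨ (b < c ∧ c < a) then 1 else 0) +
    (if (a < d ∧ d < b) ∨ (b < d ∧ d < a) then 1 else 0) +
    (if min a b = min c d then 1 else 0) + (if max a b = max c d then 1 else 0) = 2 := by
  rcases lt_or_gt_of_ne hab with l1 | l1 <;> rcases lt_or_gt_of_ne hcd with l2 | l2
  · rw [min_eq_left l1.le, min_eq_left l2.le, max_eq_right l1.le, max_eq_right l2.le] at *
    have h1 : a < d := by omega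
    have h2 : c < b := by omega
    have e1 : ((c < a ∧ a < d) ∨ (d < a ∧ a < c)) ↔ c < a := by omega
    have e2 : ((c < b ∧ b < d) ∨ (d < b ∧ b < c)) ↔ b < d := by omega
    have e3 : ((a < c ∧ c < b) ∨ (b < c ∧ c < a)) ↔ a < c := by omega
    have e4 : ((a < d ∧ d < b) ∨ (b < d ∧ d < a)) ↔ d < b := by omega
    rw [if_congr e1 rfl rfl, if_congr e2 rfl rfl, if_congr e3 rfl rfl, if_congr e4 rfl rfl]
    split_ifs <;> omega
  · rw [min_eq_left l1.le, min_eq_right l2.le, max_eq_right l1.le, max_eq_left l2.le] at *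
    have h1 : a < c := by omega
    have h2 : d < b := by omega
    have e1 : ((c < a ∧ a < d) ∨ (d < a ∧ a < c)) ↔ d < a := by omega
    have e2 : ((c < b ∧ b < d) ∨ (d < b ∧ b < c)) ↔ b < c := by omega
    have e3 : ((a < c ∧ c < b) ∨ (b < c ∧ c < a)) ↔ c < b := by omega
    have e4 : ((a < d ∧ d < b) ∨ (b < d ∧ d < a)) ↔ a < d := by omega
    rw [if_congr e1 rfl rfl, if_congr e2 rfl rfl, if_congr e3 rfl rfl, if_congr e4 rfl rfl]
    split_ifs <;> omega
  · rw [min_eq_right l1.le, min_eq_left l2.le, max_eq_left l1.le, max_eq_right l2.le] at *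
    have h1 : b < d := by omega
    have h2 : c < a := by omega
    have e1 : ((c < a ∧ a < d) ∨ (d < a ∧ a < c)) ↔ a < d := by omega
    have e2 : ((c < b ∧ b < d) ∨ (d < b ∧ b < c)) ↔ c < b := by omega
    have e3 : ((a < c ∧ c < b) ∨ (b < c ∧ c < a)) ↔ b < c := by omega
    have e4 : ((a < d ∧ d < b) ∨ (b < d ∧ d < a)) ↔ d < a := by omega
    rw [if_congr e1 rfl rfl, if_congr e2 rfl rfl, if_congr e3 rfl rfl, if_congr e4 rfl rfl]
    split_ifs <;> omega
  · rw [min_eq_right l1.le, min_eq_right l2.le, max_eq_left l1.le, max_eq_left l2.le] at *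
    have h1 : b < c := by omega
    have h2 : d < a := by omega
    have e1 : ((c < a ∧ a < d) ∨ (d < a ∧ a < c)) ↔ a < c := by omega
    have e2 : ((c < b ∧ b < d) ∨ (d < b ∧ b < c)) ↔ d < b := by omega
    have e3 : ((a < c ∧ c < b) ∨ (b < c ∧ c < a)) ↔ c < a := by omega
    have e4 : ((a < d ∧ d < b) ∨ (b < d ∧ d < a)) ↔ b < d := by omega
    rw [if_congr e1 rfl rfl, if_congr e2 rfl rfl, if_congr e3 rfl rfl, if_congr e4 rfl rfl]
    split_ifs <;> omega

end MountAux

open MountAux in
theorem mountain (f g : ℕ → ℕ) (m r : ℕ) (hm : 0 < m) (hr : 0 < r)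
    (h0 : f 0 = g 0) (h1 : f m = g r) (h01 : f 0 < f m)
    (hf : ∀ x, 0 < x → x < m → f 0 < f x ∧ f x < f m)
    (hg : ∀ y, 0 < y → y < r → g 0 < g y ∧ g y < g r)
    (hfa : ∀ x < m, f x ≠ f (x + 1)) (hga : ∀ y < r, g y ≠ g (y + 1))
    (hfg : ∀ x y, 0 < x → x < m → 0 < y → y < r → f x ≠ g y) :
    Relation.ReflTransGen (fun s t : ℕ × ℕ =>
      s.1 < m ∧ s.2 < r ∧ t.1 < m ∧ t.2 < r ∧ Cell f g s.1 s.2 ∧ Cell f g t.1 t.2 ∧
      ((t.1 = s.1 + 1 ∧ t.2 = s.2) ∨ (s.1 = t.1 + 1 ∧ t.2 = s.2) ∨
       (t.1 = s.1 ∧ t.2 = s.2 + 1) ∨ (t.1 = s.1 ∧ s.2 = t.2 + 1))) (0, 0) (m - 1, r - 1) := by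
  classical
  obtain ⟨R, hR⟩ : ∃ R : ℕ × ℕ → ℕ × ℕ → Prop, R = (fun s t : ℕ × ℕ =>
      s.1 < m ∧ s.2 < r ∧ t.1 < m ∧ t.2 < r ∧ Cell f g s.1 s.2 ∧ Cell f g t.1 t.2 ∧
      ((t.1 = s.1 + 1 ∧ t.2 = s.2) ∨ (s.1 = t.1 + 1 ∧ t.2 = s.2) ∨
       (t.1 = s.1 ∧ t.2 = s.2 + 1) ∨ (t.1 = s.1 ∧ s.2 = t.2 + 1))) := ⟨_, rfl⟩
  rw [← hR]
  -- basic order facts
  have fle : ∀ x, x ≤ m → f 0 ≤ f x ∧ f x ≤ f m ∧ (0 < x → f 0 < f x) ∧ (x < m → f x < f m) := by
    intro x hx
    rcases Nat.eq_zero_or_pos x with h | h
    · subst h; exact ⟨le_rfl, h01.le, fun h => absurd h (lt_irrefl _), fun _ => h01⟩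
    · rcases Nat.lt_or_ge x m with h' | h'
      · have := hf x h h'; exact ⟨this.1.le, this.2.le, fun _ => this.1, fun _ => this.2⟩
      · have : x = m := le_antisymm hx h'
        subst this; exact ⟨h01.le, le_rfl, fun _ => h01, fun h => absurd h (lt_irrefl _)⟩
  have gle : ∀ y, y ≤ r → f 0 ≤ g y ∧ g y ≤ f m ∧ (0 < y → f 0 < g y) ∧ (y < r → g y < f m) := by
    intro y hy
    rcases Nat.eq_zero_or_pos y with h | h
    · subst h; rw [← h0]
      exact ⟨le_rfl, h01.le, fun h => absurd h (lt_irrefl _), fun _ => h01⟩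
    · rcases Nat.lt_or_ge y r with h' | h'
      · have := hg y h h'; rw [← h0, ← h1] at this
        exact ⟨this.1.le, this.2.le, fun _ => this.1, fun _ => this.2⟩
      · have : y = r := le_antisymm hy h'
        subst this; rw [← h1]
        exact ⟨h01.le, le_rfl, fun _ => h01, fun h => absurd h (lt_irrefl _)⟩
  have feq : ∀ x y, x ≤ m → y ≤ r → f x = g y → (x = 0 ∧ y = 0) ∨ (x = m ∧ y = r) := by
    intro x y hx hy h
    have a1 := fle x hx
    have a2 := gle y hy
    by_cases hx0 : x = 0
    · left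
      refine ⟨hx0, ?_⟩
      by_contra hy0
      have := a2.2.2.1 (by omega)
      rw [hx0] at h; omega
    · by_cases hxm : x = m
      · right
        refine ⟨hxm, ?_⟩
        by_contra hyr
        have := a2.2.2.2 (by omega)
        rw [hxm] at h; omega
      · have b1 := a1.2.2.1 (by omega)
        have b2 := a1.2.2.2 (by omega)
        exfalso
        refine hfg x y (by omega) (by omega) ?_ ?_ h
        · by_contra hy0
          have : y = 0 := by omega
          subst this; omega
        · by_contra hyr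
          have : y = r := by omega
          subst this; omega
  -- cells
  have cell00 : Cell f g 0 0 := by
    have a1 := (fle 1 (by omega)).2.2.1 (by omega)
    have a2 := (gle 1 (by omega)).2.2.1 (by omega)
    unfold Cell
    simp only [zero_add]
    omega
  have hreach : ∀ p, Relation.ReflTransGen R (0, 0) p → p.1 < m ∧ p.2 < r ∧ Cell f g p.1 p.2 := by
    intro p hp
    induction hp with
    | refl => exact ⟨hm, hr, cell00⟩
    | tail _ h _ => rw [hR] at h; exact ⟨h.2.2.1, h.2.2.2.1, h.2.2.2.2.2.1⟩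
  have cellV : ∀ X y, X < m → y < r → Ins f g X y → Cell f g X y := by
    intro X y hX hy h
    have := hfa X hX
    have := hga y hy
    unfold Ins at h
    unfold Cell
    omega
  have cellV' : ∀ X y, X < m → y < r → Ins f g (X + 1) y → Cell f g X y := by
    intro X y hX hy h
    have := hfa X hX
    have := hga y hy
    unfold Ins at h
    unfold Cell
    omega
  have cellH : ∀ x Y, x < m → Y < r → Ins g f Y x → Cell f g x Y := by
    intro X y hX hy h
    have := hfa X hX
    have := hga y hy
    unfold Ins at h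
    unfold Cell
    omega
  have cellH' : ∀ x Y, x < m → Y < r → Ins g f (Y + 1) x → Cell f g x Y := by
    intro X y hX hy h
    have := hfa X hX
    have := hga y hy
    unfold Ins at h
    unfold Cell
    omega
  have count : ∀ x y, x < m → y < r → Cell f g x y →
      (if Ins f g x y then 1 else 0) + (if Ins f g (x + 1) y then 1 else 0) +
      (if Ins g f y x then 1 else 0) + (if Ins g f (y + 1) x then 1 else 0) +
      (if (x, y) = (0, 0) then 1 else 0) + (if (x, y) = (m - 1, r - 1) then 1 else 0) = 2 := by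
    intro x y hx hy hc
    have e1 := hfa x hx
    have e2 := hga y hy
    have e3 := fle x (by omega)
    have e4 := fle (x + 1) (by omega)
    have e5 := gle y (by omega)
    have e6 := gle (y + 1) (by omega)
    have q1 := feq x y (by omega) (by omega)
    have q2 := feq (x + 1) y (by omega) (by omega)
    have q3 := feq x (y + 1) (by omega) (by omega)
    have q4 := feq (x + 1) (y + 1) (by omega) (by omega)
    have hP0 : (x, y) = (0, 0) ↔ min (f x) (f (x + 1)) = min (g y) (g (y + 1)) := by
      constructor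
      · intro h
        simp only [Prod.mk.injEq] at h
        obtain ⟨rfl, rfl⟩ := h
        have a1 := e4.2.2.1 (by omega)
        have a2 := e6.2.2.1 (by omega)
        rw [min_eq_left a1.le, h0, min_eq_left (by rw [← h0]; exact a2.le)]
      · intro h
        simp only [Prod.mk.injEq]
        rcases lt_or_gt_of_ne e1 with l1 | l1 <;> rcases lt_or_gt_of_ne e2 with l2 | l2
        · rw [min_eq_left l1.le, min_eq_left l2.le] at h
          have := q1 h; omega
        · rw [min_eq_left l1.le, min_eq_right l2.le] at h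
          have := q3 h; omega
        · rw [min_eq_right l1.le, min_eq_left l2.le] at h
          have := q2 h; omega
        · rw [min_eq_right l1.le, min_eq_right l2.le] at h
          have := q4 h
          rcases this with h5 | h5
          · omega
          · obtain ⟨h5, h6⟩ := h5
            rw [h5] at l1
            have := e3.2.1
            omega
    have hP1 : (x, y) = (m - 1, r - 1) ↔ max (f x) (f (x + 1)) = max (g y) (g (y + 1)) := by
      constructor
      · intro h
        simp only [Prod.mk.injEq] at h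
        have a0 : x + 1 = m := by omega
        have a0' : y + 1 = r := by omega
        have a1 := e3.2.2.2 hx
        have a2 := e5.2.2.2 hy
        rw [a0, a0', max_eq_right a1.le, ← h1, max_eq_right a2.le]
      · intro h
        simp only [Prod.mk.injEq]
        rcases lt_or_gt_of_ne e1 with l1 | l1 <;> rcases lt_or_gt_of_ne e2 with l2 | l2
        · rw [max_eq_right l1.le, max_eq_right l2.le] at h
          have := q4 h; omega
        · rw [max_eq_right l1.le, max_eq_left l2.le] at h
          have := q2 h; omega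
        · rw [max_eq_left l1.le, max_eq_right l2.le] at h
          have := q3 h; omega
        · rw [max_eq_left l1.le, max_eq_left l2.le] at h
          have := q1 h
          rcases this with h5 | h5
          · obtain ⟨h5, h6⟩ := h5
            rw [h5] at l1
            have := e4.1
            rw [h5] at this
            omega
          · omega
    rw [if_congr hP0 rfl rfl, if_congr hP1 rfl rfl]
    exact arith _ _ _ _ e1 e2 hc
  have insV0 : ∀ y, y < r → ¬ Ins f g 0 y := by
    intro y hy h
    have a1 := (gle y (by omega)).1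
    have a2 := (gle (y + 1) (by omega)).1
    unfold Ins at h; omega
  have insVm : ∀ y, y < r → ¬ Ins f g m y := by
    intro y hy h
    have a1 := (gle y (by omega)).2.1
    have a2 := (gle (y + 1) (by omega)).2.1
    unfold Ins at h; omega
  have insH0 : ∀ x, x < m → ¬ Ins g f 0 x := by
    intro y hy h
    have a1 := (fle y (by omega)).1
    have a2 := (fle (y + 1) (by omega)).1
    unfold Ins at h; omega
  have insHr : ∀ x, x < m → ¬ Ins g f r x := by
    intro y hy h
    have a1 := (fle y (by omega)).2.1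
    have a2 := (fle (y + 1) (by omega)).2.1
    unfold Ins at h; omega
  -- the component
  obtain ⟨S, hS⟩ : ∃ S : Finset (ℕ × ℕ), ∀ p, p ∈ S ↔ Relation.ReflTransGen R (0, 0) p := by
    refine ⟨(Finset.range m ×ˢ Finset.range r).filter (fun p => Relation.ReflTransGen R (0, 0) p),
      fun p => ?_⟩
    rw [Finset.mem_filter]
    refine ⟨fun h => h.2, fun h => ⟨?_, h⟩⟩
    have := hreach p h
    simp only [Finset.mem_product, Finset.mem_range]
    exact ⟨this.1, this.2.1⟩
  have hstep : ∀ p q, p ∈ S → q.1 < m → q.2 < r → Cell f g q.1 q.2 →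
      ((q.1 = p.1 + 1 ∧ q.2 = p.2) ∨ (p.1 = q.1 + 1 ∧ q.2 = p.2) ∨
       (q.1 = p.1 ∧ q.2 = p.2 + 1) ∨ (q.1 = p.1 ∧ p.2 = q.2 + 1)) → q ∈ S := by
    intro p q hp h2 h3 h4 h5
    rw [hS] at hp ⊢
    have h6 := hreach p hp
    refine hp.tail ?_
    rw [hR]
    exact ⟨h6.1, h6.2.1, h2, h3, h6.2.2, h4, h5⟩
  have hV : (S.filter (fun p => Ins f g p.1 p.2)).card =
      (S.filter (fun p => Ins f g (p.1 + 1) p.2)).card := by
    apply Finset.card_nbij' (fun p => (p.1 - 1, p.2)) (fun p => (p.1 + 1, p.2))
    · intro p hp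
      simp only [Finset.coe_filter, Set.mem_ofPred_eq] at hp ⊢
      have h6 := hreach p ((hS p).mp hp.1)
      have h7 : p.1 ≠ 0 := by
        intro h; rw [h] at hp; exact insV0 _ h6.2.1 hp.2
      have h8 : p.1 - 1 + 1 = p.1 := by omega
      refine ⟨hstep p _ hp.1 (by simp only; omega) h6.2.1 ?_ ?_, ?_⟩
      · exact cellV' _ _ (by omega) h6.2.1 (by rw [h8]; exact hp.2)
      · right; left; exact ⟨h8.symm, rfl⟩
      · simp only [h8]; exact hp.2
    · intro p hp
      simp only [Finset.coe_filter, Set.mem_ofPred_eq] at hp ⊢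
      have h6 := hreach p ((hS p).mp hp.1)
      have h7 : p.1 + 1 ≠ m := by
        intro h; rw [h] at hp; exact insVm _ h6.2.1 hp.2
      refine ⟨hstep p _ hp.1 (by simp only; omega) h6.2.1 ?_ ?_, hp.2⟩
      · exact cellV _ _ (by omega) h6.2.1 hp.2
      · left; exact ⟨rfl, rfl⟩
    · intro p hp
      simp only [Finset.coe_filter, Set.mem_ofPred_eq] at hp
      have h6 := hreach p ((hS p).mp hp.1)
      have h7 : p.1 ≠ 0 := by
        intro h; rw [h] at hp; exact insV0 _ h6.2.1 hp.2
      have h8 : p.1 - 1 + 1 = p.1 := by omega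
      simp only [h8]
    · intro p hp
      simp
  have hH : (S.filter (fun p => Ins g f p.2 p.1)).card =
      (S.filter (fun p => Ins g f (p.2 + 1) p.1)).card := by
    apply Finset.card_nbij' (fun p => (p.1, p.2 - 1)) (fun p => (p.1, p.2 + 1))
    · intro p hp
      simp only [Finset.coe_filter, Set.mem_ofPred_eq] at hp ⊢
      have h6 := hreach p ((hS p).mp hp.1)
      have h7 : p.2 ≠ 0 := by
        intro h; rw [h] at hp; exact insH0 _ h6.1 hp.2
      have h8 : p.2 - 1 + 1 = p.2 := by omega
      refine ⟨hstep p _ hp.1 h6.1 (by simp only; omega) ?_ ?_, ?_⟩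
      · exact cellH' _ _ h6.1 (by omega) (by rw [h8]; exact hp.2)
      · right; right; right; exact ⟨rfl, h8.symm⟩
      · simp only [h8]; exact hp.2
    · intro p hp
      simp only [Finset.coe_filter, Set.mem_ofPred_eq] at hp ⊢
      have h6 := hreach p ((hS p).mp hp.1)
      have h7 : p.2 + 1 ≠ r := by
        intro h; rw [h] at hp; exact insHr _ h6.1 hp.2
      refine ⟨hstep p _ hp.1 h6.1 (by simp only; omega) ?_ ?_, hp.2⟩
      · exact cellH _ _ h6.1 (by omega) hp.2
      · right; right; left; exact ⟨rfl, rfl⟩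
    · intro p hp
      simp only [Finset.coe_filter, Set.mem_ofPred_eq] at hp
      have h6 := hreach p ((hS p).mp hp.1)
      have h7 : p.2 ≠ 0 := by
        intro h; rw [h] at hp; exact insH0 _ h6.1 hp.2
      have h8 : p.2 - 1 + 1 = p.2 := by omega
      simp only [h8]
    · intro p hp
      simp
  have hsum : ∑ p ∈ S, ((if Ins f g p.1 p.2 then 1 else 0) +
      (if Ins f g (p.1 + 1) p.2 then 1 else 0) +
      (if Ins g f p.2 p.1 then 1 else 0) + (if Ins g f (p.2 + 1) p.1 then 1 else 0) +
      (if p = (0, 0) then 1 else 0) + (if p = (m - 1, r - 1) then 1 else 0)) = ∑ p ∈ S, 2 := by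
    apply Finset.sum_congr rfl
    intro p hp
    have h6 := hreach p ((hS p).mp hp)
    exact count p.1 p.2 h6.1 h6.2.1 h6.2.2
  simp only [Finset.sum_add_distrib, ← Finset.card_filter] at hsum
  rw [hV, hH] at hsum
  have h00 : (S.filter (fun p => p = (0, 0))).card = 1 := by
    have : (0, 0) ∈ S := (hS _).mpr Relation.ReflTransGen.refl
    rw [Finset.filter_eq', if_pos this]; rfl
  rw [h00] at hsum
  by_contra hcon
  have hmr : (S.filter (fun p => p = (m - 1, r - 1))).card = 0 := by
    have : (m - 1, r - 1) ∉ S := fun h => hcon ((hS _).mp h)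
    rw [Finset.filter_eq', if_neg this]; rfl
  rw [hmr] at hsum
  simp only [Finset.sum_const, smul_eq_mul] at hsum
  omega

end Vale.Agent.P335
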