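import Vale.Agent.P335.Circ2
import Vale.Agent.P335.Mountain
import Vale.Agent.P335.PathIneq

/-!
# P335: the chain of near-realisations along a circuit (mountain climbing)
-/

namespace Vale.Agent.P335

open scoped symmDiff

variable {V : Type*}

/-- a full turn from any starting point is the full circuit -/
theorem arcG_full {v : ℤ → V} {l : ℕ} (hl : 0 < l) (per : ∀ k, v (k + 2 * l) = v k) (i : ℤ) :
    arcG v i (i + 2 * l) = arcG v 0 (2 * l) := by
  have per' : ∀ k m : ℤ, v (k + 2 * l * m) = v k := by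
    intro k m
    induction m using Int.induction_on with
    | zero => simp
    | succ m ih => 
      rw [← ih, ← per (k + 2 * l * m)]; congr 1; ring
    | pred m ih =>
      rw [← ih, ← per (k + 2 * l * (-m - 1))]; congr 1; ring
  have key : ∀ i j : ℤ, ∀ x y, (arcG v i (i + 2 * l)).Adj x y →
      (arcG v j (j + 2 * l)).Adj x y := by
    intro i j x y
    rw [arcG_adj, arcG_adj]
    rintro ⟨⟨k, h1, h2, h3⟩, h4⟩
    have hpos : (0 : ℤ) < 2 * l := by positivity
    refine ⟨⟨j + (k - j) % (2 * l), ?_, ?_, ?_⟩, h4⟩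
    · have := Int.emod_nonneg (k - j) hpos.ne'; omega
    · have := Int.emod_lt_of_pos (k - j) hpos; omega
    · have e : j + (k - j) % (2 * l) = k + 2 * l * (-((k - j) / (2 * l))) := by
        have := Int.emod_add_mul_ediv (k - j) (2 * l)
        linarith
      rw [h3, e, show k + 2 * l * (-((k - j) / (2 * l))) + 1 =
        (k + 1) + 2 * l * (-((k - j) / (2 * l))) by ring, per', per']
  ext x y
  constructor
  · intro h
    have := key i 0 x y h
    rwa [zero_add] at this
  · intro h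
    refine key 0 i x y ?_
    rwa [zero_add]

/-- a circuit has at least four edges -/
theorem AltCirc.two_le {X X' : SimpleGraph V} {v : ℤ → V} {l : ℕ} (hc : AltCirc X X' v l) :
    2 ≤ l := by
  have := hc.pos
  by_contra hlt
  have hl : l = 1 := by omega
  subst hl
  have h1 := hc.inj 0 1 (by
    have := hc.per 0
    have h2 : v (1 + 1) = v 0 := by
      rw [← this]; norm_num
    rw [h2, zero_add]
    exact Sym2.eq_swap)
  norm_num at h1

section
variable [Fintype V] {X X' : SimpleGraph V} {v : ℤ → V} {l : ℕ} {d : V → ℕ}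

theorem cell_exists (d : V → ℕ) (X X' : SimpleGraph V)
    (hX : Real d X) (hX' : Real d X') (v : ℤ → V) (l : ℕ) (hc : AltCirc X X' v l)
    (h : SimpleGraph V → ℝ) :
    ∃ i j : ℤ, i + 2 ≤ j ∧ j + 2 ≤ i + 2 * l ∧ Near 8 d (X ∆ arcG v i j) ∧
      Near 8 d (X' ∆ arcG v i j) ∧ ∃ Z, Near 8 d Z ∧ ed (X ∆ arcG v i j) Z ≤ 6 ∧
      |h X - h (X ∆ arcG v 0 (2 * l))| ≤ (l * l + 2) * |h (X ∆ arcG v i j) - h Z| := by
  classical
  have hl2 := hc.two_le
  -- altitudes
  set b : ℤ → ℕ := fun k => d (v (2 * k + 1)) with hb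
  have bper : ∀ k, b (k + l) = b k := by
    intro k; simp only [hb]
    rw [← hc.per (2 * k + 1)]; congr 2; ring
  -- the global minimum
  obtain ⟨p, hp⟩ : ∃ p : ℤ, ∀ k : ℤ, b p ≤ b k := by
    obtain ⟨p, hp1, hp2⟩ := Finset.exists_min_image (Finset.Ico (0 : ℤ) l) b
      ⟨0, by simp; omega⟩
    refine ⟨p, fun k => ?_⟩
    have hpos : (0 : ℤ) < l := by omega
    have h1 := hp2 (k % l) (by
      rw [Finset.mem_Ico]; exact ⟨Int.emod_nonneg _ hpos.ne', Int.emod_lt_of_pos _ hpos⟩)
    have per' : ∀ k m : ℤ, b (k + l * m) = b k := by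
      intro k m
      induction m using Int.induction_on with
      | zero => simp
      | succ m ih => rw [← ih, ← bper (k + l * m)]; congr 1; ring
      | pred m ih => rw [← ih, ← bper (k + l * (-m - 1))]; congr 1; ring
    rwa [show b (k % l) = b k from by
      conv_rhs => rw [← Int.emod_add_mul_ediv k l]
      rw [per']] at h1
  -- keys
  set F : ℕ → ℕ := fun k => (l + 1) * b (p + k) + k % l with hF
  have hFmod : ∀ k < l, F k = (l + 1) * b (p + k) + k := by
    intro k hk; simp only [hF]; rw [Nat.mod_eq_of_lt hk]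
  have hFl : F l = F 0 := by
    simp only [hF, Nat.mod_self, Nat.zero_mod, Nat.cast_zero, add_zero]
    rw [bper]
  have hFinj : ∀ k < l, ∀ k' < l, F k = F k' → k = k' := by
    intro k hk k' hk' he
    rw [hFmod k hk, hFmod k' hk'] at he
    have h1 : ((l + 1) * b (p + k) + k) % (l + 1) = k := by
      rw [Nat.mul_add_mod]; exact Nat.mod_eq_of_lt (by omega)
    have h2 : ((l + 1) * b (p + k') + k') % (l + 1) = k' := by
      rw [Nat.mul_add_mod]; exact Nat.mod_eq_of_lt (by omega)
    rw [← h1, ← h2, he]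
  have hFmin : ∀ k, 0 < k → k < l → F 0 < F k := by
    intro k hk hkl
    rw [hFmod k hkl, hFmod 0 (by omega)]
    have := hp (p + k)
    simp only [Nat.cast_zero, add_zero]
    have := Nat.mul_le_mul_left (l + 1) this
    omega
  obtain ⟨q, hq1, hq2⟩ := Finset.exists_max_image (Finset.range l) F ⟨0, by simp; omega⟩
  rw [Finset.mem_range] at hq1
  have hq0 : 0 < q := by
    rcases Nat.eq_zero_or_pos q with h0 | h0
    · subst h0
      have h1 := hFmin 1 (by omega) (by omega)
      have h2 := hq2 1 (by rw [Finset.mem_range]; omega)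
      omega
    · exact h0
  have hFmax : ∀ k < l, k ≠ q → F k < F q := by
    intro k hk hne
    have h1 := hq2 k (by rw [Finset.mem_range]; exact hk)
    rcases lt_or_eq_of_le h1 with h2 | h2
    · exact h2
    · exact absurd (hFinj k hk q hq1 h2) hne
  -- order comparison transfers
  have hFle : ∀ k k', F k < F k' → b (p + k) ≤ b (p + k') := by
    intro k k' hlt
    by_contra hcon
    push Not at hcon
    have h1 : k % l < l := Nat.mod_lt _ (by omega)
    have h2 : k' % l < l := Nat.mod_lt _ (by omega)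
    have h3 : (l + 1) * (b (p + k') + 1) ≤ (l + 1) * b (p + k) := Nat.mul_le_mul_left _ hcon
    simp only [hF] at hlt
    rw [Nat.mul_add] at h3
    omega
  set m := l - q with hm
  have hm0 : 0 < m := by omega
  set f : ℕ → ℕ := fun x => F (l - x) with hf
  have hmt := mountain f F m q hm0 hq0 (by simp [hf, hFl])
    (by simp only [hf]; congr 1; omega)
    (by
      simp only [hf, Nat.sub_zero, hFl]
      have := hFmin q hq0 hq1
      rwa [show l - m = q by omega])
    (by
      intro x hx hxm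
      simp only [hf, Nat.sub_zero, hFl]
      rw [show l - m = q by omega]
      exact ⟨hFmin _ (by omega) (by omega), hFmax _ (by omega) (by omega)⟩)
    (by
      intro y hy hyq
      exact ⟨hFmin _ (by omega) (by omega), hFmax _ (by omega) (by omega)⟩)
    (by
      intro x hxm
      simp only [hf]
      rcases Nat.eq_zero_or_pos x with h0 | h0
      · subst h0
        rw [Nat.sub_zero, hFl]
        exact (hFmin _ (by omega) (by omega)).ne
      · intro he
        have := hFinj _ (by omega) _ (by omega) he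
        omega)
    (by
      intro y hyq he
      have := hFinj _ (by omega) _ (by omega) he
      omega)
    (by
      intro x y hx hxm hy hyq he
      simp only [hf] at he
      have := hFinj _ (by omega) _ (by omega) he
      omega)
  -- cells to graphs
  set I : ℕ → ℤ := fun x => 2 * (p - x) with hI
  set J : ℕ → ℤ := fun y => 2 * (p + y) + 2 with hJ
  have hcell : ∀ x y, x < m → y < q → Cell f F x y →
      Near 8 d (X ∆ arcG v (I x) (J y)) ∧ Near 8 d (X' ∆ arcG v (I x) (J y)) := by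
    intro x y hx hy hcl
    unfold Cell at hcl
    rw [max_lt_iff, lt_min_iff, lt_min_iff] at hcl
    obtain ⟨⟨-, hc1⟩, ⟨hc2, -⟩⟩ := hcl
    -- altitudes of the endpoints
    have a1 : b (p + ((l - x : ℕ) : ℤ)) = d (v (I x + 1)) := by
      rw [Nat.cast_sub (by omega)]
      have : b (p + ((l : ℤ) - x)) = b (p - x) := by
        rw [← bper (p - x)]; congr 1; ring
      rw [this]
    have a2 : b (p + ((l - (x + 1) : ℕ) : ℤ)) = d (v (I x - 1)) := by
      rw [Nat.cast_sub (by omega)]
      have : b (p + ((l : ℤ) - ((x + 1 : ℕ) : ℤ))) = b (p - x - 1) := by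
        rw [← bper (p - x - 1)]; congr 1; push_cast; ring
      rw [this]; simp only [hb, hI]; congr 2; ring
    have a3 : b (p + (y : ℤ)) = d (v (J y - 1)) := by
      simp only [hb, hJ]; congr 2; ring
    have a4 : b (p + ((y + 1 : ℕ) : ℤ)) = d (v (J y + 1)) := by
      simp only [hb, hJ]; congr 2; push_cast; ring
    refine cell_near hc hX hX' (by simp only [hI, hJ]; omega) (by simp only [hI, hJ]; omega)
      (by simp only [hI]; omega) (by simp only [hJ]; omega) ?_ ?_
    · -- min left ≤ max right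
      rw [← a1, ← a2, ← a3, ← a4]
      rw [min_lt_iff] at hc1
      rw [lt_max_iff, lt_max_iff] at hc1
      rw [min_le_iff, le_max_iff, le_max_iff]
      simp only [hf] at hc1
      rcases hc1 with (hh | hh) | (hh | hh)
      · right; left; exact hFle _ _ hh
      · right; right; exact hFle _ _ hh
      · left; left; exact hFle _ _ hh
      · left; right; exact hFle _ _ hh
    · rw [← a1, ← a2, ← a3, ← a4]
      rw [min_lt_iff] at hc2
      rw [lt_max_iff, lt_max_iff] at hc2
      rw [min_le_iff, le_max_iff, le_max_iff]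
      simp only [hf] at hc2
      rcases hc2 with (hh | hh) | (hh | hh)
      · left; right; exact hFle _ _ hh
      · left; left; exact hFle _ _ hh
      · right; right; exact hFle _ _ hh
      · right; left; exact hFle _ _ hh
  have hF1 : F 0 < F 1 := hFmin 1 (by omega) (by omega)
  have hFl1 : F 0 < F (l - 1) := hFmin (l - 1) (by omega) (by omega)
  have hcl0 : Cell f F 0 0 := by
    unfold Cell
    simp only [hf, Nat.sub_zero, hFl, zero_add]
    rw [min_eq_left hF1.le, min_eq_left hFl1.le, max_eq_right hF1.le, max_eq_right hFl1.le]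
    simp [hF1, hFl1]
  have hfq : F (l - (m - 1)) < F q := by
    rcases Nat.lt_or_ge (q + 1) l with h1 | h1
    · rw [show l - (m - 1) = q + 1 by omega]
      exact hFmax _ h1 (by omega)
    · rw [show l - (m - 1) = l by omega, hFl]
      exact hFmax _ (by omega) (by omega)
  have hgq : F (q - 1) < F q := hFmax _ (by omega) (by omega)
  have hclE : Cell f F (m - 1) (q - 1) := by
    unfold Cell
    simp only [hf]
    rw [show l - (m - 1 + 1) = q by omega, show q - 1 + 1 = q by omega]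
    rw [min_eq_left hgq.le, min_eq_left hfq.le, max_eq_right hgq.le, max_eq_right hfq.le]
    simp [hfq, hgq]
  obtain ⟨n0, n0'⟩ := hcell 0 0 hm0 hq0 hcl0
  obtain ⟨nE, nE'⟩ := hcell (m - 1) (q - 1) (by omega) (by omega) hclE
  -- distances at the two ends
  have e0 : ed (X ∆ arcG v (I 0) (J 0)) X ≤ 6 := by
    have h1 := ed_arc_right_two X v (2 * p) (2 * p)
    rw [AltW.arcG_self, symmDiff_bot, ed_comm] at h1
    have h2 : I 0 = 2 * p := by simp [hI]
    have h3 : J 0 = 2 * p + 2 := by simp [hJ]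
    rw [h2, h3]; omega
  have eE : ed (X ∆ arcG v (I (m - 1)) (J (q - 1))) (X ∆ arcG v 0 (2 * l)) ≤ 6 := by
    have h1 := ed_arc_right_two X v (I (m - 1)) (J (q - 1))
    have h2 : J (q - 1) + 2 = I (m - 1) + 2 * l := by
      simp only [hI, hJ]
      rw [Nat.cast_sub (by omega), Nat.cast_sub (by omega)]
      have : (m : ℤ) = l - q := by omega
      rw [this]; push_cast; ring
    rw [h2, arcG_full hc.pos hc.per] at h1
    omega
  have rE : Real d (X ∆ arcG v 0 (2 * l)) := by
    have := hc.altW.real_full hX 0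
    rwa [zero_add] at this
  have nearOf : ∀ {G : SimpleGraph V}, Real d G → Near 8 d G := fun {G} hG => ⟨G, hG, by simp⟩
  have hIJ : ∀ x y, x < m → y < q → I x + 2 ≤ J y ∧ J y + 2 ≤ I x + 2 * l := by
    intro x y hx hy; simp only [hI, hJ]; omega
  set c := X ∆ arcG v 0 (2 * l) with hcdef
  set g : Fin m × Fin q → ℝ := fun s => h (X ∆ arcG v (I s.1) (J s.2)) with hg
  set M := |h X - h c| with hM
  have hlpos : (0 : ℝ) ≤ (l : ℝ) * l + 2 := by positivity
  by_cases hA : M ≤ (l * l + 2) * |h (X ∆ arcG v (I 0) (J 0)) - h X|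
  · exact ⟨I 0, J 0, (hIJ 0 0 hm0 hq0).1, (hIJ 0 0 hm0 hq0).2, n0, n0', X, nearOf hX, e0, hA⟩
  by_cases hC : M ≤ (l * l + 2) * |h (X ∆ arcG v (I (m - 1)) (J (q - 1))) - h c|
  · exact ⟨I (m - 1), J (q - 1), (hIJ _ _ (by omega) (by omega)).1,
      (hIJ _ _ (by omega) (by omega)).2, nE, nE', c, nearOf rE, eE, hC⟩
  push Not at hA hC
  set z0 : Fin m × Fin q := (⟨0, hm0⟩, ⟨0, hq0⟩) with hz0
  set zE : Fin m × Fin q := (⟨m - 1, by omega⟩, ⟨q - 1, by omega⟩) with hzE
  have hlift : Relation.ReflTransGen (fun s t : Fin m × Fin q =>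
      Cell f F s.1 s.2 ∧ Cell f F t.1 t.2 ∧
      ((t.1.1 = s.1.1 + 1 ∧ t.2.1 = s.2.1) ∨ (s.1.1 = t.1.1 + 1 ∧ t.2.1 = s.2.1) ∨
       (t.1.1 = s.1.1 ∧ t.2.1 = s.2.1 + 1) ∨ (t.1.1 = s.1.1 ∧ s.2.1 = t.2.1 + 1))) z0 zE := by
    have := Relation.ReflTransGen.lift (fun s : ℕ × ℕ =>
      ((⟨s.1 % m, Nat.mod_lt _ hm0⟩, ⟨s.2 % q, Nat.mod_lt _ hq0⟩) : Fin m × Fin q))
      (r := fun s t : ℕ × ℕ =>
        s.1 < m ∧ s.2 < q ∧ t.1 < m ∧ t.2 < q ∧ Cell f F s.1 s.2 ∧ Cell f F t.1 t.2 ∧
        ((t.1 = s.1 + 1 ∧ t.2 = s.2) ∨ (s.1 = t.1 + 1 ∧ t.2 = s.2) ∨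
        (t.1 = s.1 ∧ t.2 = s.2 + 1) ∨ (t.1 = s.1 ∧ s.2 = t.2 + 1)))
      (p := fun s t : Fin m × Fin q =>
        Cell f F s.1 s.2 ∧ Cell f F t.1 t.2 ∧
        ((t.1.1 = s.1.1 + 1 ∧ t.2.1 = s.2.1) ∨ (s.1.1 = t.1.1 + 1 ∧ t.2.1 = s.2.1) ∨
        (t.1.1 = s.1.1 ∧ t.2.1 = s.2.1 + 1) ∨ (t.1.1 = s.1.1 ∧ s.2.1 = t.2.1 + 1)))
      (by
        rintro ⟨s1, s2⟩ ⟨t1, t2⟩ ⟨a1, a2, a3, a4, a5, a6, a7⟩
        simp only at a1 a2 a3 a4 a5 a6 a7
        simp only [Function.onFun]
        rw [Nat.mod_eq_of_lt a1, Nat.mod_eq_of_lt a2, Nat.mod_eq_of_lt a3, Nat.mod_eq_of_lt a4]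
        exact ⟨a5, a6, a7⟩) _ _ hmt
    have e1 : ((⟨0 % m, Nat.mod_lt _ hm0⟩, ⟨0 % q, Nat.mod_lt _ hq0⟩) : Fin m × Fin q) = z0 := by
      simp [hz0]
    have e2 : ((⟨(m - 1) % m, Nat.mod_lt _ hm0⟩, ⟨(q - 1) % q, Nat.mod_lt _ hq0⟩) :
        Fin m × Fin q) = zE := by
      simp only [hzE, Prod.mk.injEq, Fin.mk.injEq]
      exact ⟨Nat.mod_eq_of_lt (by omega), Nat.mod_eq_of_lt (by omega)⟩
    simp only [Function.onFun] at this
    rw [e1, e2] at this
    exact this
  have hB : M - |h (X ∆ arcG v (I 0) (J 0)) - h X| -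
      |h (X ∆ arcG v (I (m - 1)) (J (q - 1))) - h c| ≤ |g z0 - g zE| := by
    have t1 : |h X - h c| ≤ |h X - g z0| + |g z0 - g zE| + |g zE - h c| := by
      have a1 := abs_sub_le (h X) (g z0) (h c)
      have a2 := abs_sub_le (g z0) (g zE) (h c)
      linarith
    have t2 : g z0 = h (X ∆ arcG v (I 0) (J 0)) := rfl
    have t3 : g zE = h (X ∆ arcG v (I (m - 1)) (J (q - 1))) := rfl
    rw [abs_sub_comm (h X) (g z0), t2, t3] at t1
    rw [hM, t2, t3]
    linarith
  have hM0 : 0 ≤ M := abs_nonneg _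
  have hl0 : (2 : ℝ) ≤ l := by exact_mod_cast hl2
  have hK : (0 : ℝ) < l * l + 2 := by positivity
  have hA' : |h (X ∆ arcG v (I 0) (J 0)) - h X| < M / (l * l + 2) := by
    rw [lt_div_iff₀ hK]; linarith
  have hC' : |h (X ∆ arcG v (I (m - 1)) (J (q - 1))) - h c| < M / (l * l + 2) := by
    rw [lt_div_iff₀ hK]; linarith
  have hBig : (l * l : ℝ) * (M / (l * l + 2)) < |g z0 - g zE| := by
    have : M = (l * l + 2) * (M / (l * l + 2)) := by field_simp
    have : (l * l : ℝ) * (M / (l * l + 2)) = M - 2 * (M / (l * l + 2)) := by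
      linarith
    rw [this]; linarith
  have hD0 : 0 ≤ M / (l * l + 2) := by positivity
  have hne : z0 ≠ zE := by
    intro he
    rw [he, sub_self, abs_zero] at hBig
    have : 0 ≤ (l * l : ℝ) * (M / (l * l + 2)) := by positivity
    linarith
  obtain ⟨z, z', ⟨hz1, hz2, hz3⟩, hzz⟩ := path_jump _ g z0 zE hlift hne
  have hcard : (Fintype.card (Fin m × Fin q) : ℝ) ≤ l * l := by
    have : Fintype.card (Fin m × Fin q) ≤ l * l := by
      rw [Fintype.card_prod, Fintype.card_fin, Fintype.card_fin]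
      exact Nat.mul_le_mul (by omega) (by omega)
    exact_mod_cast this
  obtain ⟨nz, nz'⟩ := hcell z.1 z.2 z.1.2 z.2.2 hz1
  obtain ⟨nw, nw'⟩ := hcell z'.1 z'.2 z'.1.2 z'.2.2 hz2
  refine ⟨I z.1, J z.2, (hIJ _ _ z.1.2 z.2.2).1, (hIJ _ _ z.1.2 z.2.2).2, nz, nz',
    X ∆ arcG v (I z'.1) (J z'.2), nw, ?_, ?_⟩
  · -- distance
    rcases hz3 with ⟨q1, q2⟩ | ⟨q1, q2⟩ | ⟨q1, q2⟩ | ⟨q1, q2⟩
    · rw [q1, q2]
      have := ed_arc_left_two X v (I (z.1.1 + 1)) (J z.2.1)
      have e : I (z.1.1 + 1) + 2 = I z.1.1 := by simp only [hI]; push_cast; ring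
      rw [e] at this; omega
    · rw [q1, q2]
      have := ed_arc_left_two X v (I (z'.1.1 + 1)) (J z.2.1)
      have e : I (z'.1.1 + 1) + 2 = I z'.1.1 := by simp only [hI]; push_cast; ring
      rw [e, ed_comm] at this; omega
    · rw [q1, q2]
      have := ed_arc_right_two X v (I z.1.1) (J z.2.1)
      have e : J z.2.1 + 2 = J (z.2.1 + 1) := by simp only [hJ]; push_cast; ring
      rw [e] at this; omega
    · rw [q1, q2]
      have := ed_arc_right_two X v (I z.1.1) (J z'.2.1)
      have e : J z'.2.1 + 2 = J (z'.2.1 + 1) := by simp only [hJ]; push_cast; ring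
      rw [e, ed_comm] at this; omega
  · have hgz : |h (X ∆ arcG v (I z.1) (J z.2)) - h (X ∆ arcG v (I z'.1) (J z'.2))| =
      |g z - g z'| := rfl
    rw [hgz]
    have h1 : (l * l : ℝ) * (M / (l * l + 2)) < (l * l) * |g z - g z'| := by
      refine hBig.trans_le (hzz.trans ?_)
      exact mul_le_mul_of_nonneg_right hcard (abs_nonneg _)
    have h2 : M / (l * l + 2) < |g z - g z'| := by
      have : (0 : ℝ) < l * l := by positivity
      exact lt_of_mul_lt_mul_left h1 this.le
    rw [div_lt_iff₀ hK] at h2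
    linarith

end

end Vale.Agent.P335
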