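import Mathlib

/-!
# P335: internal definitions (graphs, near-realisations, switches, pairings, circuits)
-/

namespace Vale.Agent.P335

open scoped symmDiff

variable {V : Type*}

/-- Number of neighbours of `v` in `G`. -/
noncomputable def dg (G : SimpleGraph V) (v : V) : ℕ := {w | G.Adj v w}.ncard

/-- Number of ordered pairs on which `G` and `H` differ (twice the number of differing edges). -/
noncomputable def ed (G H : SimpleGraph V) : ℕ :=
  {p : V × V | ¬ (G.Adj p.1 p.2 ↔ H.Adj p.1 p.2)}.ncard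

/-- `G` realises the degree sequence `d`. -/
def Real (d : V → ℕ) (G : SimpleGraph V) : Prop := ∀ v, dg G v = d v

/-- `Y` is within `r` ordered pairs of a realisation of `d`. -/
def Near (r : ℕ) (d : V → ℕ) (Y : SimpleGraph V) : Prop := ∃ G, Real d G ∧ ed Y G ≤ r

/-- `H` is obtained from `G` by removing `ab`, `ce` and adding `ac`, `be`. -/
def SwitchAt (G H : SimpleGraph V) (a b c e : V) : Prop :=
  a ≠ b ∧ a ≠ c ∧ a ≠ e ∧ b ≠ c ∧ b ≠ e ∧ c ≠ e ∧
  G.Adj a b ∧ G.Adj c e ∧ ¬ G.Adj a c ∧ ¬ G.Adj b e ∧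
  ∀ x y, H.Adj x y ↔ ((G.Adj x y ∧ s(x, y) ≠ s(a, b) ∧ s(x, y) ≠ s(c, e)) ∨
    s(x, y) = s(a, c) ∨ s(x, y) = s(b, e))

/-- `G` and `H` differ by one switch. -/
def Sw (G H : SimpleGraph V) : Prop := ∃ a b c e, SwitchAt G H a b c e

/-- `G` and `H` differ only on pairs inside `A`. -/
def DiffIn (A : Set V) (G H : SimpleGraph V) : Prop :=
  ∀ x y, ¬ (G.Adj x y ↔ H.Adj x y) → x ∈ A ∧ y ∈ A

/-- Overlapping altitude intervals of edge `x` of `f` and edge `y` of `g`. -/
def Cell (f g : ℕ → ℕ) (x y : ℕ) : Prop :=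
  max (min (f x) (f (x + 1))) (min (g y) (g (y + 1))) <
    min (max (f x) (f (x + 1))) (max (g y) (g (y + 1)))

/-- An alternating circuit: `X`-edges at even positions, `X'`-edges at odd positions,
period `2 * l`, all `2 * l` edges distinct. -/
structure AltCirc (X X' : SimpleGraph V) (v : ℤ → V) (l : ℕ) : Prop where
  pos : 0 < l
  per : ∀ k, v (k + 2 * l) = v k
  ev : ∀ k, X.Adj (v (2 * k)) (v (2 * k + 1)) ∧ ¬ X'.Adj (v (2 * k)) (v (2 * k + 1))
  od : ∀ k, X'.Adj (v (2 * k + 1)) (v (2 * k + 2)) ∧ ¬ X.Adj (v (2 * k + 1)) (v (2 * k + 2))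
  inj : ∀ k m, s(v k, v (k + 1)) = s(v m, v (m + 1)) → (2 * l : ℤ) ∣ k - m

/-- The graph whose edges are `v k v (k+1)`, `i ≤ k < j`. -/
def arcG (v : ℤ → V) (i j : ℤ) : SimpleGraph V :=
  SimpleGraph.fromEdgeSet {e | ∃ k, i ≤ k ∧ k < j ∧ e = s(v k, v (k + 1))}

/-- `ψ` pairs, at each vertex, the `D`-edges of colour `χ` with those of colour `¬χ`. -/
def IsPairing (D : SimpleGraph V) (χ : V → V → Prop) (ψ : V → Equiv.Perm V) : Prop :=
  ∀ v w, (D.Adj v w → D.Adj v (ψ v w) ∧ (χ v (ψ v w) ↔ ¬ χ v w) ∧ ψ v (ψ v w) = w) ∧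
    (¬ D.Adj v w → ψ v w = w)

/-- The number of pairings for a balanced colouring. -/
noncomputable def NP [Fintype V] (D : SimpleGraph V) : ℕ := ∏ v, (dg D v / 2).factorial

/-- The walk permutation on darts. -/
def phi (ψ : V → Equiv.Perm V) : Equiv.Perm (V × V) where
  toFun p := (p.2, ψ p.2 p.1)
  invFun q := ((ψ q.1).symm q.2, q.1)
  left_inv p := by simp
  right_inv q := by simp

/-- The circuit of the dart `a`. -/
def circ (ψ : V → Equiv.Perm V) (a : V × V) : SimpleGraph V :=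
  SimpleGraph.fromEdgeSet {e | ∃ k : ℤ, e = s(((phi ψ ^ k) a).1, ((phi ψ ^ k) a).2)}

/-- The arc consisting of the first `L` edges of the walk from the dart `a`. -/
def arcP (ψ : V → Equiv.Perm V) (a : V × V) (L : ℕ) : SimpleGraph V :=
  SimpleGraph.fromEdgeSet {e | ∃ k : ℕ, k < L ∧ e = s(((phi ψ ^ k) a).1, ((phi ψ ^ k) a).2)}

section Fin
variable [Fintype V]

open Classical in
/-- The finite set of realisations. -/
noncomputable def OmF (d : V → ℕ) : Finset (SimpleGraph V) := Finset.univ.filter (Real d)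

open Classical in
/-- The finite set of near-realisations. -/
noncomputable def NrF (d : V → ℕ) : Finset (SimpleGraph V) := Finset.univ.filter (Near 8 d)

open Classical in
/-- Triples `(X, X', ψ)` with `X, X'` realisations and `ψ` a pairing of `X ∆ X'`. -/
noncomputable def Trip (d : V → ℕ) :
    Finset (SimpleGraph V × SimpleGraph V × (V → Equiv.Perm V)) :=
  Finset.univ.filter fun t =>
    Real d t.1 ∧ Real d t.2.1 ∧ IsPairing (t.1 ∆ t.2.1) t.1.Adj t.2.2

end Fin

end Vale.Agent.P335
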