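import Mathlib

/-! T1: mixing time from a Poincaré inequality, for lazy symmetric chains. -/

namespace Vale.Agent.P335

namespace MixAux

open Matrix Finset

variable {S : Type*} [Fintype S] [DecidableEq S]

omit [DecidableEq S] in
theorem contraction (Q : Matrix S S ℝ) (hsymm : ∀ x y, Q x y = Q y x) (hnn : ∀ x y, 0 ≤ Q x y)
    (hsum : ∀ x, ∑ y, Q x y = 1) (f : S → ℝ) :
    ∑ x, (∑ y, Q x y * f y) ^ 2 ≤ ∑ x, f x ^ 2 := by
  have h1 : ∀ x, (∑ y, Q x y * f y) ^ 2 ≤ ∑ y, Q x y * f y ^ 2 := by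
    intro x
    have h2 := Finset.sum_mul_sq_le_sq_mul_sq univ (fun y => √(Q x y)) (fun y => √(Q x y) * f y)
    have e1 : ∀ y, √(Q x y) * (√(Q x y) * f y) = Q x y * f y := fun y => by
      rw [← mul_assoc, Real.mul_self_sqrt (hnn x y)]
    have e2 : ∀ y, √(Q x y) ^ 2 = Q x y := fun y => Real.sq_sqrt (hnn x y)
    have e3 : ∀ y, (√(Q x y) * f y) ^ 2 = Q x y * f y ^ 2 := fun y => by
      rw [mul_pow, Real.sq_sqrt (hnn x y)]
    simp_rw [e1, e2, e3, hsum, one_mul] at h2
    exact h2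
  calc ∑ x, (∑ y, Q x y * f y) ^ 2 ≤ ∑ x, ∑ y, Q x y * f y ^ 2 :=
        Finset.sum_le_sum fun x _ => h1 x
    _ = ∑ y, ∑ x, Q x y * f y ^ 2 := Finset.sum_comm
    _ = ∑ y, f y ^ 2 := by
        refine Finset.sum_congr rfl fun y _ => ?_
        rw [← Finset.sum_mul]
        have : ∑ x, Q x y = 1 := by
          rw [← hsum y]
          exact Finset.sum_congr rfl fun x _ => hsymm x y
        rw [this, one_mul]

/-- `‖P f‖² ≤ ⟨f, P f⟩` for lazy symmetric stochastic `P`. -/
theorem norm_sq_le (P : Matrix S S ℝ) (hsymm : ∀ x y, P x y = P y x) (hnn : ∀ x y, 0 ≤ P x y)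
    (hsum : ∀ x, ∑ y, P x y = 1) (hlazy : ∀ x, 1 / 2 ≤ P x x) (f : S → ℝ) :
    ∑ x, (∑ y, P x y * f y) ^ 2 ≤ ∑ x, f x * ∑ y, P x y * f y := by
  set Q : Matrix S S ℝ := fun x y => 2 * P x y - (if x = y then 1 else 0) with hQ
  have h1 := contraction Q
    (fun x y => by
      simp only [hQ]
      rw [hsymm x y]
      by_cases h : x = y
      · simp [h]
      · have : ¬ y = x := fun h' => h h'.symm
        simp [h, this])
    (fun x y => by
      simp only [hQ]
      by_cases h : x = y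
      · subst h
        simp only [if_true]
        linarith [hlazy x]
      · simp only [h, if_false]
        linarith [hnn x y])
    (fun x => by
      simp only [hQ]
      rw [Finset.sum_sub_distrib, ← Finset.mul_sum, hsum]
      simp
      norm_num) f
  have h2 : ∀ x, ∑ y, Q x y * f y = 2 * (∑ y, P x y * f y) - f x := by
    intro x
    simp only [hQ, sub_mul, ite_mul, one_mul, zero_mul]
    rw [Finset.sum_sub_distrib, Finset.sum_ite_eq, if_pos (Finset.mem_univ x), Finset.mul_sum]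
    congr 1
    exact Finset.sum_congr rfl fun y _ => by ring
  simp_rw [h2] at h1
  have h3 : ∑ x, (2 * (∑ y, P x y * f y) - f x) ^ 2 =
      4 * (∑ x, (∑ y, P x y * f y) ^ 2) - 4 * (∑ x, f x * ∑ y, P x y * f y) + ∑ x, f x ^ 2 := by
    rw [Finset.mul_sum, Finset.mul_sum, ← Finset.sum_sub_distrib, ← Finset.sum_add_distrib]
    exact Finset.sum_congr rfl fun x _ => by ring
  rw [h3] at h1
  linarith

omit [DecidableEq S] in
theorem dirichlet (P : Matrix S S ℝ) (hsymm : ∀ x y, P x y = P y x)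
    (hsum : ∀ x, ∑ y, P x y = 1) (f : S → ℝ) :
    ∑ x, ∑ y, P x y * (f x - f y) ^ 2 =
      2 * (∑ x, f x ^ 2) - 2 * ∑ x, f x * ∑ y, P x y * f y := by
  have h1 : ∑ x, ∑ y, P x y * f x ^ 2 = ∑ x, f x ^ 2 := by
    refine Finset.sum_congr rfl fun x _ => ?_
    rw [← Finset.sum_mul, hsum, one_mul]
  have h2 : ∑ x, ∑ y, P x y * f y ^ 2 = ∑ x, f x ^ 2 := by
    rw [Finset.sum_comm]
    refine Finset.sum_congr rfl fun y _ => ?_
    rw [← Finset.sum_mul]
    have : ∑ x, P x y = 1 := by
      rw [← hsum y]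
      exact Finset.sum_congr rfl fun x _ => hsymm x y
    rw [this, one_mul]
  have h3 : ∑ x, ∑ y, P x y * (f x - f y) ^ 2 =
      (∑ x, ∑ y, P x y * f x ^ 2) + (∑ x, ∑ y, P x y * f y ^ 2) -
        2 * ∑ x, f x * ∑ y, P x y * f y := by
    simp_rw [Finset.mul_sum]
    rw [← Finset.sum_add_distrib, ← Finset.sum_sub_distrib]
    refine Finset.sum_congr rfl fun x _ => ?_
    rw [← Finset.sum_add_distrib, ← Finset.sum_sub_distrib]
    exact Finset.sum_congr rfl fun y _ => by ring
  rw [h3, h1, h2]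
  ring

omit [DecidableEq S] in
theorem variance (f : S → ℝ) (h0 : ∑ x, f x = 0) :
    ∑ x, ∑ y, (f x - f y) ^ 2 = 2 * Fintype.card S * ∑ x, f x ^ 2 := by
  have h1 : ∀ x, ∑ y, (f x - f y) ^ 2 =
      Fintype.card S * f x ^ 2 - 2 * f x * (∑ y, f y) + ∑ y, f y ^ 2 := by
    intro x
    have : (Fintype.card S : ℝ) * f x ^ 2 = ∑ _y : S, f x ^ 2 := by
      rw [Finset.sum_const, Finset.card_univ, nsmul_eq_mul]
    rw [this, Finset.mul_sum, ← Finset.sum_sub_distrib, ← Finset.sum_add_distrib]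
    exact Finset.sum_congr rfl fun y _ => by ring
  simp_rw [h1, h0]
  rw [Finset.sum_add_distrib, Finset.sum_sub_distrib, ← Finset.mul_sum, Finset.sum_const,
    Finset.card_univ, nsmul_eq_mul]
  simp
  ring

theorem step (P : Matrix S S ℝ) (hsymm : ∀ x y, P x y = P y x) (hnn : ∀ x y, 0 ≤ P x y)
    (hsum : ∀ x, ∑ y, P x y = 1) (hlazy : ∀ x, 1 / 2 ≤ P x x) (C : ℝ) (hC : 0 < C)
    (hP : ∀ f : S → ℝ, ∑ x, ∑ y, (f x - f y) ^ 2 ≤
      C * Fintype.card S * ∑ x, ∑ y, P x y * (f x - f y) ^ 2)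
    (f : S → ℝ) (h0 : ∑ x, f x = 0) :
    ∑ x, (∑ y, P x y * f y) ^ 2 ≤ Real.exp (-(1 / C)) * ∑ x, f x ^ 2 := by
  rcases isEmpty_or_nonempty S with hS | hS
  · simp
  have hcard : (0 : ℝ) < Fintype.card S := by exact_mod_cast Fintype.card_pos
  have h1 := hP f
  rw [variance f h0, dirichlet P hsymm hsum] at h1
  have h2 := norm_sq_le P hsymm hnn hsum hlazy f
  set A := ∑ x, f x ^ 2
  set B := ∑ x, f x * ∑ y, P x y * f y
  have h3 : A ≤ C * (A - B) := by
    have h4 : (Fintype.card S : ℝ) * (2 * A) ≤ Fintype.card S * (C * (2 * A - 2 * B)) := by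
      linarith
    have h5 := le_of_mul_le_mul_left h4 hcard
    linarith
  have h4 : B ≤ (1 - 1 / C) * A := by
    have h5 : A / C ≤ A - B := by
      rw [div_le_iff₀ hC]; linarith
    have h6 : (1 - 1 / C) * A = A - A / C := by ring
    linarith
  have hA : 0 ≤ A := Finset.sum_nonneg fun x _ => sq_nonneg _
  have h5 : 1 - 1 / C ≤ Real.exp (-(1 / C)) := by
    have := Real.add_one_le_exp (-(1 / C))
    linarith
  have h6 : (1 - 1 / C) * A ≤ Real.exp (-(1 / C)) * A := mul_le_mul_of_nonneg_right h5 hA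
  linarith

theorem pow_symm (P : Matrix S S ℝ) (hsymm : ∀ x y, P x y = P y x) (t : ℕ) (x y : S) :
    (P ^ t) x y = (P ^ t) y x := by
  have h1 : P.transpose = P := by
    ext i j
    exact hsymm j i
  have h2 : (P ^ t).transpose = P ^ t := by
    rw [Matrix.transpose_pow, h1]
  conv_lhs => rw [← h2]
  rfl

end MixAux

open MixAux in
theorem mixing_of_poincare {S : Type*} [Fintype S] [DecidableEq S] [Nonempty S]
    (P : Matrix S S ℝ) (hsymm : ∀ x y, P x y = P y x) (hnn : ∀ x y, 0 ≤ P x y)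
    (hsum : ∀ x, ∑ y, P x y = 1) (hlazy : ∀ x, 1 / 2 ≤ P x x) (C : ℝ) (hC : 0 < C)
    (hP : ∀ f : S → ℝ, ∑ x, ∑ y, (f x - f y) ^ 2 ≤
      C * Fintype.card S * ∑ x, ∑ y, P x y * (f x - f y) ^ 2)
    (t : ℕ) (ht : C * Real.log (4 * Fintype.card S) ≤ t) (x : S) :
    1 / 2 * ∑ y, |(P ^ t) x y - 1 / (Fintype.card S : ℝ)| ≤ 1 / 4 := by
  have hn : (0 : ℝ) < Fintype.card S := by exact_mod_cast Fintype.card_pos
  have hn1 : (1 : ℝ) ≤ Fintype.card S := by exact_mod_cast Fintype.card_pos
  set n : ℝ := (Fintype.card S : ℝ) with hndef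
  -- column `x` of `P^t` minus the uniform distribution
  set u : ℕ → S → ℝ := fun t y => (P ^ t) y x - 1 / n with hu
  have hrec : ∀ t y, u (t + 1) y = ∑ z, P y z * u t z := by
    intro t y
    simp only [hu, mul_sub]
    rw [Finset.sum_sub_distrib, ← Finset.sum_mul, hsum, one_mul, pow_succ', Matrix.mul_apply]
  have hmean : ∀ t, ∑ y, u t y = 0 := by
    intro t
    induction t with
    | zero =>
      simp only [hu, pow_zero, Finset.sum_sub_distrib, Matrix.one_apply, Finset.sum_ite_eq',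
        Finset.mem_univ, if_true, Finset.sum_const, Finset.card_univ, nsmul_eq_mul]
      rw [← hndef]
      field_simp
      norm_num
    | succ t ih =>
      simp_rw [hrec]
      rw [Finset.sum_comm]
      have : ∀ z, ∑ y, P y z * u t z = u t z := by
        intro z
        rw [← Finset.sum_mul]
        have : ∑ y, P y z = 1 := by
          rw [← hsum z]
          exact Finset.sum_congr rfl fun y _ => hsymm y z
        rw [this, one_mul]
      simp_rw [this]
      exact ih
  have hdecay : ∀ t : ℕ, ∑ y, u t y ^ 2 ≤ Real.exp (-(t / C)) := by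
    intro t
    induction t with
    | zero =>
      have h1 : ∀ y, u 0 y ^ 2 ≤ (if y = x then 1 else 0) * (1 - 2 / n) + 1 / n ^ 2 := by
        intro y
        simp only [hu, pow_zero, Matrix.one_apply]
        refine le_of_eq ?_
        split_ifs
        · field_simp; ring
        · field_simp; ring
      refine (Finset.sum_le_sum fun y _ => h1 y).trans ?_
      rw [Finset.sum_add_distrib, ← Finset.sum_mul, Finset.sum_ite_eq', if_pos (Finset.mem_univ x),
        Finset.sum_const, Finset.card_univ, nsmul_eq_mul, ← hndef]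
      have : n * (1 / n ^ 2) = 1 / n := by field_simp
      rw [this]
      simp only [Nat.cast_zero, zero_div, neg_zero, Real.exp_zero, one_mul]
      have : 0 ≤ 1 / n := by positivity
      have h2 : 2 / n = 2 * (1 / n) := by ring
      linarith
    | succ t ih =>
      simp_rw [hrec]
      refine (step P hsymm hnn hsum hlazy C hC hP (u t) (hmean t)).trans ?_
      have h1 : Real.exp (-(((t + 1 : ℕ) : ℝ) / C)) =
          Real.exp (-(1 / C)) * Real.exp (-(t / C)) := by
        rw [← Real.exp_add]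
        congr 1
        push_cast
        ring
      rw [h1]
      exact mul_le_mul_of_nonneg_left ih (Real.exp_pos _).le
  have hfin : ∑ y, u t y ^ 2 ≤ 1 / (4 * n) := by
    refine (hdecay t).trans ?_
    have h1 : Real.log (4 * n) ≤ t / C := by
      rw [le_div_iff₀ hC]; linarith
    calc Real.exp (-(t / C)) ≤ Real.exp (-Real.log (4 * n)) := by
          apply Real.exp_le_exp.2; linarith
      _ = 1 / (4 * n) := by
          rw [Real.exp_neg, Real.exp_log (by positivity), one_div]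
  have hcs : (∑ y, |u t y|) ^ 2 ≤ n * ∑ y, u t y ^ 2 := by
    have h1 := Finset.sum_mul_sq_le_sq_mul_sq Finset.univ (fun _ : S => (1 : ℝ)) (fun y => |u t y|)
    simp only [one_mul, one_pow, sq_abs, Finset.sum_const, Finset.card_univ, nsmul_eq_mul,
      mul_one] at h1
    exact h1
  have h1 : (∑ y, |u t y|) ^ 2 ≤ (1 / 2) ^ 2 := by
    refine hcs.trans ?_
    calc n * ∑ y, u t y ^ 2 ≤ n * (1 / (4 * n)) := mul_le_mul_of_nonneg_left hfin hn.le
      _ = (1 / 2) ^ 2 := by field_simp; norm_num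
  have h2 : ∑ y, |u t y| ≤ 1 / 2 := by
    have h3 : 0 ≤ ∑ y, |u t y| := Finset.sum_nonneg fun y _ => abs_nonneg _
    exact (abs_le_of_sq_le_sq' h1 (by norm_num)).2
  have h3 : ∀ y, |(P ^ t) x y - 1 / n| = |u t y| := by
    intro y
    simp only [hu]
    rw [pow_symm P hsymm t x y]
  simp_rw [h3]
  linarith

end Vale.Agent.P335
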