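import Vale.Agent.P335.Assemble
import Vale.Agent.P335.ChainFacts
import Vale.Agent.P335.Mixing

/-!
# P335: rapid mixing of the switch chain for every graphical degree vector
-/

namespace Vale.Agent.P335

open scoped symmDiff

section
variable {V : Type*} [Fintype V]

open Classical in
/-- a realisation near `Y` -/
noncomputable def rep (d : V → ℕ) (Y : SimpleGraph V) : SimpleGraph V :=
  if Real d Y then Y else if h : Near 8 d Y then Classical.choose h else Y

theorem rep_self {d : V → ℕ} {X : SimpleGraph V} (h : Real d X) : rep d X = X := by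
  simp [rep, h]

theorem rep_spec {d : V → ℕ} {Y : SimpleGraph V} (h : Near 8 d Y) :
    Real d (rep d Y) ∧ ed Y (rep d Y) ≤ 8 := by
  by_cases h1 : Real d Y
  · rw [rep_self h1]; exact ⟨h1, by simp⟩
  · have : rep d Y = Classical.choose h := by simp [rep, h1, h]
    rw [this]
    exact Classical.choose_spec h

theorem mem_OmF {d : V → ℕ} {X : SimpleGraph V} : X ∈ OmF d ↔ Real d X := by
  simp [OmF]

theorem mem_NrF {d : V → ℕ} {X : SimpleGraph V} : X ∈ NrF d ↔ Near 8 d X := by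
  simp [NrF]

theorem rep_fibre (d : V → ℕ) (ψ : SimpleGraph V → ℝ) (hψ : ∀ G, 0 ≤ ψ G) :
    ∑ Y ∈ NrF d, ψ (rep d Y) ≤ ((Fintype.card V : ℝ) ^ 2 + 1) ^ 8 * ∑ G ∈ OmF d, ψ G := by
  classical
  have hmaps : ∀ Y ∈ NrF d, rep d Y ∈ OmF d := by
    intro Y hY
    rw [mem_OmF]; rw [mem_NrF] at hY
    exact (rep_spec hY).1
  rw [← Finset.sum_fiberwise_of_maps_to hmaps, Finset.mul_sum]
  apply Finset.sum_le_sum
  intro G _
  have h1 : ∑ Y ∈ (NrF d).filter (fun Y => rep d Y = G), ψ (rep d Y) =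
      ((NrF d).filter (fun Y => rep d Y = G)).card * ψ G := by
    rw [← nsmul_eq_mul, ← Finset.sum_const]
    apply Finset.sum_congr rfl
    intro Y hY
    rw [(Finset.mem_filter.1 hY).2]
  rw [h1]
  refine mul_le_mul_of_nonneg_right ?_ (hψ G)
  have h2 : ((NrF d).filter (fun Y => rep d Y = G)).card ≤ {Y : SimpleGraph V | ed Y G ≤ 8}.ncard := by
    rw [← Set.ncard_coe_finset]
    refine Set.ncard_le_ncard ?_ (Set.toFinite _)
    intro Y hY
    rw [Finset.mem_coe, Finset.mem_filter, mem_NrF] at hY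
    have := (rep_spec hY.1).2
    rw [hY.2] at this
    exact this
  have h3 := h2.trans (ball_card 8 G)
  exact_mod_cast h3

theorem card_NrF_le (d : V → ℕ) :
    ((NrF d).card : ℝ) ≤ ((Fintype.card V : ℝ) ^ 2 + 1) ^ 8 * (OmF d).card := by
  have := rep_fibre d (fun _ => 1) (fun _ => zero_le_one)
  simpa using this

open Classical in
theorem sum_gfun_le (d : V → ℕ) (f : SimpleGraph V → ℝ) :
    ∑ Y ∈ NrF d, gfun d (fun Y => f (rep d Y)) Y ≤
      ((Fintype.card V : ℝ) ^ 2 + 1) ^ 16 *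
        ∑ G ∈ OmF d, ∑ H ∈ OmF d, (if ed G H ≤ 22 then (f G - f H) ^ 2 else 0) := by
  set φ : SimpleGraph V → SimpleGraph V → ℝ := fun G H =>
    if ed G H ≤ 22 then (f G - f H) ^ 2 else 0 with hφ
  have φ0 : ∀ G H, 0 ≤ φ G H := by
    intro G H; simp only [hφ]; split_ifs
    · positivity
    · exact le_rfl
  calc ∑ Y ∈ NrF d, gfun d (fun Y => f (rep d Y)) Y
      ≤ ∑ Y ∈ NrF d, ∑ Z ∈ NrF d, φ (rep d Y) (rep d Z) := by
        apply Finset.sum_le_sum; intro Y hY
        unfold gfun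
        apply Finset.sum_le_sum; intro Z hZ
        rw [mem_NrF] at hY hZ
        by_cases h1 : ed Y Z ≤ 6
        · rw [if_pos h1]
          have h2 := (rep_spec hY).2
          have h3 := (rep_spec hZ).2
          have h4 := ed_triangle (rep d Y) Y (rep d Z)
          have h5 := ed_triangle Y Z (rep d Z)
          rw [ed_comm (rep d Y) Y] at h4
          simp only [hφ]
          rw [if_pos (by omega)]
        · rw [if_neg h1]; exact φ0 _ _
    _ ≤ ∑ Y ∈ NrF d, ((Fintype.card V : ℝ) ^ 2 + 1) ^ 8 * ∑ H ∈ OmF d, φ (rep d Y) H := by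
        apply Finset.sum_le_sum; intro Y _
        exact rep_fibre d (fun H => φ (rep d Y) H) (fun H => φ0 _ _)
    _ = ((Fintype.card V : ℝ) ^ 2 + 1) ^ 8 * ∑ Y ∈ NrF d, ∑ H ∈ OmF d, φ (rep d Y) H := by
        rw [Finset.mul_sum]
    _ ≤ ((Fintype.card V : ℝ) ^ 2 + 1) ^ 8 * (((Fintype.card V : ℝ) ^ 2 + 1) ^ 8 *
          ∑ G ∈ OmF d, ∑ H ∈ OmF d, φ G H) := by
        refine mul_le_mul_of_nonneg_left ?_ (by positivity)
        exact rep_fibre d (fun G => ∑ H ∈ OmF d, φ G H)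
          (fun G => Finset.sum_nonneg (fun H _ => φ0 _ _))
    _ = _ := by ring

/-- an absolute constant -/
def cc : ℕ := 2 ^ 968

theorem cc_cast : (cc : ℝ) = 2 ^ 968 := by
  unfold cc
  rw [Nat.cast_pow, Nat.cast_ofNat]

theorem cc_pos : 0 < cc := by
  unfold cc
  exact pow_pos (by norm_num) _

attribute [irreducible] cc

/-- The constant in the Poincare inequality. -/
def PC (n : ℕ) : ℕ :=
  2 * n ^ 10 * (n ^ 4 + 2) ^ 2 * (n ^ 2 + 1) ^ 24 * (cc * (n ^ 2 + 1) ^ 506)

theorem PC_pos {n : ℕ} (hn : 0 < n) : 0 < PC n := by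
  unfold PC
  have := cc_pos
  positivity

theorem PC_cast (n : ℕ) : (PC n : ℝ) = 2 * (n : ℝ) ^ 10 * ((n : ℝ) ^ 4 + 2) ^ 2 *
    ((n : ℝ) ^ 2 + 1) ^ 24 * (2 ^ 968 * ((n : ℝ) ^ 2 + 1) ^ 506) := by
  unfold PC
  rw [← cc_cast]
  push_cast
  rfl

theorem PC_eval (n : ℕ) : PC n =
    2 * n ^ 10 * (n ^ 4 + 2) ^ 2 * (n ^ 2 + 1) ^ 24 * (cc * (n ^ 2 + 1) ^ 506) := rfl

attribute [irreducible] PC

open Classical in
theorem poincare_switch (d : V → ℕ) (f : SimpleGraph V → ℝ) :
    ∑ X ∈ OmF d, ∑ X' ∈ OmF d, (f X - f X') ^ 2 ≤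
      PC (Fintype.card V) * (OmF d).card *
        ∑ G ∈ OmF d, ∑ H ∈ OmF d, (if Sw G H then (f G - f H) ^ 2 else 0) := by
  set E := ∑ G ∈ OmF d, ∑ H ∈ OmF d, (if Sw G H then (f G - f H) ^ 2 else 0) with hE
  have hE0 : 0 ≤ E := by
    apply Finset.sum_nonneg; intro G _
    apply Finset.sum_nonneg; intro H _
    split_ifs
    · positivity
    · exact le_rfl
  have h1 := poincare_near d (fun Y => f (rep d Y))
  have h2 := sum_gfun_le d f
  have h3 := local_sum 22 d f
  have h4 := card_NrF_le d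
  have h5 : ∑ X ∈ OmF d, ∑ X' ∈ OmF d, (f (rep d X) - f (rep d X')) ^ 2 =
      ∑ X ∈ OmF d, ∑ X' ∈ OmF d, (f X - f X') ^ 2 := by
    apply Finset.sum_congr rfl; intro X hX
    apply Finset.sum_congr rfl; intro X' hX'
    rw [mem_OmF] at hX hX'
    rw [rep_self hX, rep_self hX']
  rw [← h5]
  set N : ℝ := (Fintype.card V : ℝ) with hN
  have hN0 : 0 ≤ N := by positivity
  set Q := ∑ G ∈ OmF d, ∑ H ∈ OmF d, (if ed G H ≤ 22 then (f G - f H) ^ 2 else 0) with hQ
  have hQ0 : 0 ≤ Q := by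
    apply Finset.sum_nonneg; intro G _
    apply Finset.sum_nonneg; intro H _
    split_ifs
    · positivity
    · exact le_rfl
  have h6 : Q ≤ 2 ^ 968 * (N ^ 2 + 1) ^ 506 * E := by
    have e1 : 2 * 22 ^ 2 = 968 := by norm_num
    have e2 : 22 + 22 ^ 2 = 506 := by norm_num
    rw [e1, e2] at h3
    exact h3
  calc ∑ X ∈ OmF d, ∑ X' ∈ OmF d, (f (rep d X) - f (rep d X')) ^ 2
      ≤ 2 * N ^ 10 * (N ^ 4 + 2) ^ 2 * (NrF d).card *
        ∑ Y ∈ NrF d, gfun d (fun Y => f (rep d Y)) Y := h1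
    _ ≤ 2 * N ^ 10 * (N ^ 4 + 2) ^ 2 * ((N ^ 2 + 1) ^ 8 * (OmF d).card) *
        ((N ^ 2 + 1) ^ 16 * (2 ^ 968 * (N ^ 2 + 1) ^ 506 * E)) := by
        apply mul_le_mul
        · exact mul_le_mul_of_nonneg_left h4 (by positivity)
        · exact h2.trans (mul_le_mul_of_nonneg_left h6 (by positivity))
        · exact Finset.sum_nonneg (fun Y _ => gfun_nonneg _ _ _)
        · positivity
    _ = PC (Fintype.card V) * (OmF d).card * E := by
        rw [PC_cast, ← hN]
        generalize (2 : ℝ) ^ 968 = c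
        have : (N ^ 2 + 1) ^ 24 = (N ^ 2 + 1) ^ 8 * (N ^ 2 + 1) ^ 16 := by
          rw [← pow_add]
        rw [this]
        generalize (N ^ 2 + 1) ^ 506 = c2
        generalize (N ^ 2 + 1) ^ 8 = c3
        generalize (N ^ 2 + 1) ^ 16 = c4
        generalize N ^ 10 = c5
        generalize (N ^ 4 + 2) ^ 2 = c6
        ring

end

section
variable {n : ℕ}

theorem sum_Omega (d : Fin n → ℕ) (φ : SimpleGraph (Fin n) → ℝ) :
    ∑ x : Omega d, φ x.1 = ∑ G ∈ OmF d, φ G := by
  classical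
  refine Finset.sum_bij (fun x _ => x.1) ?_ ?_ ?_ ?_
  · intro x _; rw [mem_OmF]; exact x.2
  · intro x _ y _ h; exact Subtype.ext h
  · intro G hG; rw [mem_OmF] at hG; exact ⟨⟨G, hG⟩, Finset.mem_univ _, rfl⟩
  · intro x _; rfl

theorem card_Omega (d : Fin n → ℕ) : (Fintype.card (Omega d) : ℝ) = (OmF d).card := by
  have := sum_Omega d (fun _ => 1)
  simpa using this

theorem card_Omega_le (d : Fin n → ℕ) : Fintype.card (Omega d) ≤ 2 ^ (n ^ 2) := by
  classical
  have h1 : Fintype.card (Omega d) ≤ Fintype.card (Set (Fin n × Fin n)) := by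
    refine Fintype.card_le_of_injective
      (fun x : Omega d => {p : Fin n × Fin n | x.1.Adj p.1 p.2}) ?_
    intro x y h
    apply Subtype.ext
    ext a b
    have := Set.ext_iff.1 h (a, b)
    exact this
  rw [Fintype.card_set, Fintype.card_prod, Fintype.card_fin] at h1
  rwa [← sq] at h1

/-- The Poincare inequality for the switch chain. -/
theorem poincare_chain (hn : 4 ≤ n) (d : Fin n → ℕ) (f : Omega d → ℝ) :
    ∑ x, ∑ y, (f x - f y) ^ 2 ≤
      ((PC n * (12 * n.choose 4) : ℕ) : ℝ) * Fintype.card (Omega d) *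
        ∑ x, ∑ y, switchChain d x y * (f x - f y) ^ 2 := by
  classical
  set F : SimpleGraph (Fin n) → ℝ := fun G => if h : HasDeg d G then f ⟨G, h⟩ else 0 with hF
  have hFx : ∀ x : Omega d, F x.1 = f x := by
    intro x
    have : HasDeg d x.1 := x.2
    simp only [hF]; rw [dif_pos this]; rfl
  have h1 := poincare_switch d F
  rw [Fintype.card_fin] at h1
  have e1 : ∑ X ∈ OmF d, ∑ X' ∈ OmF d, (F X - F X') ^ 2 = ∑ x, ∑ y, (f x - f y) ^ 2 := by
    rw [← sum_Omega d (fun X => ∑ X' ∈ OmF d, (F X - F X') ^ 2)]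
    apply Finset.sum_congr rfl; intro x _
    rw [← sum_Omega d (fun X' => (F x.1 - F X') ^ 2)]
    apply Finset.sum_congr rfl; intro y _
    rw [hFx, hFx]
  have e2 : ∑ X ∈ OmF d, ∑ X' ∈ OmF d, (if Sw X X' then (F X - F X') ^ 2 else 0) =
      ∑ x : Omega d, ∑ y : Omega d, (if Sw x.1 y.1 then (f x - f y) ^ 2 else 0) := by
    rw [← sum_Omega d (fun X => ∑ X' ∈ OmF d, (if Sw X X' then (F X - F X') ^ 2 else 0))]
    apply Finset.sum_congr rfl; intro x _
    rw [← sum_Omega d (fun X' => (if Sw x.1 X' then (F x.1 - F X') ^ 2 else 0))]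
    apply Finset.sum_congr rfl; intro y _
    rw [hFx, hFx]
  rw [e1, e2, ← card_Omega] at h1
  have hch : (0 : ℝ) < 12 * (n.choose 4 : ℝ) := by
    have : 0 < n.choose 4 := Nat.choose_pos hn
    positivity
  have h2 : ∑ x : Omega d, ∑ y : Omega d, (if Sw x.1 y.1 then (f x - f y) ^ 2 else 0) ≤
      12 * (n.choose 4 : ℝ) * ∑ x, ∑ y, switchChain d x y * (f x - f y) ^ 2 := by
    rw [Finset.mul_sum]
    apply Finset.sum_le_sum; intro x _
    rw [Finset.mul_sum]
    apply Finset.sum_le_sum; intro y _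
    have hsq : 0 ≤ (f x - f y) ^ 2 := sq_nonneg _
    by_cases hs : Sw x.1 y.1
    · rw [if_pos hs]
      have h3 := switchChain_ge hn d x y hs
      rw [div_le_iff₀ hch] at h3
      nlinarith
    · rw [if_neg hs]
      have h3 := switchChain_nonneg d x y
      positivity
  refine h1.trans ?_
  push_cast
  have h3 : (0 : ℝ) ≤ (PC n : ℝ) * Fintype.card (Omega d) := by positivity
  have h4 := mul_le_mul_of_nonneg_left h2 h3
  refine h4.trans (le_of_eq ?_)
  ring

/-- An explicit time by which the chain has mixed. -/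
def Tmix (n : ℕ) : ℕ := PC n * (12 * n.choose 4) * (n ^ 2 + 2)

theorem mixed_at_Tmix (hn : 4 ≤ n) (d : Fin n → ℕ) (hd : Graphical d) :
    Tmix n ∈ mixedTimes d := by
  classical
  intro x
  have : Nonempty (Omega d) := ⟨x⟩
  have hch : 0 < n.choose 4 := Nat.choose_pos hn
  have hC : (0 : ℝ) < ((PC n * (12 * n.choose 4) : ℕ) : ℝ) := by
    have h1 : 0 < PC n := PC_pos (by omega)
    have : 0 < PC n * (12 * n.choose 4) := Nat.mul_pos h1 (Nat.mul_pos (by norm_num) hch)
    exact_mod_cast this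
  have h := mixing_of_poincare (switchChain d) (switchChain_symm d) (switchChain_nonneg d)
    (switchChain_sum hn d) (switchChain_lazy d) _ hC (poincare_chain hn d) (Tmix n) ?_ x
  · exact h
  · have hcard : (0 : ℝ) < Fintype.card (Omega d) := by
      have : 0 < Fintype.card (Omega d) := Fintype.card_pos
      exact_mod_cast this
    have h1 : Real.log (4 * Fintype.card (Omega d)) ≤ (n : ℝ) ^ 2 + 2 := by
      have h2 : (4 : ℝ) * Fintype.card (Omega d) ≤ 2 ^ (n ^ 2 + 2) := by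
        have : (Fintype.card (Omega d) : ℝ) ≤ 2 ^ (n ^ 2) := by exact_mod_cast card_Omega_le d
        rw [pow_add]; linarith
      have h3 := Real.log_le_log (by positivity) h2
      rw [Real.log_pow] at h3
      have h4 : Real.log 2 ≤ 1 := by
        have := Real.log_two_lt_d9; linarith
      have h5 : ((n ^ 2 + 2 : ℕ) : ℝ) * Real.log 2 ≤ ((n ^ 2 + 2 : ℕ) : ℝ) * 1 :=
        mul_le_mul_of_nonneg_left h4 (by positivity)
      push_cast at h3 h5
      linarith
    have h6 := mul_le_mul_of_nonneg_left h1 hC.le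
    refine h6.trans (le_of_eq ?_)
    unfold Tmix
    push_cast
    ring

/-- The polynomial bound. -/
noncomputable def mixPoly : Polynomial ℕ :=
  2 * Polynomial.X ^ 10 * (Polynomial.X ^ 4 + 2) ^ 2 * (Polynomial.X ^ 2 + 1) ^ 24 *
    (Polynomial.C cc * (Polynomial.X ^ 2 + 1) ^ 506) * (12 * Polynomial.X ^ 4) *
      (Polynomial.X ^ 2 + 2)

theorem Tmix_le (n : ℕ) : Tmix n ≤ mixPoly.eval n := by
  have h1 : mixPoly.eval n = PC n * (12 * n ^ 4) * (n ^ 2 + 2) := by
    rw [PC_eval]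
    unfold mixPoly
    simp only [Polynomial.eval_mul, Polynomial.eval_add, Polynomial.eval_pow, Polynomial.eval_X,
      Polynomial.eval_one, Polynomial.eval_ofNat, Polynomial.eval_C]
  rw [h1]
  unfold Tmix
  have h2 : n.choose 4 ≤ n ^ 4 := Nat.choose_le_pow n 4
  exact Nat.mul_le_mul_right _ (Nat.mul_le_mul_left _ (Nat.mul_le_mul_left _ h2))

end

end Vale.Agent.P335
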